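import Vale.Agent.P224.R2.H135.Tab

/-!
The pointwise inequality of a pair of certificates from kernel checks.
-/

namespace Vale.Agent.P224.R2.H135

open Set
open Vale.Agent.P224.UE Vale.Agent.P224.POS Vale.Agent.P224.UG Vale.Agent.P224.PU
open Vale.Agent.P224.R2.H389
open scoped RealInnerProductSpace

noncomputable section

/-! ### The forms of a block -/

/-- the coefficient of an element at a value of `k` -/
def qv (k : ℝ) (els : List (Nat × PE)) (u : ℕ) : ℝ := PE.ev (fun _ => k) (elp els u)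

/-- the matrix of a block at a value of `k` -/
def ZB (k : ℝ) (B : Blk) (i j : ℕ) : ℝ :=
  ∑ u ∈ Finset.range B.G.length, ∑ v ∈ Finset.range B.G.length, (gij B.G u v : ℝ)
    * ((if elk B.els u = i then qv k B.els u else 0)
      * (if elk B.els v = j then qv k B.els v else 0))

lemma ite_sum {i0 : ℕ} (hi : i0 < 9) (a : ℝ) (x : ℕ → ℝ) :
    ∑ i ∈ Finset.range 9, (if i0 = i then a else 0) * x i = a * x i0 := by
  simp only [ite_mul, zero_mul]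
  rw [Finset.sum_ite_eq, if_pos (Finset.mem_range.2 hi)]

lemma ZB_sum (k : ℝ) (B : Blk) (h : elsK B.els = true) (M : ℕ → ℕ → ℝ) :
    ∑ i ∈ Finset.range 9, ∑ j ∈ Finset.range 9, ZB k B i j * M i j
      = ∑ u ∈ Finset.range B.G.length, ∑ v ∈ Finset.range B.G.length, (gij B.G u v : ℝ)
        * (qv k B.els u * qv k B.els v * M (elk B.els u) (elk B.els v)) := by
  unfold ZB
  simp only [Finset.sum_mul]
  have s1 : ∀ F : ℕ → ℕ → ℕ → ℕ → ℝ, ∑ i ∈ Finset.range 9, ∑ j ∈ Finset.range 9,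
      ∑ u ∈ Finset.range B.G.length, ∑ v ∈ Finset.range B.G.length, F i j u v
      = ∑ u ∈ Finset.range B.G.length, ∑ v ∈ Finset.range B.G.length,
        ∑ i ∈ Finset.range 9, ∑ j ∈ Finset.range 9, F i j u v := by
    intro F
    calc _ = ∑ i ∈ Finset.range 9, ∑ u ∈ Finset.range B.G.length, ∑ j ∈ Finset.range 9,
          ∑ v ∈ Finset.range B.G.length, F i j u v :=
        Finset.sum_congr rfl fun i _ => Finset.sum_comm
      _ = ∑ u ∈ Finset.range B.G.length, ∑ i ∈ Finset.range 9, ∑ j ∈ Finset.range 9,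
          ∑ v ∈ Finset.range B.G.length, F i j u v := Finset.sum_comm
      _ = ∑ u ∈ Finset.range B.G.length, ∑ i ∈ Finset.range 9,
          ∑ v ∈ Finset.range B.G.length, ∑ j ∈ Finset.range 9, F i j u v :=
        Finset.sum_congr rfl fun u _ => Finset.sum_congr rfl fun i _ => Finset.sum_comm
      _ = _ := Finset.sum_congr rfl fun u _ => Finset.sum_comm
  rw [s1]
  refine Finset.sum_congr rfl fun u _ => Finset.sum_congr rfl fun v _ => ?_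
  have hu := (elsK_spec h u).1
  have hv := (elsK_spec h v).1
  have e1 : ∀ i : ℕ, ∑ j ∈ Finset.range 9, (gij B.G u v : ℝ)
      * ((if elk B.els u = i then qv k B.els u else 0)
        * (if elk B.els v = j then qv k B.els v else 0)) * M i j
      = (if elk B.els u = i then qv k B.els u else 0)
        * ((gij B.G u v : ℝ) * (qv k B.els v * M i (elk B.els v))) := by
    intro i
    have e2 : ∀ j : ℕ, (gij B.G u v : ℝ)
        * ((if elk B.els u = i then qv k B.els u else 0)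
          * (if elk B.els v = j then qv k B.els v else 0)) * M i j
        = (if elk B.els u = i then qv k B.els u else 0) * ((gij B.G u v : ℝ)
          * ((if elk B.els v = j then qv k B.els v else 0) * M i j)) := fun j => by ring
    simp only [e2]
    rw [← Finset.mul_sum, ← Finset.mul_sum, ite_sum hv _ fun j => M i j]
  simp only [e1]
  rw [ite_sum hu _ fun i => (gij B.G u v : ℝ) * (qv k B.els v * M i (elk B.els v))]
  ring

lemma ZB_sym (k : ℝ) (B : Blk) (i j : ℕ) : ZB k B i j = ZB k B j i := by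
  unfold ZB
  rw [Finset.sum_comm]
  refine Finset.sum_congr rfl fun v _ => Finset.sum_congr rfl fun u _ => ?_
  rw [gij_sym B.G u v]
  ring

lemma psd_ZB (k : ℝ) (B : Blk) (h : elsK B.els = true) (hq : QPos B.G) : Psd (ZB k B) := by
  refine ⟨ZB_sym k B, fun x => ?_⟩
  rw [ZB_sum k B h fun i j => x i * x j]
  have h1 := hq fun u => qv k B.els u * x (elk B.els u)
  refine h1.trans (le_of_eq ?_)
  refine Finset.sum_congr rfl fun u _ => Finset.sum_congr rfl fun v _ => ?_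
  ring

/-- the value of a block with a symmetric table -/
lemma ev_blkZ {tab : List (List PE)} {f : ℕ → ℝ} (B : Blk) (ht : tri B.G 0 = true)
    (hsym : ∀ k l, PE.ev f (grT tab k l) = PE.ev f (grT tab l k)) (h : elsK B.els = true) :
    PE.ev f (blkT tab B) = ∑ i ∈ Finset.range 9, ∑ j ∈ Finset.range 9,
      ZB (f 0) B i j * PE.ev f (grT tab i j) := by
  rw [ev_blkT tab f B ht hsym, ZB_sum (f 0) B h fun i j => PE.ev f (grT tab i j)]
  refine Finset.sum_congr rfl fun u _ => Finset.sum_congr rfl fun v _ => ?_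
  have e1 : PE.ev f (elp B.els u) = qv (f 0) B.els u := ev_isK (elsK_spec h u).2 rfl
  have e2 : PE.ev f (elp B.els v) = qv (f 0) B.els v := ev_isK (elsK_spec h v).2 rfl
  rw [e1, e2]

/-! ### Lists of blocks -/

lemma Psd.zero : Psd fun _ _ => 0 := ⟨fun _ _ => rfl, fun x => by simp⟩

lemma Psd.add {Z W : ℕ → ℕ → ℝ} (hZ : Psd Z) (hW : Psd W) : Psd fun i j => Z i j + W i j := by
  refine ⟨fun i j => by beta_reduce; rw [hZ.1 i j, hW.1 i j], fun x => ?_⟩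
  have h := add_nonneg (hZ.2 x) (hW.2 x)
  refine h.trans (le_of_eq ?_)
  rw [← Finset.sum_add_distrib]
  refine Finset.sum_congr rfl fun i _ => ?_
  rw [← Finset.sum_add_distrib]
  refine Finset.sum_congr rfl fun j _ => ?_
  ring

lemma Psd.smul {Z : ℕ → ℕ → ℝ} (hZ : Psd Z) {c : ℝ} (hc : 0 ≤ c) : Psd fun i j => c * Z i j := by
  refine ⟨fun i j => by beta_reduce; rw [hZ.1 i j], fun x => ?_⟩
  have h := mul_nonneg hc (hZ.2 x)
  refine h.trans (le_of_eq ?_)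
  rw [Finset.mul_sum]
  refine Finset.sum_congr rfl fun i _ => ?_
  rw [Finset.mul_sum]
  refine Finset.sum_congr rfl fun j _ => ?_
  ring

lemma Psd.scale {Z : ℕ → ℕ → ℝ} (hZ : Psd Z) (s : ℕ → ℝ) : Psd fun i j => s i * s j * Z i j := by
  refine ⟨fun i j => by beta_reduce; rw [hZ.1 i j]; ring, fun x => ?_⟩
  have h := hZ.2 fun i => s i * x i
  refine h.trans (le_of_eq ?_)
  refine Finset.sum_congr rfl fun i _ => Finset.sum_congr rfl fun j _ => ?_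
  ring

/-- the matrix of a list of blocks with factors -/
def ZL (k : ℝ) (L : List (Nat × Blk)) (i j : ℕ) : ℝ :=
  (L.map fun x => PE.ev (fun _ => k) (mK x.1) * ZB k x.2 i j).sum

lemma isK_mK (a : ℕ) : isK (mK a) = true := by
  rcases a with _ | _ | _ | a <;> rfl

lemma psd_ZL {k : ℝ} (hk0 : 0 ≤ k) (hk1 : k ≤ 1) (L : List (Nat × Blk))
    (h : ∀ x ∈ L, elsK x.2.els = true ∧ QPos x.2.G) : Psd (ZL k L) := by
  induction L with
  | nil => exact Psd.zero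
  | cons x L ih =>
    have h1 := h x List.mem_cons_self
    have h2 := (psd_ZB k x.2 h1.1 h1.2).smul (c := PE.ev (fun _ => k) (mK x.1))
      (mK_nonneg hk0 hk1 x.1)
    have h3 := h2.add (ih fun y hy => h y (List.mem_cons_of_mem _ hy))
    have e : ZL k (x :: L) = fun i j => PE.ev (fun _ => k) (mK x.1) * ZB k x.2 i j + ZL k L i j := by
      funext i j
      simp only [ZL, List.map_cons, List.sum_cons]
    rw [e]
    exact h3

/-- the factors and the blocks -/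
def prj (L : List BS) : List (Nat × Blk) :=
  List.rec (motive := fun _ => List (Nat × Blk)) [] (fun x _ ih => (x.1, x.2.1) :: ih) L

/-- a verified block of one of the functional inequalities -/
def okX (tab : List (List PE)) (x : BS) : Prop :=
  elsK x.2.1.els = true ∧ tri x.2.1.G 0 = true ∧ QPos x.2.1.G ∧
    ∃ Ms : List ℕ, Ms.length = 4 ∧ chk Ms (PE.sub (blkT tab x.2.1) (sS x.2.2)) = true

lemma prj_ok {tab : List (List PE)} {L : List BS} (h : ∀ x ∈ L, okX tab x) :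
    ∀ x ∈ prj L, elsK x.2.els = true ∧ QPos x.2.G := by
  induction L with
  | nil => intro x hx; exact absurd hx List.not_mem_nil
  | cons y L ih =>
    intro x hx
    have e : prj (y :: L) = (y.1, y.2.1) :: prj L := rfl
    rw [e] at hx
    rcases List.mem_cons.1 hx with rfl | hx
    · obtain ⟨a, b, c, d⟩ := h y List.mem_cons_self
      exact ⟨a, c⟩
    · exact ih (fun z hz => h z (List.mem_cons_of_mem _ hz)) x hx

lemma ev_rhsZ {tab : List (List PE)} {f : ℕ → ℝ} (hf : ∀ i, 14 ≤ i → f i = 0)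
    (hsym : ∀ k l, PE.ev f (grT tab k l) = PE.ev f (grT tab l k)) (L : List BS)
    (h : ∀ x ∈ L, okX tab x) :
    PE.ev f (rhsS L) = ∑ i ∈ Finset.range 9, ∑ j ∈ Finset.range 9,
      ZL (f 0) (prj L) i j * PE.ev f (grT tab i j) := by
  induction L with
  | nil =>
    have e1 : rhsS [] = PE.c 0 := rfl
    rw [e1, PE.ev_c, Int.cast_zero]
    have e2 : ∀ i j, ZL (f 0) (prj []) i j = 0 := fun i j => rfl
    simp only [e2, zero_mul, Finset.sum_const_zero]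
  | cons x L ih =>
    have e1 : rhsS (x :: L) = PE.add (PE.mul (mK x.1) (sS x.2.2)) (rhsS L) := rfl
    obtain ⟨ha, ht, hq, Ms, h4, hc⟩ := h x List.mem_cons_self
    have h1 := ev_eq_of_chk hc f fun i hi => hf i (by omega)
    have h2 := ev_blkZ (tab := tab) (f := f) x.2.1 ht hsym ha
    have h3 : PE.ev f (mK x.1) = PE.ev (fun _ => f 0) (mK x.1) := ev_isK (isK_mK x.1) rfl
    rw [e1, PE.ev_add, PE.ev_mul, ← h1, h2, h3, ih fun y hy => h y (List.mem_cons_of_mem _ hy)]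
    have e3 : ∀ i j, ZL (f 0) (prj (x :: L)) i j
        = PE.ev (fun _ => f 0) (mK x.1) * ZB (f 0) x.2.1 i j + ZL (f 0) (prj L) i j := by
      intro i j
      have e4 : prj (x :: L) = (x.1, x.2.1) :: prj L := rfl
      rw [e4]
      simp only [ZL, List.map_cons, List.sum_cons]
    rw [Finset.mul_sum, ← Finset.sum_add_distrib]
    refine Finset.sum_congr rfl fun i _ => ?_
    rw [Finset.mul_sum, ← Finset.sum_add_distrib]
    refine Finset.sum_congr rfl fun j _ => ?_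
    rw [e3]
    ring

/-- the scaling of the last function -/
def s8 (s : ℝ) (i : ℕ) : ℝ := if i = 8 then s else 1

/-- the matrix in the normalization of the functional inequalities -/
def ZN (r s : ℝ) (Z : ℕ → ℕ → ℝ) (i j : ℕ) : ℝ := r * (s8 s i * s8 s j * Z i j)

lemma psd_ZN {r s : ℝ} (hr : 0 ≤ r) {Z : ℕ → ℕ → ℝ} (h : Psd Z) : Psd (ZN r s Z) :=
  (h.scale (s8 s)).smul hr

lemma val9_eq {a b c ρ s θ : ℝ} (ha : a = ρ) (hb : b = ρ * s * θ) (hc : c = ρ * s ^ 2 * θ)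
    (H P : ℕ → ℝ) (C : ℝ) (i j : ℕ) :
    val9 a b c H P C i j = ρ * (s8 s i * s8 s j
      * (if i = 8 then (if j = 8 then θ * C else θ * P j)
        else (if j = 8 then θ * P i else H i * H j))) := by
  subst ha hb hc
  unfold val9 s8
  split_ifs <;> ring

lemma sum_val9 {ρ w s : ℝ} (hw : w ≠ 0) (Z : ℕ → ℕ → ℝ) {V M : ℕ → ℕ → ℝ}
    (hV : ∀ i < 9, ∀ j < 9, V i j = ρ * (s8 s i * s8 s j * M i j)) :
    ∑ i ∈ Finset.range 9, ∑ j ∈ Finset.range 9, Z i j * V i j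
      = w * ∑ i ∈ Finset.range 9, ∑ j ∈ Finset.range 9, ZN (ρ / w) s Z i j * M i j := by
  rw [Finset.mul_sum]
  refine Finset.sum_congr rfl fun i hi => ?_
  rw [Finset.mul_sum]
  refine Finset.sum_congr rfl fun j hj => ?_
  rw [hV i (Finset.mem_range.1 hi) j (Finset.mem_range.1 hj)]
  unfold ZN
  field_simp

section

variable {E : Type*} [NormedAddCommGroup E] [InnerProductSpace ℝ E]

/-- the positive factor -/
def wT (D : ℤ) (T : ℝ) : ℝ := (1 - T ^ 2) * (1 + kf T ^ 2) * D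

lemma wT_pos {D : ℤ} (hD : 0 < D) {T : ℝ} (h0 : 0 < T) (h1 : T < 1) : 0 < wT D T := by
  have hT : 0 < 1 - T ^ 2 := by nlinarith
  have hD' : (0 : ℝ) < D := by exact_mod_cast hD
  unfold wT
  positivity

/-- **The pointwise inequality at one end** from the kernel checks. -/
theorem pt_end {D : ℤ} (hD : 0 < D) {L : List KT} {B XS YS : List BS}
    {Ms : List ℕ} (h4 : Ms.length = 4) {a b c a' b' c' N : Int}
    (hid : chk Ms (PE.sub (lhsF L) (PE.add (rhsS B) (PE.add (rhsS XS) (rhsS YS)))) = true)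
    (hB : ∀ x ∈ B, okB x) (hX : ∀ x ∈ XS, okX (tE a b c N) x)
    (hY : ∀ x ∈ YS, okX (tO a' b' c' N) x) {ρ s ρ' s' θ : ℝ}
    (ha : (a : ℝ) = ρ) (hb : (b : ℝ) = ρ * s * θ) (hc : (c : ℝ) = ρ * s ^ 2 * θ)
    (ha' : (a' : ℝ) = ρ') (hb' : (b' : ℝ) = ρ' * s' * θ) (hc' : (c' : ℝ) = ρ' * s' ^ 2 * θ)
    {T : ℝ} (hT0 : 0 < T) (hT1 : T < 1) {u w e : E} (hu : ‖u‖ = 1) (hw : ‖w‖ = 1) (he : ‖e‖ = 1)
    (P Q Z Xi : ℝ) :
    Dsum (certK D L) T ![P, Q, ⟪u, w⟫, ⟪u, e⟫, ⟪w, e⟫, Z, Xi, ⟪e, e⟫]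
      + Dsum (certK D L) T (sw8 T ![P, Q, ⟪u, w⟫, ⟪u, e⟫, ⟪w, e⟫, Z, Xi, ⟪e, e⟫])
      + (XE θ N (ZN (ρ / wT D T) s (ZL (kf T) (prj XS)))
          (vK (kf T) ![P, Q, ⟪u, w⟫, ⟪u, e⟫, ⟪w, e⟫, Z, Xi, ⟪e, e⟫])
        + XO θ N (ZN (ρ' / wT D T) s' (ZL (kf T) (prj YS)))
          (vK (kf T) ![P, Q, ⟪u, w⟫, ⟪u, e⟫, ⟪w, e⟫, Z, Xi, ⟪e, e⟫])) ≤ 0 := by
  have h2 := rhsS_nonneg (kf_nonneg T) (kf_le_one hT0.le hT1.le) hu hw he P Q Z Xi B hB
  set v : R8 := ![P, Q, ⟪u, w⟫, ⟪u, e⟫, ⟪w, e⟫, Z, Xi, ⟪e, e⟫] with hv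
  have h7 : v 7 = 1 := by
    change ⟪e, e⟫ = 1
    rw [real_inner_self_eq_norm_sq, he]; norm_num
  have h1 := ev_lhsF hD.ne' L (by linarith : -1 < T) hT1 h7
  have hW := wT_pos hD hT0 hT1
  have h3 := ev_eq_of_chk hid (vK (kf T) v) fun i hi => vK_ge _ _ (by omega)
  rw [PE.ev_add, PE.ev_add] at h3
  have hx := ev_rhsZ (tab := tE a b c N) (f := vK (kf T) v) (fun i hi => vK_ge _ _ (by omega))
    (sym_tE a b c N _) XS hX
  have hy := ev_rhsZ (tab := tO a' b' c' N) (f := vK (kf T) v) (fun i hi => vK_ge _ _ (by omega))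
    (sym_tO a' b' c' N _) YS hY
  have g0 : vK (kf T) v 0 = kf T := rfl
  rw [g0] at hx hy
  rw [sum_val9 (ρ := ρ) (s := s) hW.ne' (ZL (kf T) (prj XS))
    (V := fun i j => PE.ev (vK (kf T) v) (grT (tE a b c N) i j))
    (M := ME θ N (vK (kf T) v)) (fun i hi j hj => by
      rw [ev_tE a b c N _ hi hj, val9_eq ha hb hc]; rfl)] at hx
  rw [sum_val9 (ρ := ρ') (s := s') hW.ne' (ZL (kf T) (prj YS))
    (V := fun i j => PE.ev (vK (kf T) v) (grT (tO a' b' c' N) i j))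
    (M := MO θ N (vK (kf T) v)) (fun i hi j hj => by
      rw [ev_tO a' b' c' N _ hi hj, val9_eq ha' hb' hc']; rfl)] at hy
  rw [hx, hy, h1] at h3
  have e5 : (1 - T ^ 2) * (1 + kf T ^ 2) * (D : ℝ) = wT D T := rfl
  rw [e5] at h3
  change Dsum (certK D L) T v + Dsum (certK D L) T (sw8 T v)
      + (∑ i ∈ Finset.range 9, ∑ j ∈ Finset.range 9,
          ZN (ρ / wT D T) s (ZL (kf T) (prj XS)) i j * ME θ N (vK (kf T) v) i j
        + ∑ i ∈ Finset.range 9, ∑ j ∈ Finset.range 9,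
          ZN (ρ' / wT D T) s' (ZL (kf T) (prj YS)) i j * MO θ N (vK (kf T) v) i j) ≤ 0
  by_contra hcon
  rw [not_le] at hcon
  have h6 := mul_pos hW hcon
  linarith

/-- **The pointwise inequality of a pair** from the kernel checks. -/
theorem hpt_pair {D : ℤ} (hD : 0 < D) {L0 L1 : List KT} {B0 B1 XS0 XS1 YS0 YS1 : List BS}
    {Ms0 Ms1 : List ℕ} (h40 : Ms0.length = 4) (h41 : Ms1.length = 4)
    {a b0 c0 a' b0' c0' b1 c1 b1' c1' N : Int}
    (hid0 : chk Ms0 (PE.sub (lhsF L0) (PE.add (rhsS B0) (PE.add (rhsS XS0) (rhsS YS0)))) = true)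
    (hid1 : chk Ms1 (PE.sub (lhsF L1) (PE.add (rhsS B1) (PE.add (rhsS XS1) (rhsS YS1)))) = true)
    (hB0 : ∀ x ∈ B0, okB x) (hX0 : ∀ x ∈ XS0, okX (tE a b0 c0 N) x)
    (hY0 : ∀ x ∈ YS0, okX (tO a' b0' c0' N) x)
    (hB1 : ∀ x ∈ B1, okB x) (hX1 : ∀ x ∈ XS1, okX (tE a b1 c1 N) x)
    (hY1 : ∀ x ∈ YS1, okX (tO a' b1' c1' N) x)
    (hXX : prj XS1 = prj XS0) (hYY : prj YS1 = prj YS0)
    {ρ s ρ' s' θ₀ θ₁ : ℝ} (hρ : 0 ≤ ρ) (hρ' : 0 ≤ ρ') (ha : (a : ℝ) = ρ) (ha' : (a' : ℝ) = ρ')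
    (hb0 : (b0 : ℝ) = ρ * s * θ₀) (hc0 : (c0 : ℝ) = ρ * s ^ 2 * θ₀)
    (hb0' : (b0' : ℝ) = ρ' * s' * θ₀) (hc0' : (c0' : ℝ) = ρ' * s' ^ 2 * θ₀)
    (hb1 : (b1 : ℝ) = ρ * s * θ₁) (hc1 : (c1 : ℝ) = ρ * s ^ 2 * θ₁)
    (hb1' : (b1' : ℝ) = ρ' * s' * θ₁) (hc1' : (c1' : ℝ) = ρ' * s' ^ 2 * θ₁) :
    ∀ T ∈ Ioo (0 : ℝ) 1, ∃ ZE ZO : ℕ → ℕ → ℝ, Psd ZE ∧ Psd ZO ∧
      ∀ u w e : E, ‖u‖ = 1 → ‖w‖ = 1 → ‖e‖ = 1 → ∀ P Q Z Ξ : ℝ,
      (Dsum (certK D L0) T ![P, Q, ⟪u, w⟫, ⟪u, e⟫, ⟪w, e⟫, Z, Ξ, ⟪e, e⟫]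
        + Dsum (certK D L0) T (sw8 T ![P, Q, ⟪u, w⟫, ⟪u, e⟫, ⟪w, e⟫, Z, Ξ, ⟪e, e⟫])
        + (XE θ₀ N ZE (vK (kf T) ![P, Q, ⟪u, w⟫, ⟪u, e⟫, ⟪w, e⟫, Z, Ξ, ⟪e, e⟫])
          + XO θ₀ N ZO (vK (kf T) ![P, Q, ⟪u, w⟫, ⟪u, e⟫, ⟪w, e⟫, Z, Ξ, ⟪e, e⟫])) ≤ 0) ∧
      (Dsum (certK D L1) T ![P, Q, ⟪u, w⟫, ⟪u, e⟫, ⟪w, e⟫, Z, Ξ, ⟪e, e⟫]
        + Dsum (certK D L1) T (sw8 T ![P, Q, ⟪u, w⟫, ⟪u, e⟫, ⟪w, e⟫, Z, Ξ, ⟪e, e⟫])
        + (XE θ₁ N ZE (vK (kf T) ![P, Q, ⟪u, w⟫, ⟪u, e⟫, ⟪w, e⟫, Z, Ξ, ⟪e, e⟫])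
          + XO θ₁ N ZO (vK (kf T) ![P, Q, ⟪u, w⟫, ⟪u, e⟫, ⟪w, e⟫, Z, Ξ, ⟪e, e⟫])) ≤ 0) := by
  intro T hT
  have hW := wT_pos hD hT.1 hT.2
  have k0 := kf_nonneg T
  have k1 := kf_le_one hT.1.le hT.2.le
  refine ⟨ZN (ρ / wT D T) s (ZL (kf T) (prj XS0)), ZN (ρ' / wT D T) s' (ZL (kf T) (prj YS0)),
    psd_ZN (by positivity) (psd_ZL k0 k1 _ (prj_ok hX0)),
    psd_ZN (by positivity) (psd_ZL k0 k1 _ (prj_ok hY0)), fun u w e hu hw he P Q Z Ξ => ?_⟩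
  have e0 := pt_end hD h40 hid0 hB0 hX0 hY0 ha hb0 hc0 ha' hb0' hc0' hT.1 hT.2 hu hw he P Q Z Ξ
  have e1 := pt_end hD h41 hid1 hB1 hX1 hY1 ha hb1 hc1 ha' hb1' hc1' hT.1 hT.2 hu hw he P Q Z Ξ
  rw [hXX, hYY] at e1
  exact ⟨e0, e1⟩

end

end

end Vale.Agent.P224.R2.H135
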