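import Vale.Agent.P224.R2.H135.Rows

/-!
The squares of the even and of the odd variable over pairs of points of a Gaussian cone.
-/

namespace Vale.Agent.P224.R2.H135

open MeasureTheory Set Filter Function
open Vale.Agent.P224.UE Vale.Agent.P224.UG
open scoped Topology RealInnerProductSpace

set_option linter.unusedSectionVars false

section cone

variable {X : Type*} [MeasurableSpace X] {E : Type*} [NormedAddCommGroup E]
  [InnerProductSpace ℝ E] [MeasurableSpace E] [BorelSpace E] [SecondCountableTopology E]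
  {μ : Measure X} [IsFiniteMeasure μ] {m : ℕ} {p n : X → E} {T : ℝ}

variable (hG : GC (gam m μ) (m + 1) (cp p) (cn n)) (hp : ∀ x, ‖p x‖ = 1) (hT : |T| < 1)

include hG hp hT

lemma norm_cp (q : X × ℝ) : ‖cp p q‖ ^ 2 = q.2 ^ 2 := by
  rw [cp, norm_smul, hp, mul_one, Real.norm_eq_abs, sq_abs]

/-- radial row in the first point times the square of the norm of the first position -/
lemma mMa1 (e : E) (e1 e2 e3 e4 e5 e6 e7 : ℕ) :
    Nl (gam m μ) (cp p) T (fun q => (((m + 1 : ℕ) : ℝ) + T * ⟪cp p q.1, cp p q.2⟫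
      + ((e1 + e6 + 2 : ℕ) : ℝ) - ‖cp p q.1‖ ^ 2)
      * (‖cp p q.1‖ ^ 2 * mM e1 e2 e3 e4 e5 e6 e7 (dat (cp p) (cn n) e q))) := by
  refine eul1 hG hp hT ((sg_a hG).mul (sg_mM hG e e1 e2 e3 e4 e5 e6 e7)) (e1 + e6 + 2)
    fun x r z => ?_
  rw [mM_r1 e e1 e2 e3 e4 e5 e6 e7 x r z, norm_cp hG hp hT, norm_cp hG hp hT, pow_add]
  ring

/-- radial row in the first point times the square of the norm of the second position -/
lemma mMb1 (e : E) (e1 e2 e3 e4 e5 e6 e7 : ℕ) :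
    Nl (gam m μ) (cp p) T (fun q => (((m + 1 : ℕ) : ℝ) + T * ⟪cp p q.1, cp p q.2⟫
      + ((e1 + e6 : ℕ) : ℝ) - ‖cp p q.1‖ ^ 2)
      * (‖cp p q.2‖ ^ 2 * mM e1 e2 e3 e4 e5 e6 e7 (dat (cp p) (cn n) e q))) := by
  refine eul1 hG hp hT ((sg_b hG).mul (sg_mM hG e e1 e2 e3 e4 e5 e6 e7)) (e1 + e6)
    fun x r z => ?_
  rw [mM_r1 e e1 e2 e3 e4 e5 e6 e7 x r z]
  ring

/-- radial row in the second point times the square of the norm of the first position -/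
lemma mMa2 (e : E) (e1 e2 e3 e4 e5 e6 e7 : ℕ) :
    Nl (gam m μ) (cp p) T (fun q => (((m + 1 : ℕ) : ℝ) + T * ⟪cp p q.1, cp p q.2⟫
      + ((e2 + e7 : ℕ) : ℝ) - ‖cp p q.2‖ ^ 2)
      * (‖cp p q.1‖ ^ 2 * mM e1 e2 e3 e4 e5 e6 e7 (dat (cp p) (cn n) e q))) := by
  refine eul2 hG hp hT ((sg_a hG).mul (sg_mM hG e e1 e2 e3 e4 e5 e6 e7)) (e2 + e7)
    fun z x r => ?_
  rw [mM_r2 e e1 e2 e3 e4 e5 e6 e7 x r z]
  ring

/-- radial row in the second point times the square of the norm of the second position -/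
lemma mMb2 (e : E) (e1 e2 e3 e4 e5 e6 e7 : ℕ) :
    Nl (gam m μ) (cp p) T (fun q => (((m + 1 : ℕ) : ℝ) + T * ⟪cp p q.1, cp p q.2⟫
      + ((e2 + e7 + 2 : ℕ) : ℝ) - ‖cp p q.2‖ ^ 2)
      * (‖cp p q.2‖ ^ 2 * mM e1 e2 e3 e4 e5 e6 e7 (dat (cp p) (cn n) e q))) := by
  refine eul2 hG hp hT ((sg_b hG).mul (sg_mM hG e e1 e2 e3 e4 e5 e6 e7)) (e2 + e7 + 2)
    fun z x r => ?_
  rw [mM_r2 e e1 e2 e3 e4 e5 e6 e7 x r z, norm_cp hG hp hT, norm_cp hG hp hT, pow_add]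
  ring

/-- radial row in the first point times the product of the positions -/
lemma mMs1 :
    Nl (gam m μ) (cp p) T (fun q => (((m + 1 : ℕ) : ℝ) + T * ⟪cp p q.1, cp p q.2⟫
      + ((1 : ℕ) : ℝ) - ‖cp p q.1‖ ^ 2) * ⟪cp p q.1, cp p q.2⟫) := by
  refine eul1 hG hp hT (sg_s hG) 1 fun x r z => ?_
  change ⟪r • p x, cp p z⟫ = r ^ 1 * ⟪(1 : ℝ) • p x, cp p z⟫
  rw [real_inner_smul_left, one_smul, pow_one]

/-- the product of the positions times `Q ^ 2` -/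
lemma sQQ (e : E) :
    Nl (gam m μ) (cp p) T (fun q => (1 - T ^ 2) * (⟪cp p q.1, cp p q.2⟫
        * dat (cp p) (cn n) e q 1 ^ 2)
      - (T * ((m + 1 : ℕ) : ℝ) * dat (cp p) (cn n) e q 1 ^ 2
        - T * (dat (cp p) (cn n) e q 2 ^ 2 * dat (cp p) (cn n) e q 1 ^ 2)
        - 2 * (dat (cp p) (cn n) e q 2 * dat (cp p) (cn n) e q 1
          * dat (cp p) (cn n) e q 3))) := by
  have h0 := rowA (T := T) hG e 2 0 0 0 hT
  have h2 := mM2 hG hp hT e 2 0 0 0 0 0 0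
  refine ((h0.smul (-1)).sub hG hT (h2.smul T)).congr fun q => ?_
  have d0 : dat (cp p) (cn n) e q 0 = ⟪cp p q.1, cp p q.2⟫ := rfl
  unfold mM mG mQ mX
  rw [d0]
  push_cast
  ring

/-- the square of the odd variable times `Q ^ 2` -/
theorem GGQQ (e : E) :
    Nl (gam m μ) (cp p) T (fun q => (1 - T ^ 2) * (Gh (cp p) q ^ 2 * dat (cp p) (cn n) e q 1 ^ 2)
      - 4 * ((((m + 1 : ℕ) : ℝ) + 2 * (1 - T ^ 2)) * dat (cp p) (cn n) e q 1 ^ 2
        - T ^ 2 * (dat (cp p) (cn n) e q 2 ^ 2 * dat (cp p) (cn n) e q 1 ^ 2)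
        - 2 * T * (dat (cp p) (cn n) e q 2 * dat (cp p) (cn n) e q 1
          * dat (cp p) (cn n) e q 3))) := by
  have h1 := mMa1 hG hp hT e 2 0 0 0 0 0 0
  have h2 := mMb1 hG hp hT e 2 0 0 0 0 0 0
  have h3 := mMa2 hG hp hT e 2 0 0 0 0 0 0
  have h4 := mMb2 hG hp hT e 2 0 0 0 0 0 0
  have h5 := mM1 hG hp hT e 2 0 0 0 0 0 0
  have h6 := sQQ hG hp hT e
  have h7 := ((h1.sub hG hT h2).sub hG hT h3).add hG hT h4
  have h8 := (h7.smul (-(1 - T ^ 2))).sub hG hT (h5.smul (4 * (1 - T ^ 2)))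
  have h9 := h8.add hG hT (h6.smul (4 * T))
  refine h9.congr fun q => ?_
  unfold mM Gh
  push_cast
  ring

/-- the square of the even variable -/
theorem FF (e : E) :
    Nl (gam m μ) (cp p) T (fun q => Fh (cp p) T q ^ 2
      - (((m + 1 : ℕ) : ℝ) - (1 - T ^ 2) * ((dat (cp p) (cn n) e q 1 ^ 2
          + dat (cp p) (cn n) e q 2 ^ 2) / 2)
        + T ^ 2 * (dat (cp p) (cn n) e q 2 ^ 2 * dat (cp p) (cn n) e q 1 ^ 2)
        + 2 * T * (dat (cp p) (cn n) e q 2 * dat (cp p) (cn n) e q 1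
          * dat (cp p) (cn n) e q 3))) := by
  have := hG.finite
  -- the rows
  have s1 := rowS (T := T) hG e hT
  have s2 := s1.swap
  have a1 := mMs1 hG hp hT
  have a2 := a1.swap
  have b1 := mMa1 hG hp hT e 0 0 0 0 0 0 0
  have b2 := mMb1 hG hp hT e 0 0 0 0 0 0 0
  have b3 := mMa2 hG hp hT e 0 0 0 0 0 0 0
  have b4 := mMb2 hG hp hT e 0 0 0 0 0 0 0
  have c1 := mM1 hG hp hT e 0 0 0 0 0 0 0
  have c2 := mM2 hG hp hT e 0 0 0 0 0 0 0
  have d1 := rowA (T := T) hG e 0 0 0 0 hT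
  have d2 := d1.swap
  have q1 := sQQ hG hp hT e
  have q2 := q1.swap
  -- products with the even variable
  have f1 := (a1.sub hG hT (b1.smul (T / 2))).sub hG hT (b2.smul (T / 2))
  have f2 := (a2.sub hG hT (b3.smul (T / 2))).sub hG hT (b4.smul (T / 2))
  have f3 := (f1.add hG hT f2).smul (T / 2)
  have f4 := (s1.add hG hT s2).smul (-((1 - T ^ 2) / 2))
  have f5 := (d1.add hG hT d2).smul (T * (((m + 1 : ℕ) : ℝ) + 1) / 2)
  have f6 := (q1.add hG hT q2).smul (-(T / 2))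
  have f7 := (c1.add hG hT c2).smul (-(1 / 2))
  have f8 := (d1.add hG hT d2).smul (-(T / 2))
  have g1 := (((f3.add hG hT f4).add hG hT f5).add hG hT f6).add hG hT f7
  have g2 := g1.add hG hT f8
  refine g2.congr fun q => ?_
  have e0 : ∀ q : (X × ℝ) × (X × ℝ), dat (cp p) (cn n) e q 0 = ⟪cp p q.1, cp p q.2⟫ :=
    fun _ => rfl
  have w0 : ⟪cp p q.2, cp p q.1⟫ = ⟪cp p q.1, cp p q.2⟫ := real_inner_comm _ _
  have w1 : dat (cp p) (cn n) e q.swap 1 = dat (cp p) (cn n) e q 2 := by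
    rw [dat_swap, sw9_1]
  have w2 : dat (cp p) (cn n) e q.swap 2 = dat (cp p) (cn n) e q 1 := by
    rw [dat_swap, sw9_2]
  have w3 : dat (cp p) (cn n) e q.swap 3 = dat (cp p) (cn n) e q 3 := by
    rw [dat_swap, sw9_3]
  simp only [e0, w1, w2, w3, Prod.fst_swap, Prod.snd_swap, w0, mM, mG, mQ, mX, Fh]
  push_cast
  generalize ⟪cp p q.1, cp p q.2⟫ = s
  generalize ‖cp p q.1‖ ^ 2 = a
  generalize ‖cp p q.2‖ ^ 2 = b
  generalize dat (cp p) (cn n) e q 1 = Q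
  generalize dat (cp p) (cn n) e q 2 = P
  generalize dat (cp p) (cn n) e q 3 = c
  ring

end cone

end Vale.Agent.P224.R2.H135
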