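import Vale.Agent.P224.UG.Mono

/-!
Null functionals of pairs of points of a Gaussian cone: the radial rows for homogeneous functions.
-/

namespace Vale.Agent.P224.R2.H135

open MeasureTheory Set Filter Function
open Vale.Agent.P224.UE Vale.Agent.P224.UG
open scoped Topology RealInnerProductSpace

set_option linter.unusedSectionVars false

section nullf

variable {Y : Type*} [MeasurableSpace Y] {E : Type*} [NormedAddCommGroup E]
  [InnerProductSpace ℝ E] [MeasurableSpace E] [BorelSpace E] [SecondCountableTopology E]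
  {γ : Measure Y} {n : ℕ} {p ν : Y → E} {T : ℝ}

/-- the pair integral -/
noncomputable def J (γ : Measure Y) (p : Y → E) (T : ℝ) (f : Y × Y → ℝ) : ℝ :=
  ∫ q, Real.exp (T * ⟪p q.1, p q.2⟫) * f q ∂(γ.prod γ)

/-- functions with vanishing pair integral -/
def Nl (γ : Measure Y) (p : Y → E) (T : ℝ) (f : Y × Y → ℝ) : Prop :=
  SG p f ∧ J γ p T f = 0

lemma J_add (h : GC γ n p ν) (hT : |T| < 1) {f g : Y × Y → ℝ} (hf : SG p f) (hg : SG p g) :
    J γ p T (fun q => f q + g q) = J γ p T f + J γ p T g := by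
  unfold J
  rw [← integral_add (h.integrable hf hT) (h.integrable hg hT)]
  refine integral_congr_ae (Eventually.of_forall fun q => ?_)
  simp only
  ring

lemma J_smul (c : ℝ) (f : Y × Y → ℝ) :
    J γ p T (fun q => c * f q) = c * J γ p T f := by
  unfold J
  rw [← integral_const_mul]
  refine integral_congr_ae (Eventually.of_forall fun q => ?_)
  simp only
  ring

lemma J_sub (h : GC γ n p ν) (hT : |T| < 1) {f g : Y × Y → ℝ} (hf : SG p f) (hg : SG p g) :
    J γ p T (fun q => f q - g q) = J γ p T f - J γ p T g := by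
  unfold J
  rw [← integral_sub (h.integrable hf hT) (h.integrable hg hT)]
  refine integral_congr_ae (Eventually.of_forall fun q => ?_)
  simp only
  ring

lemma J_congr {f g : Y × Y → ℝ} (h : ∀ q, f q = g q) : J γ p T f = J γ p T g := by
  have : f = g := funext h
  rw [this]

lemma J_nonneg {f : Y × Y → ℝ} (h : ∀ q, 0 ≤ f q) : 0 ≤ J γ p T f :=
  integral_nonneg fun q => mul_nonneg (Real.exp_pos _).le (h q)

lemma Nl.add (h : GC γ n p ν) (hT : |T| < 1) {f g : Y × Y → ℝ} (hf : Nl γ p T f)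
    (hg : Nl γ p T g) : Nl γ p T (fun q => f q + g q) :=
  ⟨hf.1.add hg.1, by rw [J_add h hT hf.1 hg.1, hf.2, hg.2, add_zero]⟩

lemma Nl.sub (h : GC γ n p ν) (hT : |T| < 1) {f g : Y × Y → ℝ} (hf : Nl γ p T f)
    (hg : Nl γ p T g) : Nl γ p T (fun q => f q - g q) :=
  ⟨hf.1.sub hg.1, by rw [J_sub h hT hf.1 hg.1, hf.2, hg.2, sub_zero]⟩

lemma Nl.smul {f : Y × Y → ℝ} (c : ℝ) (hf : Nl γ p T f) : Nl γ p T (fun q => c * f q) :=
  ⟨hf.1.const_mul c, by rw [J_smul, hf.2, mul_zero]⟩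

lemma Nl.congr {f g : Y × Y → ℝ} (hf : Nl γ p T f) (h : ∀ q, g q = f q) : Nl γ p T g := by
  have : g = f := funext h
  rw [this]
  exact hf

lemma Nl.sum (h : GC γ n p ν) (hT : |T| < 1) {f : ℕ → Y × Y → ℝ} (s : ℕ)
    (hf : ∀ i < s, Nl γ p T (f i)) : Nl γ p T (fun q => ∑ i ∈ Finset.range s, f i q) := by
  induction s with
  | zero =>
    have h0 : Nl γ p T (fun _ => (0 : ℝ)) := ⟨SG.const 0, by simp [J]⟩
    exact h0.congr fun q => by rw [Finset.sum_range_zero]
  | succ s ih =>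
    have h1 := Nl.add h hT (ih fun i hi => hf i (by omega)) (hf s (by omega))
    exact h1.congr fun q => by rw [Finset.sum_range_succ]

lemma SG.swap {f : Y × Y → ℝ} (hf : SG p f) : SG p (fun q => f q.swap) := by
  refine ⟨hf.1.comp measurable_swap, fun ε hε => ?_⟩
  obtain ⟨C, hC⟩ := hf.2 ε hε
  refine ⟨C, fun q => ?_⟩
  have h2 := hC q.swap
  simp only [Prod.fst_swap, Prod.snd_swap] at h2
  rwa [add_comm (‖p q.2‖ ^ 2)] at h2

lemma J_swap [SFinite γ] (f : Y × Y → ℝ) : J γ p T (fun q => f q.swap) = J γ p T f := by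
  have h1 := integral_prod_swap (μ := γ) (ν := γ)
    (fun q : Y × Y => Real.exp (T * ⟪p q.1, p q.2⟫) * f q)
  unfold J
  rw [← h1]
  refine integral_congr_ae (Eventually.of_forall fun q => ?_)
  simp only [Prod.fst_swap, Prod.snd_swap]
  rw [real_inner_comm (p q.1)]

lemma Nl.swap [SFinite γ] {f : Y × Y → ℝ} (hf : Nl γ p T f) : Nl γ p T (fun q => f q.swap) :=
  ⟨SG.swap hf.1, by rw [J_swap, hf.2]⟩

end nullf

/-- the integral of the radial derivative -/
lemma radial_zero (m j : ℕ) (s : ℝ) :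
    ∫ r in Ioi (0 : ℝ), r ^ m * Real.exp (-(r ^ 2 / 2))
      * (((m + 1 : ℕ) + r * s + j - r ^ 2) * (Real.exp (r * s) * r ^ j)) = 0 := by
  have hc : Continuous (fun _ : Unit => s) := continuous_const
  have hE : SR (fun q : Unit × ℝ => Real.exp (q.2 * s)) := SR.exp hc
  have hr : SR (fun q : Unit × ℝ => q.2) := SR.rad
  have s1 : SR (fun q : Unit × ℝ => Real.exp (q.2 * s)) := hE
  have s2 : SR (fun q : Unit × ℝ =>
      (((m + 1 : ℕ) : ℝ) + q.2 * s + j - q.2 ^ 2) * (Real.exp (q.2 * s) * q.2 ^ j)) :=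
    ((((SR.const _).add (hr.mul (SR.const s))).add (SR.const _)).sub (hr.pow 2)).mul
      (hE.mul (hr.pow j))
  refine integral_deriv_zero
    (u := fun r => r ^ (m + 1 + j) * Real.exp (-(r ^ 2 / 2)) * Real.exp (r * s)) ?_ ?_ ?_ ?_
  · intro r
    have h1 : HasDerivAt (fun r : ℝ => r ^ (m + 1 + j)) (((m + 1 + j : ℕ) : ℝ) * r ^ (m + j)) r := by
      have := hasDerivAt_pow (m + 1 + j) r
      have e : m + 1 + j - 1 = m + j := by omega
      rwa [e] at this
    have h2 : HasDerivAt (fun r : ℝ => Real.exp (-(r ^ 2 / 2)))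
        (Real.exp (-(r ^ 2 / 2)) * (-r)) r := by
      have h3 : HasDerivAt (fun r : ℝ => -(r ^ 2 / 2)) (-r) r := by
        have := ((hasDerivAt_pow 2 r).div_const 2).fun_neg
        refine this.congr_deriv ?_
        norm_num
      exact h3.exp
    have h3 : HasDerivAt (fun r : ℝ => Real.exp (r * s)) (Real.exp (r * s) * s) r := by
      have := (hasDerivAt_id r).mul_const s
      have h4 := this.exp
      simpa using h4
    refine ((h1.fun_mul h2).fun_mul h3).congr_deriv ?_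
    rw [pow_add r m j, pow_add r (m + 1) j, pow_succ r m]
    push_cast
    ring
  · simp
  · exact s1.integrableOn () (m + 1 + j)
  · exact s2.integrableOn () m

section cone

variable {X : Type*} [MeasurableSpace X] {E : Type*} [NormedAddCommGroup E]
  [InnerProductSpace ℝ E] [MeasurableSpace E] [BorelSpace E] [SecondCountableTopology E]
  {μ : Measure X} [IsFiniteMeasure μ] {m : ℕ} {p n : X → E} {T : ℝ}

/-- the radial row for one point -/
lemma eul_one (hp : ∀ x, ‖p x‖ = 1) (a : E) (j : ℕ) (h : X → ℝ) :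
    ∫ q, (((m + 1 : ℕ) : ℝ) + ⟪cp p q, a⟫ + j - ‖cp p q‖ ^ 2)
      * (Real.exp ⟪cp p q, a⟫ * (q.2 ^ j * h q.1)) ∂(gam m μ) = 0 := by
  rw [integral_gam]
  set g : X × ℝ → ℝ := fun q => q.2 ^ m * Real.exp (-(q.2 ^ 2 / 2))
    * ((((m + 1 : ℕ) : ℝ) + ⟪cp p q, a⟫ + j - ‖cp p q‖ ^ 2)
      * (Real.exp ⟪cp p q, a⟫ * (q.2 ^ j * h q.1))) with hg
  by_cases hi : Integrable g (μ.prod (volume.restrict (Ioi (0 : ℝ))))
  · rw [integral_prod _ hi]
    have key : ∀ x, ∫ r in Ioi (0 : ℝ), g (x, r) = 0 := by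
      intro x
      have h1 := radial_zero m j ⟪p x, a⟫
      have h2 : ∫ r in Ioi (0 : ℝ), g (x, r) = ∫ r in Ioi (0 : ℝ), h x
          * (r ^ m * Real.exp (-(r ^ 2 / 2))
          * (((m + 1 : ℕ) + r * ⟪p x, a⟫ + j - r ^ 2) * (Real.exp (r * ⟪p x, a⟫) * r ^ j))) := by
        refine integral_congr_ae (Eventually.of_forall fun r => ?_)
        have e1 : ⟪cp p (x, r), a⟫ = r * ⟪p x, a⟫ := by
          rw [cp, real_inner_smul_left]
        have e2 : ‖cp p (x, r)‖ ^ 2 = r ^ 2 := by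
          rw [cp, norm_smul, hp, mul_one, Real.norm_eq_abs, sq_abs]
        simp only [hg, e1, e2]
        ring
      rw [h2, integral_const_mul, h1, mul_zero]
    simp only [key, integral_zero]
  · exact integral_undef hi

variable (hG : GC (gam m μ) (m + 1) (cp p) (cn n))

include hG

/-- the radial row in the first point -/
theorem eul1 (hp : ∀ x, ‖p x‖ = 1) (hT : |T| < 1) {f : (X × ℝ) × (X × ℝ) → ℝ} (hf : SG (cp p) f)
    (j : ℕ) (hh : ∀ x r z, f ((x, r), z) = r ^ j * f ((x, 1), z)) :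
    Nl (gam m μ) (cp p) T (fun q => (((m + 1 : ℕ) : ℝ) + T * ⟪cp p q.1, cp p q.2⟫ + j
      - ‖cp p q.1‖ ^ 2) * f q) := by
  have hS : SG (cp p) (fun q : (X × ℝ) × (X × ℝ) => ⟪cp p q.1, cp p q.2⟫) := hG.sg_dat 0 0
  have hsg : SG (cp p) (fun q : (X × ℝ) × (X × ℝ) => (((m + 1 : ℕ) : ℝ)
      + T * ⟪cp p q.1, cp p q.2⟫ + j - ‖cp p q.1‖ ^ 2) * f q) :=
    ((((SG.const _).add (hS.const_mul T)).add (SG.const _)).sub ((SG.norm1 hG.mp).pow 2)).mul hf
  refine ⟨hsg, ?_⟩
  refine hG.zero_left hsg hT fun z => ?_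
  have h1 := eul_one (μ := μ) (m := m) hp (T • cp p z) j (fun x => f ((x, 1), z))
  refine Eq.trans ?_ h1
  refine integral_congr_ae (Eventually.of_forall fun x => ?_)
  have e1 : ⟪cp p x, T • cp p z⟫ = T * ⟪cp p x, cp p z⟫ := by
    rw [real_inner_smul_right]
  have e2 : f (x, z) = x.2 ^ j * f ((x.1, 1), z) := hh x.1 x.2 z
  simp only [e1, e2]
  ring

/-- the radial row in the second point -/
theorem eul2 (hp : ∀ x, ‖p x‖ = 1) (hT : |T| < 1) {f : (X × ℝ) × (X × ℝ) → ℝ} (hf : SG (cp p) f)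
    (j : ℕ) (hh : ∀ z x r, f (z, (x, r)) = r ^ j * f (z, (x, 1))) :
    Nl (gam m μ) (cp p) T (fun q => (((m + 1 : ℕ) : ℝ) + T * ⟪cp p q.1, cp p q.2⟫ + j
      - ‖cp p q.2‖ ^ 2) * f q) := by
  have := hG.finite
  have h1 := eul1 (f := fun q => f q.swap) hG hp hT (SG.swap hf) j (fun x r z => hh z x r)
  refine (Nl.swap h1).congr fun q => ?_
  simp only [Prod.fst_swap, Prod.snd_swap, Prod.swap_swap]
  rw [real_inner_comm (cp p q.1)]

end cone

end Vale.Agent.P224.R2.H135
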