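import Vale.Agent.P224.R2.H135.Quad

/-!
The two functional inequalities over pairs of points of a Gaussian cone, in the variables
`0 = k`, `1 = P₊`, `2 = P₋`, `3 = g`, `4 = s₊`, `5 = s₋`, `6 = n₊`, `7 = n₋`.
-/

namespace Vale.Agent.P224.R2.H135

open MeasureTheory Set Filter Function
open Vale.Agent.P224.UE Vale.Agent.P224.UG Vale.Agent.P224.PU
open scoped Topology RealInnerProductSpace

set_option linter.unusedSectionVars false

/-- the even test functions -/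
def hE (f : ℕ → ℝ) (i : ℕ) : ℝ :=
  [1, 1 - 2 * f 3, 2 * (f 1 ^ 2 + f 2 ^ 2), (1 - 2 * f 3) * (2 * (f 1 ^ 2 + f 2 ^ 2)), 2 * f 6,
    (1 - 2 * f 3) * (2 * f 6), 4 * f 1 * f 4, 4 * f 2 * f 5].getD i 0

/-- the products of the even test functions with the even variable -/
def pE (f : ℕ → ℝ) (i : ℕ) : ℝ :=
  [-((1 - f 0 ^ 2) * (f 1 ^ 2 + f 2 ^ 2)),
   (1 + f 0 ^ 2) * (f 1 ^ 2 - f 2 ^ 2),
   -((1 - f 0 ^ 2) * (2 * (f 1 ^ 2 + f 2 ^ 2) + 2 * (f 1 ^ 2 - f 2 ^ 2) ^ 2))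
     - 4 * (1 + f 0 ^ 2) * (f 1 ^ 2 - f 2 ^ 2) * (1 - 2 * f 3),
   (1 + f 0 ^ 2) * ((f 1 ^ 2 - f 2 ^ 2) * (2 * (f 1 ^ 2 + f 2 ^ 2)) - 4 * (f 1 ^ 2 - f 2 ^ 2))
     - (1 - f 0 ^ 2) * ((1 - 2 * f 3) * (2 * (f 1 ^ 2 + f 2 ^ 2))),
   -((1 - f 0 ^ 2) * ((f 1 + f 2) ^ 2 * (f 6 - f 7) + (f 1 - f 2) ^ 2 * (f 6 + f 7))),
   (1 + f 0 ^ 2) * ((f 1 ^ 2 - f 2 ^ 2) * (2 * f 6)),
   4 * f 0 * f 2 * f 5 + 4 * f 0 ^ 2 * f 1 * f 4
     - ((1 - f 0 ^ 2) * (f 1 ^ 2 - f 2 ^ 2) + (1 + f 0 ^ 2) * (1 - 2 * f 3)) * (4 * f 1 * f 4)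
     - 2 * f 0 * (f 1 ^ 2 - f 2 ^ 2) * (2 * f 6),
   ((1 - f 0 ^ 2) * (f 1 ^ 2 - f 2 ^ 2) + (1 + f 0 ^ 2) * (1 - 2 * f 3)) * (4 * f 2 * f 5)
     - 4 * f 2 * f 5 - 4 * f 0 * f 1 * f 4 + 2 * (f 1 ^ 2 - f 2 ^ 2) * (2 * f 6)].getD i 0

/-- the bound of the square of the even variable -/
def cE (N : ℝ) (f : ℕ → ℝ) : ℝ :=
  N * (1 + f 0 ^ 2) ^ 2 + (1 - f 0 ^ 2) ^ 2 * (f 1 ^ 2 - f 2 ^ 2) ^ 2
    + (1 - f 0 ^ 4) * (2 * (f 1 ^ 2 + f 2 ^ 2))

/-- the even table -/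
def ME (θ N : ℝ) (f : ℕ → ℝ) (i j : ℕ) : ℝ :=
  if i = 8 then (if j = 8 then θ * cE N f else θ * pE f j)
  else (if j = 8 then θ * pE f i else hE f i * hE f j)

/-- the odd test functions -/
def hO (f : ℕ → ℝ) (i : ℕ) : ℝ :=
  [2 * f 2, (1 - 2 * f 3) * (2 * f 2), (f 1 + f 2) ^ 3 - (f 1 - f 2) ^ 3,
    (f 1 ^ 2 - f 2 ^ 2) * (2 * f 2), 2 * f 5, (1 - 2 * f 3) * (2 * f 5),
    (f 1 + f 2) * (f 6 + f 7) - (f 1 - f 2) * (f 6 - f 7),
    (f 1 + f 2) * (f 6 - f 7) - (f 1 - f 2) * (f 6 + f 7)].getD i 0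

/-- the products of the odd test functions with the odd variable -/
def pO (f : ℕ → ℝ) (i : ℕ) : ℝ :=
  [-(4 * f 0 * (2 * (f 1 ^ 2 + f 2 ^ 2))),
   -(4 * f 0 * ((1 - 2 * f 3) * (2 * (f 1 ^ 2 + f 2 ^ 2)))),
   -(4 * f 0 * (2 * (f 1 + f 2) ^ 4 + (f 1 + f 2) ^ 3 * (f 1 - f 2)
     + (f 1 + f 2) * (f 1 - f 2) ^ 3 + 2 * (f 1 - f 2) ^ 4)),
   -(4 * f 0 * ((f 1 ^ 2 - f 2 ^ 2) * (2 * (f 1 ^ 2 + f 2 ^ 2)))),
   8 * (f 1 * f 4 - f 0 * f 2 * f 5),
   8 * ((1 - 2 * f 3) * (f 1 * f 4 - f 0 * f 2 * f 5)),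
   -(4 * f 0 * ((f 1 + f 2) ^ 2 * (f 6 + f 7) + (f 1 - f 2) ^ 2 * (f 6 - f 7))),
   -(4 * f 0 * ((f 1 + f 2) ^ 2 * (f 6 - f 7) + (f 1 - f 2) ^ 2 * (f 6 + f 7)))].getD i 0

/-- the bound of the square of the odd variable -/
def cO (N : ℝ) (f : ℕ → ℝ) : ℝ :=
  (8 * N * (1 + f 0 ^ 2) ^ 2 + 64 * f 0 ^ 2 + 16 * (1 - f 0 ^ 4)) * (2 * (f 1 ^ 2 + f 2 ^ 2))

/-- the odd table -/
def MO (θ N : ℝ) (f : ℕ → ℝ) (i j : ℕ) : ℝ :=
  if i = 8 then (if j = 8 then θ * cO N f else θ * pO f j)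
  else (if j = 8 then θ * pO f i else hO f i * hO f j)

/-- the values of the variables -/
noncomputable def fv (T : ℝ) (d : R9) : ℕ → ℝ := vK (kf T) (c8 T d)

section vals

variable {T : ℝ} (h0 : 0 < T) (h1 : T < 1)

include h0 h1

lemma T_eq : T = (1 - kf T ^ 2) / (1 + kf T ^ 2) := by
  have h := one_sub_T (by linarith : -1 < T) h1.le
  have hk : (1 + kf T ^ 2) ≠ 0 := by positivity
  rw [eq_div_iff hk]
  linarith

lemma kp_val : kp T = 2 * kf T / (1 + kf T ^ 2) := by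
  have h := kp_eq (by linarith : -1 < T) h1.le
  have hk : (1 + kf T ^ 2) ≠ 0 := by positivity
  rw [eq_div_iff hk]
  linarith

lemma fv0 (d : R9) : fv T d 0 = kf T := rfl

lemma fv1 (d : R9) : fv T d 1 = (d 2 + d 1) / 2 := rfl

lemma fv2 (d : R9) : fv T d 2 = (d 2 - d 1) / 2 := rfl

lemma fv3 (d : R9) : fv T d 3 = (1 - d 3) / 2 := rfl

lemma fv6 (d : R9) : fv T d 6 = (d 4 + d 5) / 2 := rfl

lemma fv7 (d : R9) : fv T d 7 = (d 4 - d 5) / 2 := rfl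

lemma fv4 (d : R9) : fv T d 4 = kf T * (d 6 + d 7) / (1 + kf T ^ 2) := by
  have e1 := T_eq h0 h1
  have e2 := kp_val h0 h1
  have e : fv T d 4 = (kf T * (d 6 - T * d 7) + kp T * d 7) / (1 + kf T ^ 2) := rfl
  rw [e, e2]
  generalize kf T = κ at *
  have hk : (1 + κ ^ 2) ≠ 0 := by positivity
  subst e1
  field_simp
  ring

lemma fv5 (d : R9) : fv T d 5 = (d 6 - d 7) / (1 + kf T ^ 2) := by
  have e1 := T_eq h0 h1
  have e2 := kp_val h0 h1
  have e : fv T d 5 = ((d 6 - T * d 7) - kf T * (kp T * d 7)) / (1 + kf T ^ 2) := rfl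
  rw [e, e2]
  generalize kf T = κ at *
  have hk : (1 + κ ^ 2) ≠ 0 := by positivity
  subst e1
  field_simp
  ring

end vals

section cone

variable {X : Type*} [MeasurableSpace X] {E : Type*} [NormedAddCommGroup E]
  [InnerProductSpace ℝ E] [MeasurableSpace E] [BorelSpace E] [SecondCountableTopology E]
  {μ : Measure X} [IsFiniteMeasure μ] {m : ℕ} {p n : X → E} {T : ℝ}

lemma dsw (e : E) (q : (X × ℝ) × (X × ℝ)) :
    dat (cp p) (cn n) e q.swap 1 = dat (cp p) (cn n) e q 2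
    ∧ dat (cp p) (cn n) e q.swap 2 = dat (cp p) (cn n) e q 1
    ∧ dat (cp p) (cn n) e q.swap 3 = dat (cp p) (cn n) e q 3
    ∧ dat (cp p) (cn n) e q.swap 4 = dat (cp p) (cn n) e q 5
    ∧ dat (cp p) (cn n) e q.swap 5 = dat (cp p) (cn n) e q 4
    ∧ dat (cp p) (cn n) e q.swap 6 = dat (cp p) (cn n) e q 7
    ∧ dat (cp p) (cn n) e q.swap 7 = dat (cp p) (cn n) e q 6 := by
  refine ⟨?_, ?_, ?_, ?_, ?_, ?_, ?_⟩
  · rw [dat_swap, sw9_1]
  · rw [dat_swap, sw9_2]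
  · rw [dat_swap, sw9_3]
  · rw [dat_swap, sw9_4]
  · rw [dat_swap, sw9_5]
  · rw [dat_swap, sw9_6]
  · rw [dat_swap, sw9_7]

variable (hG : GC (gam m μ) (m + 1) (cp p) (cn n))

include hG

lemma sg_fv (e : E) (h0 : 0 < T) (h1 : T < 1) (i : ℕ) :
    SG (cp p) (fun q => fv T (dat (cp p) (cn n) e q) i) := by
  have d1 := hG.sg_dat e 1
  have d2 := hG.sg_dat e 2
  have d3 := hG.sg_dat e 3
  have d4 := hG.sg_dat e 4
  have d5 := hG.sg_dat e 5
  have d6 := hG.sg_dat e 6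
  have d7 := hG.sg_dat e 7
  by_cases hi : i < 8
  · interval_cases i
    · exact SG.const _
    · exact (d2.add d1).mul_const (1 / 2) |> fun h => by
        simpa only [fv1 h0 h1, mul_one_div] using h
    · exact (d2.sub d1).mul_const (1 / 2) |> fun h => by
        simpa only [fv2 h0 h1, mul_one_div] using h
    · exact ((SG.const 1).sub d3).mul_const (1 / 2) |> fun h => by
        simpa only [fv3 h0 h1, mul_one_div] using h
    · have h := ((d6.add d7).const_mul (kf T)).mul_const (1 / (1 + kf T ^ 2))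
      simpa only [fv4 h0 h1, mul_one_div] using h
    · have h := (d6.sub d7).mul_const (1 / (1 + kf T ^ 2))
      simpa only [fv5 h0 h1, mul_one_div] using h
    · have h := (d4.add d5).mul_const (1 / 2)
      simpa only [fv6 h0 h1, mul_one_div] using h
    · have h := (d4.sub d5).mul_const (1 / 2)
      simpa only [fv7 h0 h1, mul_one_div] using h
  · by_cases hi8 : i = 8
    · subst hi8
      exact hG.sg_dat e 8
    · have e1 : ∀ q, fv T (dat (cp p) (cn n) e q) i = 0 := fun q =>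
        vK_ge _ _ (by omega)
      simpa only [e1] using SG.const (p := cp p) (0 : ℝ)

lemma sg_hE (e : E) (h0 : 0 < T) (h1 : T < 1) (i : ℕ) :
    SG (cp p) (fun q => hE (fv T (dat (cp p) (cn n) e q)) i) := by
  have s := sg_fv hG e h0 h1
  by_cases hi : i < 8
  · have c := ((SG.const (p := cp p) (1 : ℝ)).sub ((s 3).const_mul 2))
    have pp := (((s 1).pow 2).add ((s 2).pow 2)).const_mul 2
    interval_cases i
    · exact SG.const 1
    · exact c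
    · exact pp
    · exact c.mul pp
    · exact (s 6).const_mul 2
    · exact c.mul ((s 6).const_mul 2)
    · exact ((s 1).const_mul 4).mul (s 4)
    · exact ((s 2).const_mul 4).mul (s 5)
  · have e1 : ∀ q, hE (fv T (dat (cp p) (cn n) e q)) i = 0 := fun q => by
      unfold hE
      rw [List.getD_eq_default _ _ (by simpa using hi)]
    simpa only [e1] using SG.const (p := cp p) (0 : ℝ)

lemma sg_hO (e : E) (h0 : 0 < T) (h1 : T < 1) (i : ℕ) :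
    SG (cp p) (fun q => hO (fv T (dat (cp p) (cn n) e q)) i) := by
  have s := sg_fv hG e h0 h1
  by_cases hi : i < 8
  · have c := ((SG.const (p := cp p) (1 : ℝ)).sub ((s 3).const_mul 2))
    have P := (s 1).add (s 2)
    have Q := (s 1).sub (s 2)
    have a := (s 6).add (s 7)
    have b := (s 6).sub (s 7)
    interval_cases i
    · exact (s 2).const_mul 2
    · exact c.mul ((s 2).const_mul 2)
    · exact (P.pow 3).sub (Q.pow 3)
    · exact (((s 1).pow 2).sub ((s 2).pow 2)).mul ((s 2).const_mul 2)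
    · exact (s 5).const_mul 2
    · exact c.mul ((s 5).const_mul 2)
    · exact (P.mul a).sub (Q.mul b)
    · exact (P.mul b).sub (Q.mul a)
  · have e1 : ∀ q, hO (fv T (dat (cp p) (cn n) e q)) i = 0 := fun q => by
      unfold hO
      rw [List.getD_eq_default _ _ (by simpa using hi)]
    simpa only [e1] using SG.const (p := cp p) (0 : ℝ)

end cone

end Vale.Agent.P224.R2.H135
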