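import Vale.Agent.P224.R2.H135.Ext

/-!
The rows of the even test functions with the even variable.
-/

namespace Vale.Agent.P224.R2.H135

open MeasureTheory Set Filter Function
open Vale.Agent.P224.UE Vale.Agent.P224.UG Vale.Agent.P224.PU
open scoped Topology RealInnerProductSpace

set_option linter.unusedSectionVars false
set_option linter.unusedSimpArgs false

section cone

variable {X : Type*} [MeasurableSpace X] {E : Type*} [NormedAddCommGroup E]
  [InnerProductSpace ℝ E] [MeasurableSpace E] [BorelSpace E] [SecondCountableTopology E]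
  {μ : Measure X} [IsFiniteMeasure μ] {m : ℕ} {p n : X → E} {T : ℝ}

variable (hG : GC (gam m μ) (m + 1) (cp p) (cn n)) (hp : ∀ x, ‖p x‖ = 1)

include hG hp

lemma rowE0 (e : E) (h0 : 0 < T) (h1 : T < 1) :
    Nl (gam m μ) (cp p) T (fun q => pE (fv T (dat (cp p) (cn n) e q)) 0
      - hE (fv T (dat (cp p) (cn n) e q)) 0 * ((1 + kf T ^ 2) * Fh (cp p) T q)) := by
  have := hG.finite
  have hT : |T| < 1 := by rw [abs_of_pos h0]; exact h1
  have a := pairA hG hp hT e 0 0 0 0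
  have b := a.swap
  refine ((a.add hG hT b).smul (-((1 + kf T ^ 2) / 2))).congr fun q => ?_
  obtain ⟨s1, s2, s3, s4, s5, s6, s7⟩ := dsw (p := p) (n := n) e q
  have eT := T_eq h0 h1
  have v4 := fv4 h0 h1 (dat (cp p) (cn n) e q)
  have v5 := fv5 h0 h1 (dat (cp p) (cn n) e q)
  simp only [mG, mQ, mX, s1, s2, s3, s4, s5, s6, s7, Fh_swap, pE, hE, List.getD_cons_zero,
    List.getD_cons_succ, fv0 h0 h1, fv1 h0 h1, fv2 h0 h1, fv3 h0 h1, v4, v5, fv6 h0 h1, fv7 h0 h1]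
  clear v4 v5 s1 s2 s3 s4 s5 s6 s7
  generalize Fh (cp p) T q = F
  generalize dat (cp p) (cn n) e q 1 = Q
  generalize dat (cp p) (cn n) e q 2 = P
  generalize dat (cp p) (cn n) e q 3 = c
  generalize dat (cp p) (cn n) e q 4 = n1
  generalize dat (cp p) (cn n) e q 5 = n2
  generalize dat (cp p) (cn n) e q 6 = x1
  generalize dat (cp p) (cn n) e q 7 = x2
  generalize kf T = κ at *
  have hk : (1 + κ ^ 2) ≠ 0 := by positivity
  rw [eT]
  field_simp
  push_cast
  ring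

lemma rowE1 (e : E) (h0 : 0 < T) (h1 : T < 1) :
    Nl (gam m μ) (cp p) T (fun q => pE (fv T (dat (cp p) (cn n) e q)) 1
      - hE (fv T (dat (cp p) (cn n) e q)) 1 * ((1 + kf T ^ 2) * Fh (cp p) T q)) := by
  have := hG.finite
  have hT : |T| < 1 := by rw [abs_of_pos h0]; exact h1
  have a := pairB hG hp hT e 0 0 0 0
  refine (a.smul (-(1 + kf T ^ 2))).congr fun q => ?_
  obtain ⟨s1, s2, s3, s4, s5, s6, s7⟩ := dsw (p := p) (n := n) e q
  have eT := T_eq h0 h1
  have v4 := fv4 h0 h1 (dat (cp p) (cn n) e q)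
  have v5 := fv5 h0 h1 (dat (cp p) (cn n) e q)
  simp only [mG, mQ, mX, s1, s2, s3, s4, s5, s6, s7, Fh_swap, pE, hE, List.getD_cons_zero,
    List.getD_cons_succ, fv0 h0 h1, fv1 h0 h1, fv2 h0 h1, fv3 h0 h1, v4, v5, fv6 h0 h1, fv7 h0 h1]
  clear v4 v5 s1 s2 s3 s4 s5 s6 s7
  generalize Fh (cp p) T q = F
  generalize dat (cp p) (cn n) e q 1 = Q
  generalize dat (cp p) (cn n) e q 2 = P
  generalize dat (cp p) (cn n) e q 3 = c
  generalize dat (cp p) (cn n) e q 4 = n1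
  generalize dat (cp p) (cn n) e q 5 = n2
  generalize dat (cp p) (cn n) e q 6 = x1
  generalize dat (cp p) (cn n) e q 7 = x2
  generalize kf T = κ at *
  have hk : (1 + κ ^ 2) ≠ 0 := by positivity
  rw [eT]
  field_simp
  push_cast
  ring

lemma rowE2 (e : E) (h0 : 0 < T) (h1 : T < 1) :
    Nl (gam m μ) (cp p) T (fun q => pE (fv T (dat (cp p) (cn n) e q)) 2
      - hE (fv T (dat (cp p) (cn n) e q)) 2 * ((1 + kf T ^ 2) * Fh (cp p) T q)) := by
  have := hG.finite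
  have hT : |T| < 1 := by rw [abs_of_pos h0]; exact h1
  have a := pairA hG hp hT e 2 0 0 0
  have b := a.swap
  refine ((a.add hG hT b).smul (-(1 + kf T ^ 2))).congr fun q => ?_
  obtain ⟨s1, s2, s3, s4, s5, s6, s7⟩ := dsw (p := p) (n := n) e q
  have eT := T_eq h0 h1
  have v4 := fv4 h0 h1 (dat (cp p) (cn n) e q)
  have v5 := fv5 h0 h1 (dat (cp p) (cn n) e q)
  simp only [mG, mQ, mX, s1, s2, s3, s4, s5, s6, s7, Fh_swap, pE, hE, List.getD_cons_zero,
    List.getD_cons_succ, fv0 h0 h1, fv1 h0 h1, fv2 h0 h1, fv3 h0 h1, v4, v5, fv6 h0 h1, fv7 h0 h1]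
  clear v4 v5 s1 s2 s3 s4 s5 s6 s7
  generalize Fh (cp p) T q = F
  generalize dat (cp p) (cn n) e q 1 = Q
  generalize dat (cp p) (cn n) e q 2 = P
  generalize dat (cp p) (cn n) e q 3 = c
  generalize dat (cp p) (cn n) e q 4 = n1
  generalize dat (cp p) (cn n) e q 5 = n2
  generalize dat (cp p) (cn n) e q 6 = x1
  generalize dat (cp p) (cn n) e q 7 = x2
  generalize kf T = κ at *
  have hk : (1 + κ ^ 2) ≠ 0 := by positivity
  rw [eT]
  field_simp
  push_cast
  ring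

lemma rowE3 (e : E) (h0 : 0 < T) (h1 : T < 1) :
    Nl (gam m μ) (cp p) T (fun q => pE (fv T (dat (cp p) (cn n) e q)) 3
      - hE (fv T (dat (cp p) (cn n) e q)) 3 * ((1 + kf T ^ 2) * Fh (cp p) T q)) := by
  have := hG.finite
  have hT : |T| < 1 := by rw [abs_of_pos h0]; exact h1
  have a := pairB hG hp hT e 2 0 0 0
  have b := a.swap
  refine ((a.add hG hT b).smul (-(1 + kf T ^ 2))).congr fun q => ?_
  obtain ⟨s1, s2, s3, s4, s5, s6, s7⟩ := dsw (p := p) (n := n) e q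
  have eT := T_eq h0 h1
  have v4 := fv4 h0 h1 (dat (cp p) (cn n) e q)
  have v5 := fv5 h0 h1 (dat (cp p) (cn n) e q)
  simp only [mG, mQ, mX, s1, s2, s3, s4, s5, s6, s7, Fh_swap, pE, hE, List.getD_cons_zero,
    List.getD_cons_succ, fv0 h0 h1, fv1 h0 h1, fv2 h0 h1, fv3 h0 h1, v4, v5, fv6 h0 h1, fv7 h0 h1]
  clear v4 v5 s1 s2 s3 s4 s5 s6 s7
  generalize Fh (cp p) T q = F
  generalize dat (cp p) (cn n) e q 1 = Q
  generalize dat (cp p) (cn n) e q 2 = P
  generalize dat (cp p) (cn n) e q 3 = c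
  generalize dat (cp p) (cn n) e q 4 = n1
  generalize dat (cp p) (cn n) e q 5 = n2
  generalize dat (cp p) (cn n) e q 6 = x1
  generalize dat (cp p) (cn n) e q 7 = x2
  generalize kf T = κ at *
  have hk : (1 + κ ^ 2) ≠ 0 := by positivity
  rw [eT]
  field_simp
  push_cast
  ring

lemma rowE4 (e : E) (h0 : 0 < T) (h1 : T < 1) :
    Nl (gam m μ) (cp p) T (fun q => pE (fv T (dat (cp p) (cn n) e q)) 4
      - hE (fv T (dat (cp p) (cn n) e q)) 4 * ((1 + kf T ^ 2) * Fh (cp p) T q)) := by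
  have := hG.finite
  have hT : |T| < 1 := by rw [abs_of_pos h0]; exact h1
  have a := pairA hG hp hT e 0 0 0 1
  have b := a.swap
  refine ((a.add hG hT b).smul (-(1 + kf T ^ 2))).congr fun q => ?_
  obtain ⟨s1, s2, s3, s4, s5, s6, s7⟩ := dsw (p := p) (n := n) e q
  have eT := T_eq h0 h1
  have v4 := fv4 h0 h1 (dat (cp p) (cn n) e q)
  have v5 := fv5 h0 h1 (dat (cp p) (cn n) e q)
  simp only [mG, mQ, mX, s1, s2, s3, s4, s5, s6, s7, Fh_swap, pE, hE, List.getD_cons_zero,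
    List.getD_cons_succ, fv0 h0 h1, fv1 h0 h1, fv2 h0 h1, fv3 h0 h1, v4, v5, fv6 h0 h1, fv7 h0 h1]
  clear v4 v5 s1 s2 s3 s4 s5 s6 s7
  generalize Fh (cp p) T q = F
  generalize dat (cp p) (cn n) e q 1 = Q
  generalize dat (cp p) (cn n) e q 2 = P
  generalize dat (cp p) (cn n) e q 3 = c
  generalize dat (cp p) (cn n) e q 4 = n1
  generalize dat (cp p) (cn n) e q 5 = n2
  generalize dat (cp p) (cn n) e q 6 = x1
  generalize dat (cp p) (cn n) e q 7 = x2
  generalize kf T = κ at *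
  have hk : (1 + κ ^ 2) ≠ 0 := by positivity
  rw [eT]
  field_simp
  push_cast
  ring

lemma rowE5 (e : E) (h0 : 0 < T) (h1 : T < 1) :
    Nl (gam m μ) (cp p) T (fun q => pE (fv T (dat (cp p) (cn n) e q)) 5
      - hE (fv T (dat (cp p) (cn n) e q)) 5 * ((1 + kf T ^ 2) * Fh (cp p) T q)) := by
  have := hG.finite
  have hT : |T| < 1 := by rw [abs_of_pos h0]; exact h1
  have a := pairB hG hp hT e 0 0 0 1
  have b := a.swap
  refine ((a.add hG hT b).smul (-(1 + kf T ^ 2))).congr fun q => ?_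
  obtain ⟨s1, s2, s3, s4, s5, s6, s7⟩ := dsw (p := p) (n := n) e q
  have eT := T_eq h0 h1
  have v4 := fv4 h0 h1 (dat (cp p) (cn n) e q)
  have v5 := fv5 h0 h1 (dat (cp p) (cn n) e q)
  simp only [mG, mQ, mX, s1, s2, s3, s4, s5, s6, s7, Fh_swap, pE, hE, List.getD_cons_zero,
    List.getD_cons_succ, fv0 h0 h1, fv1 h0 h1, fv2 h0 h1, fv3 h0 h1, v4, v5, fv6 h0 h1, fv7 h0 h1]
  clear v4 v5 s1 s2 s3 s4 s5 s6 s7
  generalize Fh (cp p) T q = F
  generalize dat (cp p) (cn n) e q 1 = Q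
  generalize dat (cp p) (cn n) e q 2 = P
  generalize dat (cp p) (cn n) e q 3 = c
  generalize dat (cp p) (cn n) e q 4 = n1
  generalize dat (cp p) (cn n) e q 5 = n2
  generalize dat (cp p) (cn n) e q 6 = x1
  generalize dat (cp p) (cn n) e q 7 = x2
  generalize kf T = κ at *
  have hk : (1 + κ ^ 2) ≠ 0 := by positivity
  rw [eT]
  field_simp
  push_cast
  ring

lemma rowE6 (e : E) (h0 : 0 < T) (h1 : T < 1) :
    Nl (gam m μ) (cp p) T (fun q => pE (fv T (dat (cp p) (cn n) e q)) 6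
      - hE (fv T (dat (cp p) (cn n) e q)) 6 * ((1 + kf T ^ 2) * Fh (cp p) T q)) := by
  have := hG.finite
  have hT : |T| < 1 := by rw [abs_of_pos h0]; exact h1
  have a := pairA hG hp hT e 1 1 0 0
  have b := a.swap
  have a2 := pairA hG hp hT e 1 0 1 0
  have b2 := a2.swap
  refine (((a.add hG hT b).add hG hT (a2.add hG hT b2)).smul (-(2 * kf T))).congr fun q => ?_
  obtain ⟨s1, s2, s3, s4, s5, s6, s7⟩ := dsw (p := p) (n := n) e q
  have eT := T_eq h0 h1
  have v4 := fv4 h0 h1 (dat (cp p) (cn n) e q)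
  have v5 := fv5 h0 h1 (dat (cp p) (cn n) e q)
  simp only [mG, mQ, mX, s1, s2, s3, s4, s5, s6, s7, Fh_swap, pE, hE, List.getD_cons_zero,
    List.getD_cons_succ, fv0 h0 h1, fv1 h0 h1, fv2 h0 h1, fv3 h0 h1, v4, v5, fv6 h0 h1, fv7 h0 h1]
  clear v4 v5 s1 s2 s3 s4 s5 s6 s7
  generalize Fh (cp p) T q = F
  generalize dat (cp p) (cn n) e q 1 = Q
  generalize dat (cp p) (cn n) e q 2 = P
  generalize dat (cp p) (cn n) e q 3 = c
  generalize dat (cp p) (cn n) e q 4 = n1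
  generalize dat (cp p) (cn n) e q 5 = n2
  generalize dat (cp p) (cn n) e q 6 = x1
  generalize dat (cp p) (cn n) e q 7 = x2
  generalize kf T = κ at *
  have hk : (1 + κ ^ 2) ≠ 0 := by positivity
  rw [eT]
  field_simp
  push_cast
  ring

lemma rowE7 (e : E) (h0 : 0 < T) (h1 : T < 1) :
    Nl (gam m μ) (cp p) T (fun q => pE (fv T (dat (cp p) (cn n) e q)) 7
      - hE (fv T (dat (cp p) (cn n) e q)) 7 * ((1 + kf T ^ 2) * Fh (cp p) T q)) := by
  have := hG.finite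
  have hT : |T| < 1 := by rw [abs_of_pos h0]; exact h1
  have a := pairA hG hp hT e 1 1 0 0
  have b := a.swap
  have a2 := pairA hG hp hT e 1 0 1 0
  have b2 := a2.swap
  refine (((a2.add hG hT b2).sub hG hT (a.add hG hT b)).smul (-2)).congr fun q => ?_
  obtain ⟨s1, s2, s3, s4, s5, s6, s7⟩ := dsw (p := p) (n := n) e q
  have eT := T_eq h0 h1
  have v4 := fv4 h0 h1 (dat (cp p) (cn n) e q)
  have v5 := fv5 h0 h1 (dat (cp p) (cn n) e q)
  simp only [mG, mQ, mX, s1, s2, s3, s4, s5, s6, s7, Fh_swap, pE, hE, List.getD_cons_zero,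
    List.getD_cons_succ, fv0 h0 h1, fv1 h0 h1, fv2 h0 h1, fv3 h0 h1, v4, v5, fv6 h0 h1, fv7 h0 h1]
  clear v4 v5 s1 s2 s3 s4 s5 s6 s7
  generalize Fh (cp p) T q = F
  generalize dat (cp p) (cn n) e q 1 = Q
  generalize dat (cp p) (cn n) e q 2 = P
  generalize dat (cp p) (cn n) e q 3 = c
  generalize dat (cp p) (cn n) e q 4 = n1
  generalize dat (cp p) (cn n) e q 5 = n2
  generalize dat (cp p) (cn n) e q 6 = x1
  generalize dat (cp p) (cn n) e q 7 = x2
  generalize kf T = κ at *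
  have hk : (1 + κ ^ 2) ≠ 0 := by positivity
  rw [eT]
  field_simp
  push_cast
  ring

end cone

end Vale.Agent.P224.R2.H135
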