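import Vale.Agent.P224.R2.H135.Ext

/-!
The rows of the odd test functions with the odd variable.
-/

namespace Vale.Agent.P224.R2.H135

open MeasureTheory Set Filter Function
open Vale.Agent.P224.UE Vale.Agent.P224.UG Vale.Agent.P224.PU
open scoped Topology RealInnerProductSpace

set_option linter.unusedSectionVars false
set_option linter.unusedSimpArgs false

section cone

variable {X : Type*} [MeasurableSpace X] {E : Type*} [NormedAddCommGroup E]
  [InnerProductSpace ℝ E] [MeasurableSpace E] [BorelSpace E] [SecondCountableTopology E]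
  {μ : Measure X} [IsFiniteMeasure μ] {m : ℕ} {p n : X → E} {T : ℝ}

variable (hG : GC (gam m μ) (m + 1) (cp p) (cn n)) (hp : ∀ x, ‖p x‖ = 1)

include hG hp

lemma rowO0 (e : E) (h0 : 0 < T) (h1 : T < 1) :
    Nl (gam m μ) (cp p) T (fun q => pO (fv T (dat (cp p) (cn n) e q)) 0
      - hO (fv T (dat (cp p) (cn n) e q)) 0 * (2 * kf T
        * (dat (cp p) (cn n) e q 2 + dat (cp p) (cn n) e q 1) * Gh (cp p) q)) := by
  have hT : |T| < 1 := by rw [abs_of_pos h0]; exact h1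
  have a0 := mMG hG hp hT e 0 2 0 0 0 0 0
  have a1 := mMG hG hp hT e 2 0 0 0 0 0 0
  refine (((a0).sub hG hT a1).smul (-(2 * kf T))).congr fun q => ?_
  have eT := T_eq h0 h1
  have v4 := fv4 h0 h1 (dat (cp p) (cn n) e q)
  have v5 := fv5 h0 h1 (dat (cp p) (cn n) e q)
  simp only [mM, pO, hO, List.getD_cons_zero,
    List.getD_cons_succ, fv0 h0 h1, fv1 h0 h1, fv2 h0 h1, fv3 h0 h1, v4, v5, fv6 h0 h1, fv7 h0 h1]
  clear v4 v5
  generalize Gh (cp p) q = G
  generalize dat (cp p) (cn n) e q 1 = Q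
  generalize dat (cp p) (cn n) e q 2 = P
  generalize dat (cp p) (cn n) e q 3 = c
  generalize dat (cp p) (cn n) e q 4 = n1
  generalize dat (cp p) (cn n) e q 5 = n2
  generalize dat (cp p) (cn n) e q 6 = x1
  generalize dat (cp p) (cn n) e q 7 = x2
  generalize kf T = κ at *
  have hk : (1 + κ ^ 2) ≠ 0 := by positivity
  field_simp
  push_cast
  ring

lemma rowO1 (e : E) (h0 : 0 < T) (h1 : T < 1) :
    Nl (gam m μ) (cp p) T (fun q => pO (fv T (dat (cp p) (cn n) e q)) 1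
      - hO (fv T (dat (cp p) (cn n) e q)) 1 * (2 * kf T
        * (dat (cp p) (cn n) e q 2 + dat (cp p) (cn n) e q 1) * Gh (cp p) q)) := by
  have hT : |T| < 1 := by rw [abs_of_pos h0]; exact h1
  have a0 := mMG hG hp hT e 0 2 1 0 0 0 0
  have a1 := mMG hG hp hT e 2 0 1 0 0 0 0
  refine (((a0).sub hG hT a1).smul (-(2 * kf T))).congr fun q => ?_
  have eT := T_eq h0 h1
  have v4 := fv4 h0 h1 (dat (cp p) (cn n) e q)
  have v5 := fv5 h0 h1 (dat (cp p) (cn n) e q)
  simp only [mM, pO, hO, List.getD_cons_zero,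
    List.getD_cons_succ, fv0 h0 h1, fv1 h0 h1, fv2 h0 h1, fv3 h0 h1, v4, v5, fv6 h0 h1, fv7 h0 h1]
  clear v4 v5
  generalize Gh (cp p) q = G
  generalize dat (cp p) (cn n) e q 1 = Q
  generalize dat (cp p) (cn n) e q 2 = P
  generalize dat (cp p) (cn n) e q 3 = c
  generalize dat (cp p) (cn n) e q 4 = n1
  generalize dat (cp p) (cn n) e q 5 = n2
  generalize dat (cp p) (cn n) e q 6 = x1
  generalize dat (cp p) (cn n) e q 7 = x2
  generalize kf T = κ at *
  have hk : (1 + κ ^ 2) ≠ 0 := by positivity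
  field_simp
  push_cast
  ring

lemma rowO2 (e : E) (h0 : 0 < T) (h1 : T < 1) :
    Nl (gam m μ) (cp p) T (fun q => pO (fv T (dat (cp p) (cn n) e q)) 2
      - hO (fv T (dat (cp p) (cn n) e q)) 2 * (2 * kf T
        * (dat (cp p) (cn n) e q 2 + dat (cp p) (cn n) e q 1) * Gh (cp p) q)) := by
  have hT : |T| < 1 := by rw [abs_of_pos h0]; exact h1
  have a0 := mMG hG hp hT e 0 4 0 0 0 0 0
  have a1 := mMG hG hp hT e 1 3 0 0 0 0 0
  have a2 := mMG hG hp hT e 3 1 0 0 0 0 0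
  have a3 := mMG hG hp hT e 4 0 0 0 0 0 0
  refine (((((a0).add hG hT a1).sub hG hT a2).sub hG hT a3).smul (-(2 * kf T))).congr fun q => ?_
  have eT := T_eq h0 h1
  have v4 := fv4 h0 h1 (dat (cp p) (cn n) e q)
  have v5 := fv5 h0 h1 (dat (cp p) (cn n) e q)
  simp only [mM, pO, hO, List.getD_cons_zero,
    List.getD_cons_succ, fv0 h0 h1, fv1 h0 h1, fv2 h0 h1, fv3 h0 h1, v4, v5, fv6 h0 h1, fv7 h0 h1]
  clear v4 v5
  generalize Gh (cp p) q = G
  generalize dat (cp p) (cn n) e q 1 = Q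
  generalize dat (cp p) (cn n) e q 2 = P
  generalize dat (cp p) (cn n) e q 3 = c
  generalize dat (cp p) (cn n) e q 4 = n1
  generalize dat (cp p) (cn n) e q 5 = n2
  generalize dat (cp p) (cn n) e q 6 = x1
  generalize dat (cp p) (cn n) e q 7 = x2
  generalize kf T = κ at *
  have hk : (1 + κ ^ 2) ≠ 0 := by positivity
  field_simp
  push_cast
  ring

lemma rowO3 (e : E) (h0 : 0 < T) (h1 : T < 1) :
    Nl (gam m μ) (cp p) T (fun q => pO (fv T (dat (cp p) (cn n) e q)) 3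
      - hO (fv T (dat (cp p) (cn n) e q)) 3 * (2 * kf T
        * (dat (cp p) (cn n) e q 2 + dat (cp p) (cn n) e q 1) * Gh (cp p) q)) := by
  have hT : |T| < 1 := by rw [abs_of_pos h0]; exact h1
  have a0 := mMG hG hp hT e 1 3 0 0 0 0 0
  have a1 := mMG hG hp hT e 3 1 0 0 0 0 0
  refine (((a0).sub hG hT a1).smul (-(2 * kf T))).congr fun q => ?_
  have eT := T_eq h0 h1
  have v4 := fv4 h0 h1 (dat (cp p) (cn n) e q)
  have v5 := fv5 h0 h1 (dat (cp p) (cn n) e q)
  simp only [mM, pO, hO, List.getD_cons_zero,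
    List.getD_cons_succ, fv0 h0 h1, fv1 h0 h1, fv2 h0 h1, fv3 h0 h1, v4, v5, fv6 h0 h1, fv7 h0 h1]
  clear v4 v5
  generalize Gh (cp p) q = G
  generalize dat (cp p) (cn n) e q 1 = Q
  generalize dat (cp p) (cn n) e q 2 = P
  generalize dat (cp p) (cn n) e q 3 = c
  generalize dat (cp p) (cn n) e q 4 = n1
  generalize dat (cp p) (cn n) e q 5 = n2
  generalize dat (cp p) (cn n) e q 6 = x1
  generalize dat (cp p) (cn n) e q 7 = x2
  generalize kf T = κ at *
  have hk : (1 + κ ^ 2) ≠ 0 := by positivity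
  field_simp
  push_cast
  ring

lemma rowO4 (e : E) (h0 : 0 < T) (h1 : T < 1) :
    Nl (gam m μ) (cp p) T (fun q => pO (fv T (dat (cp p) (cn n) e q)) 4
      - hO (fv T (dat (cp p) (cn n) e q)) 4 * (2 * kf T
        * (dat (cp p) (cn n) e q 2 + dat (cp p) (cn n) e q 1) * Gh (cp p) q)) := by
  have hT : |T| < 1 := by rw [abs_of_pos h0]; exact h1
  have a0 := mMG hG hp hT e 0 1 0 0 0 1 0
  have a1 := mMG hG hp hT e 1 0 0 0 0 1 0
  have a2 := mMG hG hp hT e 0 1 0 0 0 0 1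
  have a3 := mMG hG hp hT e 1 0 0 0 0 0 1
  refine (((((a0).add hG hT a1).sub hG hT a2).sub hG hT a3).smul (-(4 * kf T / (1 + kf T ^ 2)))).congr fun q => ?_
  have eT := T_eq h0 h1
  have v4 := fv4 h0 h1 (dat (cp p) (cn n) e q)
  have v5 := fv5 h0 h1 (dat (cp p) (cn n) e q)
  simp only [mM, pO, hO, List.getD_cons_zero,
    List.getD_cons_succ, fv0 h0 h1, fv1 h0 h1, fv2 h0 h1, fv3 h0 h1, v4, v5, fv6 h0 h1, fv7 h0 h1]
  clear v4 v5
  generalize Gh (cp p) q = G
  generalize dat (cp p) (cn n) e q 1 = Q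
  generalize dat (cp p) (cn n) e q 2 = P
  generalize dat (cp p) (cn n) e q 3 = c
  generalize dat (cp p) (cn n) e q 4 = n1
  generalize dat (cp p) (cn n) e q 5 = n2
  generalize dat (cp p) (cn n) e q 6 = x1
  generalize dat (cp p) (cn n) e q 7 = x2
  generalize kf T = κ at *
  have hk : (1 + κ ^ 2) ≠ 0 := by positivity
  field_simp
  push_cast
  ring

lemma rowO5 (e : E) (h0 : 0 < T) (h1 : T < 1) :
    Nl (gam m μ) (cp p) T (fun q => pO (fv T (dat (cp p) (cn n) e q)) 5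
      - hO (fv T (dat (cp p) (cn n) e q)) 5 * (2 * kf T
        * (dat (cp p) (cn n) e q 2 + dat (cp p) (cn n) e q 1) * Gh (cp p) q)) := by
  have hT : |T| < 1 := by rw [abs_of_pos h0]; exact h1
  have a0 := mMG hG hp hT e 0 1 1 0 0 1 0
  have a1 := mMG hG hp hT e 1 0 1 0 0 1 0
  have a2 := mMG hG hp hT e 0 1 1 0 0 0 1
  have a3 := mMG hG hp hT e 1 0 1 0 0 0 1
  refine (((((a0).add hG hT a1).sub hG hT a2).sub hG hT a3).smul (-(4 * kf T / (1 + kf T ^ 2)))).congr fun q => ?_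
  have eT := T_eq h0 h1
  have v4 := fv4 h0 h1 (dat (cp p) (cn n) e q)
  have v5 := fv5 h0 h1 (dat (cp p) (cn n) e q)
  simp only [mM, pO, hO, List.getD_cons_zero,
    List.getD_cons_succ, fv0 h0 h1, fv1 h0 h1, fv2 h0 h1, fv3 h0 h1, v4, v5, fv6 h0 h1, fv7 h0 h1]
  clear v4 v5
  generalize Gh (cp p) q = G
  generalize dat (cp p) (cn n) e q 1 = Q
  generalize dat (cp p) (cn n) e q 2 = P
  generalize dat (cp p) (cn n) e q 3 = c
  generalize dat (cp p) (cn n) e q 4 = n1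
  generalize dat (cp p) (cn n) e q 5 = n2
  generalize dat (cp p) (cn n) e q 6 = x1
  generalize dat (cp p) (cn n) e q 7 = x2
  generalize kf T = κ at *
  have hk : (1 + κ ^ 2) ≠ 0 := by positivity
  field_simp
  push_cast
  ring

lemma rowO6 (e : E) (h0 : 0 < T) (h1 : T < 1) :
    Nl (gam m μ) (cp p) T (fun q => pO (fv T (dat (cp p) (cn n) e q)) 6
      - hO (fv T (dat (cp p) (cn n) e q)) 6 * (2 * kf T
        * (dat (cp p) (cn n) e q 2 + dat (cp p) (cn n) e q 1) * Gh (cp p) q)) := by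
  have hT : |T| < 1 := by rw [abs_of_pos h0]; exact h1
  have a0 := mMG hG hp hT e 0 2 0 1 0 0 0
  have a1 := mMG hG hp hT e 1 1 0 1 0 0 0
  have a2 := mMG hG hp hT e 1 1 0 0 1 0 0
  have a3 := mMG hG hp hT e 2 0 0 0 1 0 0
  refine (((((a0).add hG hT a1).sub hG hT a2).sub hG hT a3).smul (-(2 * kf T))).congr fun q => ?_
  have eT := T_eq h0 h1
  have v4 := fv4 h0 h1 (dat (cp p) (cn n) e q)
  have v5 := fv5 h0 h1 (dat (cp p) (cn n) e q)
  simp only [mM, pO, hO, List.getD_cons_zero,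
    List.getD_cons_succ, fv0 h0 h1, fv1 h0 h1, fv2 h0 h1, fv3 h0 h1, v4, v5, fv6 h0 h1, fv7 h0 h1]
  clear v4 v5
  generalize Gh (cp p) q = G
  generalize dat (cp p) (cn n) e q 1 = Q
  generalize dat (cp p) (cn n) e q 2 = P
  generalize dat (cp p) (cn n) e q 3 = c
  generalize dat (cp p) (cn n) e q 4 = n1
  generalize dat (cp p) (cn n) e q 5 = n2
  generalize dat (cp p) (cn n) e q 6 = x1
  generalize dat (cp p) (cn n) e q 7 = x2
  generalize kf T = κ at *
  have hk : (1 + κ ^ 2) ≠ 0 := by positivity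
  field_simp
  push_cast
  ring

lemma rowO7 (e : E) (h0 : 0 < T) (h1 : T < 1) :
    Nl (gam m μ) (cp p) T (fun q => pO (fv T (dat (cp p) (cn n) e q)) 7
      - hO (fv T (dat (cp p) (cn n) e q)) 7 * (2 * kf T
        * (dat (cp p) (cn n) e q 2 + dat (cp p) (cn n) e q 1) * Gh (cp p) q)) := by
  have hT : |T| < 1 := by rw [abs_of_pos h0]; exact h1
  have a0 := mMG hG hp hT e 0 2 0 0 1 0 0
  have a1 := mMG hG hp hT e 1 1 0 0 1 0 0
  have a2 := mMG hG hp hT e 1 1 0 1 0 0 0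
  have a3 := mMG hG hp hT e 2 0 0 1 0 0 0
  refine (((((a0).add hG hT a1).sub hG hT a2).sub hG hT a3).smul (-(2 * kf T))).congr fun q => ?_
  have eT := T_eq h0 h1
  have v4 := fv4 h0 h1 (dat (cp p) (cn n) e q)
  have v5 := fv5 h0 h1 (dat (cp p) (cn n) e q)
  simp only [mM, pO, hO, List.getD_cons_zero,
    List.getD_cons_succ, fv0 h0 h1, fv1 h0 h1, fv2 h0 h1, fv3 h0 h1, v4, v5, fv6 h0 h1, fv7 h0 h1]
  clear v4 v5
  generalize Gh (cp p) q = G
  generalize dat (cp p) (cn n) e q 1 = Q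
  generalize dat (cp p) (cn n) e q 2 = P
  generalize dat (cp p) (cn n) e q 3 = c
  generalize dat (cp p) (cn n) e q 4 = n1
  generalize dat (cp p) (cn n) e q 5 = n2
  generalize dat (cp p) (cn n) e q 6 = x1
  generalize dat (cp p) (cn n) e q 7 = x2
  generalize kf T = κ at *
  have hk : (1 + κ ^ 2) ≠ 0 := by positivity
  field_simp
  push_cast
  ring

end cone

end Vale.Agent.P224.R2.H135
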