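import Vale.Agent.P224.R2.H135.Ext2
import Vale.Agent.P224.R2.H135.Ext3

/-!
The two functional inequalities over pairs of points of a Gaussian cone.
-/

namespace Vale.Agent.P224.R2.H135

open MeasureTheory Set Filter Function
open Vale.Agent.P224.UE Vale.Agent.P224.UG Vale.Agent.P224.PU
open scoped Topology RealInnerProductSpace

set_option linter.unusedSectionVars false
set_option linter.unusedSimpArgs false

lemma cross_nonneg {t P Q : ℝ} (ht : |t| ≤ 1) : 0 ≤ P ^ 2 + Q ^ 2 - 2 * t * (P * Q) := by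
  have h1 : t ^ 2 ≤ 1 := (sq_le_one_iff_abs_le_one t).2 ht
  nlinarith [sq_nonneg (P - t * Q), sq_nonneg Q, mul_nonneg (sub_nonneg.2 h1) (sq_nonneg Q)]

/-- the remainder of the even table -/
noncomputable def wE (θ N n κ T P Q c : ℝ) : ℝ :=
  θ * (N * (1 + κ ^ 2) ^ 2 + (1 - κ ^ 2) ^ 2 * (P * Q) ^ 2 + (1 - κ ^ 4) * (P ^ 2 + Q ^ 2))
    - θ ^ 2 * (1 + κ ^ 2) ^ 2 * (n - (1 - T ^ 2) * ((Q ^ 2 + P ^ 2) / 2) + T ^ 2 * (P ^ 2 * Q ^ 2)
      + 2 * T * (P * Q * c))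

/-- the remainder of the odd table -/
noncomputable def wO (θ N n κ T P Q c G : ℝ) : ℝ :=
  θ * ((8 * N * (1 + κ ^ 2) ^ 2 + 64 * κ ^ 2 + 16 * (1 - κ ^ 4)) * (P ^ 2 + Q ^ 2))
    - 8 * θ ^ 2 * (1 + κ ^ 2) ^ 2 * ((n + 2 * (1 - T ^ 2)) * (P ^ 2 + Q ^ 2)
      - 2 * T ^ 2 * (P ^ 2 * Q ^ 2) - 4 * T * (P * Q * c))
    + 4 * θ ^ 2 * κ ^ 2 * ((P - Q) ^ 2 * G ^ 2)

lemma wE_nonneg {θ N n κ T P Q c : ℝ} (hθ0 : 0 ≤ θ) (hθ1 : θ ≤ 1) (hN : θ * n ≤ N)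
    (hκ : κ ^ 2 ≤ 1) (hT : T = (1 - κ ^ 2) / (1 + κ ^ 2)) (hc : |c| ≤ 1) :
    0 ≤ wE θ N n κ T P Q c := by
  have hk : (1 + κ ^ 2) ≠ 0 := by positivity
  have e : wE θ N n κ T P Q c = θ * (1 + κ ^ 2) ^ 2 * (N - θ * n)
      + 2 * θ ^ 2 * κ ^ 2 * (P ^ 2 + Q ^ 2) + θ * (1 - θ) * ((1 - κ ^ 2) ^ 2 * (P * Q) ^ 2)
      + θ * ((1 - κ ^ 2) * (1 + κ ^ 2)) * (P ^ 2 + Q ^ 2 - 2 * (θ * c) * (P * Q)) := by
    unfold wE
    rw [hT]
    field_simp
    ring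
  rw [e]
  have h1 : |θ * c| ≤ 1 := by
    rw [abs_mul, abs_of_nonneg hθ0]
    exact mul_le_one₀ hθ1 (abs_nonneg _) hc
  have h2 := cross_nonneg (P := P) (Q := Q) h1
  have h3 : 0 ≤ 1 - θ := by linarith
  have h4 : 0 ≤ N - θ * n := by linarith
  have h5 : 0 ≤ 1 - κ ^ 2 := by linarith
  positivity

lemma wO_nonneg {θ N n κ T P Q c G : ℝ} (hθ0 : 0 ≤ θ) (hθ1 : θ ≤ 1) (hN : θ * n ≤ N)
    (hκ : κ ^ 2 ≤ 1) (hT : T = (1 - κ ^ 2) / (1 + κ ^ 2)) (hc : |c| ≤ 1) :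
    0 ≤ wO θ N n κ T P Q c G := by
  have hk : (1 + κ ^ 2) ≠ 0 := by positivity
  have e : wO θ N n κ T P Q c G = 8 * θ * (1 + κ ^ 2) ^ 2 * (N - θ * n) * (P ^ 2 + Q ^ 2)
      + 64 * κ ^ 2 * θ * (1 - θ) * (P ^ 2 + Q ^ 2)
      + 16 * θ ^ 2 * (1 - κ ^ 2) ^ 2 * (P * Q) ^ 2
      + 16 * θ * ((1 - κ ^ 2) * (1 + κ ^ 2)) * (P ^ 2 + Q ^ 2 - 2 * (-(θ * c)) * (P * Q))
      + 4 * θ ^ 2 * κ ^ 2 * ((P - Q) ^ 2 * G ^ 2) := by
    unfold wO
    rw [hT]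
    field_simp
    ring
  rw [e]
  have h1 : |-(θ * c)| ≤ 1 := by
    rw [abs_neg, abs_mul, abs_of_nonneg hθ0]
    exact mul_le_one₀ hθ1 (abs_nonneg _) hc
  have h2 := cross_nonneg (P := P) (Q := Q) h1
  have h3 : 0 ≤ 1 - θ := by linarith
  have h4 : 0 ≤ N - θ * n := by linarith
  have h5 : 0 ≤ 1 - κ ^ 2 := by linarith
  positivity

section cone

variable {X : Type*} [MeasurableSpace X] {E : Type*} [NormedAddCommGroup E]
  [InnerProductSpace ℝ E] [MeasurableSpace E] [BorelSpace E] [SecondCountableTopology E]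
  {μ : Measure X} [IsFiniteMeasure μ] {m : ℕ} {p n : X → E} {T : ℝ}

variable (hG : GC (gam m μ) (m + 1) (cp p) (cn n)) (hp : ∀ x, ‖p x‖ = 1)

include hG

lemma abs_d3 (e : E) (q : (X × ℝ) × (X × ℝ)) : |dat (cp p) (cn n) e q 3| ≤ 1 := by
  have h := abs_real_inner_le_norm (cn n q.1) (cn n q.2)
  rwa [hG.nn, hG.nn, mul_one] at h

omit hG in
lemma kf_sq_le (h0 : 0 < T) (h1 : T < 1) : kf T ^ 2 ≤ 1 := by
  rw [kf_sq (by linarith : -1 < T) h1.le, div_le_one (by linarith)]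
  linarith

include hp

/-- **The even functional inequality.** -/
theorem extE_J (e : E) (h0 : 0 < T) (h1 : T < 1) {θ N : ℝ} (hθ0 : 0 ≤ θ) (hθ1 : θ ≤ 1)
    (hN : θ * ((m + 1 : ℕ) : ℝ) ≤ N) {Z : ℕ → ℕ → ℝ} (hs : ∀ i j, Z i j = Z j i)
    (hZ : ∀ x : ℕ → ℝ, 0 ≤ ∑ i ∈ Finset.range 9, ∑ j ∈ Finset.range 9, Z i j * (x i * x j)) :
    0 ≤ J (gam m μ) (cp p) T (fun q => ∑ i ∈ Finset.range 9, ∑ j ∈ Finset.range 9,
      Z i j * ME θ N (fv T (dat (cp p) (cn n) e q)) i j) := by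
  have := hG.finite
  have hT : |T| < 1 := by rw [abs_of_pos h0]; exact h1
  have eT := T_eq h0 h1
  have hk := kf_sq_le h0 h1
  have d1 := hG.sg_dat e 1
  have d2 := hG.sg_dat e 2
  have d3 := hG.sg_dat e 3
  refine quad_nonneg (ν := cn n) hG hT 8
    (H := fun i q => if i = 8 then θ * ((1 + kf T ^ 2) * Fh (cp p) T q)
      else hE (fv T (dat (cp p) (cn n) e q)) i)
    (M := fun i j q => ME θ N (fv T (dat (cp p) (cn n) e q)) i j)
    (w := fun q => wE θ N ((m + 1 : ℕ) : ℝ) (kf T) T (dat (cp p) (cn n) e q 2)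
      (dat (cp p) (cn n) e q 1) (dat (cp p) (cn n) e q 3))
    ?_ ?_ ?_ ?_ ?_ ?_ ?_ hs hZ
  · intro i _
    by_cases hi : i = 8
    · simp only [if_pos hi]
      exact ((sg_Fh hG).const_mul _).const_mul _
    · simp only [if_neg hi]
      exact sg_hE hG e h0 h1 i
  · intro i hi j hj q
    simp only [ME, if_neg (show ¬ i = 8 by omega), if_neg (show ¬ j = 8 by omega)]
  · intro i hi
    have hr : ∀ i < 8, Nl (gam m μ) (cp p) T (fun q => pE (fv T (dat (cp p) (cn n) e q)) i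
        - hE (fv T (dat (cp p) (cn n) e q)) i * ((1 + kf T ^ 2) * Fh (cp p) T q)) := by
      intro i hi
      interval_cases i
      · exact rowE0 hG hp e h0 h1
      · exact rowE1 hG hp e h0 h1
      · exact rowE2 hG hp e h0 h1
      · exact rowE3 hG hp e h0 h1
      · exact rowE4 hG hp e h0 h1
      · exact rowE5 hG hp e h0 h1
      · exact rowE6 hG hp e h0 h1
      · exact rowE7 hG hp e h0 h1
    refine ((hr i hi).smul θ).congr fun q => ?_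
    simp only [ME, if_neg (show ¬ i = 8 by omega), if_true]
    ring
  · intro i hi q
    simp only [ME, if_neg (show ¬ i = 8 by omega), if_true]
  · have hf := (FF hG hp hT e).smul (-(θ ^ 2 * (1 + kf T ^ 2) ^ 2))
    refine hf.congr fun q => ?_
    simp only [ME, if_true, cE, wE, fv0 h0 h1, fv1 h0 h1, fv2 h0 h1]
    ring
  · intro q
    exact wE_nonneg hθ0 hθ1 hN hk eT (abs_d3 hG e q)
  · have hh := (((((SG.const (p := cp p) (N * (1 + kf T ^ 2) ^ 2)).add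
      (((d2.mul d1).pow 2).const_mul ((1 - kf T ^ 2) ^ 2))).add
      (((d2.pow 2).add (d1.pow 2)).const_mul (1 - kf T ^ 4))).const_mul θ).sub
      (((((SG.const (p := cp p) ((m + 1 : ℕ) : ℝ)).sub
        ((((d1.pow 2).add (d2.pow 2)).mul_const (1 / 2)).const_mul (1 - T ^ 2))).add
        (((d2.pow 2).mul (d1.pow 2)).const_mul (T ^ 2))).add
        (((d2.mul d1).mul d3).const_mul (2 * T))).const_mul (θ ^ 2 * (1 + kf T ^ 2) ^ 2)))
    simp only [mul_one_div] at hh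
    exact hh

/-- **The odd functional inequality.** -/
theorem extO_J (e : E) (h0 : 0 < T) (h1 : T < 1) {θ N : ℝ} (hθ0 : 0 ≤ θ) (hθ1 : θ ≤ 1)
    (hN : θ * ((m + 1 : ℕ) : ℝ) ≤ N) {Z : ℕ → ℕ → ℝ} (hs : ∀ i j, Z i j = Z j i)
    (hZ : ∀ x : ℕ → ℝ, 0 ≤ ∑ i ∈ Finset.range 9, ∑ j ∈ Finset.range 9, Z i j * (x i * x j)) :
    0 ≤ J (gam m μ) (cp p) T (fun q => ∑ i ∈ Finset.range 9, ∑ j ∈ Finset.range 9,
      Z i j * MO θ N (fv T (dat (cp p) (cn n) e q)) i j) := by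
  have := hG.finite
  have hT : |T| < 1 := by rw [abs_of_pos h0]; exact h1
  have eT := T_eq h0 h1
  have hk := kf_sq_le h0 h1
  have hk0 : (1 + kf T ^ 2) ≠ 0 := by positivity
  have d1 := hG.sg_dat e 1
  have d2 := hG.sg_dat e 2
  have d3 := hG.sg_dat e 3
  refine quad_nonneg (ν := cn n) hG hT 8
    (H := fun i q => if i = 8 then θ * (2 * kf T
        * (dat (cp p) (cn n) e q 2 + dat (cp p) (cn n) e q 1) * Gh (cp p) q)
      else hO (fv T (dat (cp p) (cn n) e q)) i)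
    (M := fun i j q => MO θ N (fv T (dat (cp p) (cn n) e q)) i j)
    (w := fun q => wO θ N ((m + 1 : ℕ) : ℝ) (kf T) T (dat (cp p) (cn n) e q 2)
      (dat (cp p) (cn n) e q 1) (dat (cp p) (cn n) e q 3) (Gh (cp p) q))
    ?_ ?_ ?_ ?_ ?_ ?_ ?_ hs hZ
  · intro i _
    by_cases hi : i = 8
    · simp only [if_pos hi]
      exact ((((d2.add d1).const_mul (2 * kf T)).mul (sg_Gh hG))).const_mul _
    · simp only [if_neg hi]
      exact sg_hO hG e h0 h1 i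
  · intro i hi j hj q
    simp only [MO, if_neg (show ¬ i = 8 by omega), if_neg (show ¬ j = 8 by omega)]
  · intro i hi
    have hr : ∀ i < 8, Nl (gam m μ) (cp p) T (fun q => pO (fv T (dat (cp p) (cn n) e q)) i
        - hO (fv T (dat (cp p) (cn n) e q)) i * (2 * kf T
        * (dat (cp p) (cn n) e q 2 + dat (cp p) (cn n) e q 1) * Gh (cp p) q)) := by
      intro i hi
      interval_cases i
      · exact rowO0 hG hp e h0 h1
      · exact rowO1 hG hp e h0 h1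
      · exact rowO2 hG hp e h0 h1
      · exact rowO3 hG hp e h0 h1
      · exact rowO4 hG hp e h0 h1
      · exact rowO5 hG hp e h0 h1
      · exact rowO6 hG hp e h0 h1
      · exact rowO7 hG hp e h0 h1
    refine ((hr i hi).smul θ).congr fun q => ?_
    simp only [MO, if_neg (show ¬ i = 8 by omega), if_true]
    ring
  · intro i hi q
    simp only [MO, if_neg (show ¬ i = 8 by omega), if_true]
  · have ha := GGQQ hG hp hT e
    have hb := ha.swap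
    have hf := (ha.add hG hT hb).smul (-(2 * θ ^ 2 * (1 + kf T ^ 2) ^ 2))
    refine hf.congr fun q => ?_
    obtain ⟨s1, s2, s3, s4, s5, s6, s7⟩ := dsw (p := p) (n := n) e q
    simp only [MO, if_true, cO, wO, fv0 h0 h1, fv1 h0 h1, fv2 h0 h1, s1, s2, s3, Gh_swap]
    generalize kf T = κ at *
    rw [eT]
    field_simp
    ring
  · intro q
    exact wO_nonneg hθ0 hθ1 hN hk eT (abs_d3 hG e q)
  · have hG2 := (sg_Gh hG).pow 2
    have hh := (((((d2.pow 2).add (d1.pow 2)).const_mul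
        (8 * N * (1 + kf T ^ 2) ^ 2 + 64 * kf T ^ 2 + 16 * (1 - kf T ^ 4))).const_mul θ).sub
      ((((((d2.pow 2).add (d1.pow 2)).const_mul (((m + 1 : ℕ) : ℝ) + 2 * (1 - T ^ 2))).sub
        (((d2.pow 2).mul (d1.pow 2)).const_mul (2 * T ^ 2))).sub
        (((d2.mul d1).mul d3).const_mul (4 * T))).const_mul
          (8 * θ ^ 2 * (1 + kf T ^ 2) ^ 2))).add
      ((((d2.sub d1).pow 2).mul hG2).const_mul (4 * θ ^ 2 * kf T ^ 2))
    exact hh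

/-- **The even functional inequality.** -/
theorem extE (e : E) (h0 : 0 < T) (h1 : T < 1) {θ N : ℝ} (hθ0 : 0 ≤ θ) (hθ1 : θ ≤ 1)
    (hN : θ * ((m + 1 : ℕ) : ℝ) ≤ N) {Z : ℕ → ℕ → ℝ} (hs : ∀ i j, Z i j = Z j i)
    (hZ : ∀ x : ℕ → ℝ, 0 ≤ ∑ i ∈ Finset.range 9, ∑ j ∈ Finset.range 9, Z i j * (x i * x j)) :
    0 ≤ KI (gam m μ) (cp p) (cn n) e T (fun d => ∑ i ∈ Finset.range 9, ∑ j ∈ Finset.range 9,
      Z i j * ME θ N (vK (kf T) (c8 T d)) i j) :=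
  extE_J hG hp e h0 h1 hθ0 hθ1 hN hs hZ

/-- **The odd functional inequality.** -/
theorem extO (e : E) (h0 : 0 < T) (h1 : T < 1) {θ N : ℝ} (hθ0 : 0 ≤ θ) (hθ1 : θ ≤ 1)
    (hN : θ * ((m + 1 : ℕ) : ℝ) ≤ N) {Z : ℕ → ℕ → ℝ} (hs : ∀ i j, Z i j = Z j i)
    (hZ : ∀ x : ℕ → ℝ, 0 ≤ ∑ i ∈ Finset.range 9, ∑ j ∈ Finset.range 9, Z i j * (x i * x j)) :
    0 ≤ KI (gam m μ) (cp p) (cn n) e T (fun d => ∑ i ∈ Finset.range 9, ∑ j ∈ Finset.range 9,
      Z i j * MO θ N (vK (kf T) (c8 T d)) i j) :=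
  extO_J hG hp e h0 h1 hθ0 hθ1 hN hs hZ

end cone

end Vale.Agent.P224.R2.H135
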