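import Vale.Agent.P224.R2.H135.LawN

/-!
The law of a combination of two certificates from a pointwise inequality with the two functional
inequalities.
-/

namespace Vale.Agent.P224.R2.H135

open MeasureTheory Set Filter Function
open Vale.Agent.P224.UE Vale.Agent.P224.UG Vale.Agent.P224.PU Vale.Agent.P224.R2.H389
open scoped Topology RealInnerProductSpace

set_option linter.unusedSectionVars false

/-- the even form -/
def XE (θ N : ℝ) (Z : ℕ → ℕ → ℝ) (f : ℕ → ℝ) : ℝ :=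
  ∑ i ∈ Finset.range 9, ∑ j ∈ Finset.range 9, Z i j * ME θ N f i j

/-- the odd form -/
def XO (θ N : ℝ) (Z : ℕ → ℕ → ℝ) (f : ℕ → ℝ) : ℝ :=
  ∑ i ∈ Finset.range 9, ∑ j ∈ Finset.range 9, Z i j * MO θ N f i j

/-- symmetric and nonnegative on vectors -/
def Psd (Z : ℕ → ℕ → ℝ) : Prop :=
  (∀ i j, Z i j = Z j i) ∧
  ∀ x : ℕ → ℝ, 0 ≤ ∑ i ∈ Finset.range 9, ∑ j ∈ Finset.range 9, Z i j * (x i * x j)

/-- the tables are affine in the parameter -/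
lemma ME_mix (a b θ θ' N : ℝ) (hab : a + b = 1) (f : ℕ → ℝ) (i j : ℕ) :
    ME (a * θ + b * θ') N f i j = a * ME θ N f i j + b * ME θ' N f i j := by
  have hb : b = 1 - a := by linarith
  subst hb
  unfold ME
  split_ifs <;> ring

lemma MO_mix (a b θ θ' N : ℝ) (hab : a + b = 1) (f : ℕ → ℝ) (i j : ℕ) :
    MO (a * θ + b * θ') N f i j = a * MO θ N f i j + b * MO θ' N f i j := by
  have hb : b = 1 - a := by linarith
  subst hb
  unfold MO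
  split_ifs <;> ring

lemma XE_mix (a b θ θ' N : ℝ) (hab : a + b = 1) (Z : ℕ → ℕ → ℝ) (f : ℕ → ℝ) :
    XE (a * θ + b * θ') N Z f = a * XE θ N Z f + b * XE θ' N Z f := by
  unfold XE
  rw [Finset.mul_sum, Finset.mul_sum, ← Finset.sum_add_distrib]
  refine Finset.sum_congr rfl fun i _ => ?_
  rw [Finset.mul_sum, Finset.mul_sum, ← Finset.sum_add_distrib]
  refine Finset.sum_congr rfl fun j _ => ?_
  rw [ME_mix a b θ θ' N hab]
  ring

lemma XO_mix (a b θ θ' N : ℝ) (hab : a + b = 1) (Z : ℕ → ℕ → ℝ) (f : ℕ → ℝ) :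
    XO (a * θ + b * θ') N Z f = a * XO θ N Z f + b * XO θ' N Z f := by
  unfold XO
  rw [Finset.mul_sum, Finset.mul_sum, ← Finset.sum_add_distrib]
  refine Finset.sum_congr rfl fun i _ => ?_
  rw [Finset.mul_sum, Finset.mul_sum, ← Finset.sum_add_distrib]
  refine Finset.sum_congr rfl fun j _ => ?_
  rw [MO_mix a b θ θ' N hab]
  ring

section cone

variable {X : Type*} [MeasurableSpace X] {E : Type*} [NormedAddCommGroup E]
  [InnerProductSpace ℝ E] [MeasurableSpace E] [BorelSpace E] [SecondCountableTopology E]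
  {μ : Measure X} [IsFiniteMeasure μ] {m : ℕ} {p n : X → E} {T : ℝ}

variable (hG : GC (gam m μ) (m + 1) (cp p) (cn n)) (hp : ∀ x, ‖p x‖ = 1)

include hG hp

lemma sg_pE (e : E) (h0 : 0 < T) (h1 : T < 1) {i : ℕ} (hi : i < 8) :
    SG (cp p) (fun q => pE (fv T (dat (cp p) (cn n) e q)) i) := by
  have hr : Nl (gam m μ) (cp p) T (fun q => pE (fv T (dat (cp p) (cn n) e q)) i
        - hE (fv T (dat (cp p) (cn n) e q)) i * ((1 + kf T ^ 2) * Fh (cp p) T q)) := by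
    interval_cases i
    · exact rowE0 hG hp e h0 h1
    · exact rowE1 hG hp e h0 h1
    · exact rowE2 hG hp e h0 h1
    · exact rowE3 hG hp e h0 h1
    · exact rowE4 hG hp e h0 h1
    · exact rowE5 hG hp e h0 h1
    · exact rowE6 hG hp e h0 h1
    · exact rowE7 hG hp e h0 h1
  have h2 := hr.1.add ((sg_hE hG e h0 h1 i).mul ((sg_Fh (T := T) hG).const_mul (1 + kf T ^ 2)))
  have e1 : (fun q => pE (fv T (dat (cp p) (cn n) e q)) i)
      = fun q => (pE (fv T (dat (cp p) (cn n) e q)) i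
        - hE (fv T (dat (cp p) (cn n) e q)) i * ((1 + kf T ^ 2) * Fh (cp p) T q))
        + hE (fv T (dat (cp p) (cn n) e q)) i * ((1 + kf T ^ 2) * Fh (cp p) T q) := by
    funext q
    ring
  rw [e1]
  exact h2

lemma sg_pO (e : E) (h0 : 0 < T) (h1 : T < 1) {i : ℕ} (hi : i < 8) :
    SG (cp p) (fun q => pO (fv T (dat (cp p) (cn n) e q)) i) := by
  have hr : Nl (gam m μ) (cp p) T (fun q => pO (fv T (dat (cp p) (cn n) e q)) i
        - hO (fv T (dat (cp p) (cn n) e q)) i * (2 * kf T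
        * (dat (cp p) (cn n) e q 2 + dat (cp p) (cn n) e q 1) * Gh (cp p) q)) := by
    interval_cases i
    · exact rowO0 hG hp e h0 h1
    · exact rowO1 hG hp e h0 h1
    · exact rowO2 hG hp e h0 h1
    · exact rowO3 hG hp e h0 h1
    · exact rowO4 hG hp e h0 h1
    · exact rowO5 hG hp e h0 h1
    · exact rowO6 hG hp e h0 h1
    · exact rowO7 hG hp e h0 h1
  have h2 := hr.1.add ((sg_hO hG e h0 h1 i).mul
    ((((hG.sg_dat e 2).add (hG.sg_dat e 1)).const_mul (2 * kf T)).mul (sg_Gh hG)))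
  have e1 : (fun q => pO (fv T (dat (cp p) (cn n) e q)) i)
      = fun q => (pO (fv T (dat (cp p) (cn n) e q)) i
        - hO (fv T (dat (cp p) (cn n) e q)) i * (2 * kf T
        * (dat (cp p) (cn n) e q 2 + dat (cp p) (cn n) e q 1) * Gh (cp p) q))
        + hO (fv T (dat (cp p) (cn n) e q)) i * (2 * kf T
        * (dat (cp p) (cn n) e q 2 + dat (cp p) (cn n) e q 1) * Gh (cp p) q) := by
    funext q
    ring
  rw [e1]
  exact h2

lemma sg_XE (e : E) (h0 : 0 < T) (h1 : T < 1) (θ N : ℝ) (Z : ℕ → ℕ → ℝ) :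
    SD (cp p) (cn n) e (fun d => XE θ N Z (vK (kf T) (c8 T d))) := by
  have s := sg_fv hG e h0 h1
  have sc : SG (cp p) (fun q => cE N (fv T (dat (cp p) (cn n) e q))) := by
    have hk := (((SG.const (p := cp p) (N * (1 + kf T ^ 2) ^ 2)).add
      (((((s 1).pow 2).sub ((s 2).pow 2)).pow 2).const_mul ((1 - kf T ^ 2) ^ 2))).add
      (((((s 1).pow 2).add ((s 2).pow 2)).const_mul 2).const_mul (1 - kf T ^ 4)))
    exact hk
  have key : SG (cp p) (fun q => ∑ i ∈ Finset.range 9, ∑ j ∈ Finset.range 9,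
      Z i j * ME θ N (fv T (dat (cp p) (cn n) e q)) i j) := by
    refine SG.sum _ fun i hi => SG.sum _ fun j hj => ?_
    suffices hh : SG (cp p) (fun q => ME θ N (fv T (dat (cp p) (cn n) e q)) i j) from
      hh.const_mul _
    by_cases hi8 : i = 8
    · by_cases hj8 : j = 8
      · simp only [ME, if_pos hi8, if_pos hj8]
        exact sc.const_mul _
      · simp only [ME, if_pos hi8, if_neg hj8]
        exact (sg_pE hG hp e h0 h1 (by omega)).const_mul _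
    · by_cases hj8 : j = 8
      · simp only [ME, if_neg hi8, if_pos hj8]
        exact (sg_pE hG hp e h0 h1 (by omega)).const_mul _
      · simp only [ME, if_neg hi8, if_neg hj8]
        exact (sg_hE hG e h0 h1 i).mul (sg_hE hG e h0 h1 j)
  exact key

lemma sg_XO (e : E) (h0 : 0 < T) (h1 : T < 1) (θ N : ℝ) (Z : ℕ → ℕ → ℝ) :
    SD (cp p) (cn n) e (fun d => XO θ N Z (vK (kf T) (c8 T d))) := by
  have s := sg_fv hG e h0 h1
  have sc : SG (cp p) (fun q => cO N (fv T (dat (cp p) (cn n) e q))) := by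
    have hk := ((((s 1).pow 2).add ((s 2).pow 2)).const_mul 2).const_mul
      (8 * N * (1 + kf T ^ 2) ^ 2 + 64 * kf T ^ 2 + 16 * (1 - kf T ^ 4))
    exact hk
  have key : SG (cp p) (fun q => ∑ i ∈ Finset.range 9, ∑ j ∈ Finset.range 9,
      Z i j * MO θ N (fv T (dat (cp p) (cn n) e q)) i j) := by
    refine SG.sum _ fun i hi => SG.sum _ fun j hj => ?_
    suffices hh : SG (cp p) (fun q => MO θ N (fv T (dat (cp p) (cn n) e q)) i j) from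
      hh.const_mul _
    by_cases hi8 : i = 8
    · by_cases hj8 : j = 8
      · simp only [MO, if_pos hi8, if_pos hj8]
        exact sc.const_mul _
      · simp only [MO, if_pos hi8, if_neg hj8]
        exact (sg_pO hG hp e h0 h1 (by omega)).const_mul _
    · by_cases hj8 : j = 8
      · simp only [MO, if_neg hi8, if_pos hj8]
        exact (sg_pO hG hp e h0 h1 (by omega)).const_mul _
      · simp only [MO, if_neg hi8, if_neg hj8]
        exact (sg_hO hG e h0 h1 i).mul (sg_hO hG e h0 h1 j)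
  exact key

/-- **The sign of the integral of the derivative from a pointwise inequality.** -/
theorem hneg_of_pt {e : E} (he : ‖e‖ = 1) (h0 : 0 < T) (h1 : T < 1) {l : Cert} (hl : OkC l)
    {θ N : ℝ} (hθ0 : 0 ≤ θ) (hθ1 : θ ≤ 1) (hN : θ * ((m + 1 : ℕ) : ℝ) ≤ N)
    {ZE ZO : ℕ → ℕ → ℝ} (hE : Psd ZE) (hO : Psd ZO)
    (hpt : ∀ u w e : E, ‖u‖ = 1 → ‖w‖ = 1 → ‖e‖ = 1 → ∀ P Q Z Ξ : ℝ,
      Dsum l T ![P, Q, ⟪u, w⟫, ⟪u, e⟫, ⟪w, e⟫, Z, Ξ, ⟪e, e⟫]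
        + Dsum l T (sw8 T ![P, Q, ⟪u, w⟫, ⟪u, e⟫, ⟪w, e⟫, Z, Ξ, ⟪e, e⟫])
        + (XE θ N ZE (vK (kf T) ![P, Q, ⟪u, w⟫, ⟪u, e⟫, ⟪w, e⟫, Z, Ξ, ⟪e, e⟫])
          + XO θ N ZO (vK (kf T) ![P, Q, ⟪u, w⟫, ⟪u, e⟫, ⟪w, e⟫, Z, Ξ, ⟪e, e⟫])) ≤ 0) :
    KI (gam m μ) (cp p) (cn n) e T (fun d => Dsum l T (c8 T d)) ≤ 0 := by
  obtain ⟨hb, hc, hd, h3, h4⟩ := hl
  have hT' : T ∈ Ico (0 : ℝ) 1 := ⟨h0.le, h1⟩
  have hT : |T| < 1 := by rw [abs_of_pos h0]; exact h1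
  have s1 := sg_XE hG hp e h0 h1 θ N ZE
  have s2 := sg_XO hG hp e h0 h1 θ N ZO
  have i1 : 0 ≤ KI (gam m μ) (cp p) (cn n) e T (fun d => XE θ N ZE (vK (kf T) (c8 T d))) :=
    extE hG hp e h0 h1 hθ0 hθ1 hN hE.1 hE.2
  have i2 : 0 ≤ KI (gam m μ) (cp p) (cn n) e T (fun d => XO θ N ZO (vK (kf T) (c8 T d))) :=
    extO hG hp e h0 h1 hθ0 hθ1 hN hO.1 hO.2
  have i3 := hG.KI_add s1 s2 hT
  refine KI_nonpos_of_two hG e hT'
    (DD.list hG e hT' l hb fun t ht ha => hd t ht ha T ⟨h0, h1⟩).2.1 (s1.add s2) ?_ fun q => ?_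
  · rw [i3]
    exact add_nonneg i1 i2
  · exact hpt (cn n q.1) (cn n q.2) e (hG.nn _) (hG.nn _) he _ _ _ _

end cone

section

variable {X : Type*} [MeasurableSpace X] {E : Type*} [NormedAddCommGroup E]
  [InnerProductSpace ℝ E] [MeasurableSpace E] [BorelSpace E] [SecondCountableTopology E]
  {μ : Measure X} [IsFiniteMeasure μ] {m : ℕ} {p n : X → E} {C S : ℝ}

/-- **The law of a pair of certificates for the normalized mean normal**: a pair at the parameters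
`θ₀` and `θ₁` with common forms gives the law of the combination for the parameters in between. -/
theorem law_pair [CompleteSpace E] [Nonempty X] (hD : EmbD μ m p n C S) (hm : 1 ≤ m)
    (hG : GC (gam m μ) (m + 1) (cp p) (cn n)) (hp : ∀ x, ‖p x‖ = 1) {e : E}
    (he : (μ.real univ) • e = ∫ x, n x ∂μ) (hA : 0 < μ.real univ) (he0 : e ≠ 0)
    {D0 D1 : ℤ} {L0 L1 : List KT} (ok0 : okK L0 = true) (ok1 : okK L1 = true)
    (z0 : l0 L0 = true) (z1 : l0 L1 = true) {a b θ₀ θ₁ N : ℝ} (ha : 0 ≤ a) (hb : 0 ≤ b)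
    (hab : a + b = 1) (h00 : 0 ≤ θ₀) (h01 : θ₀ ≤ 1) (h10 : 0 ≤ θ₁) (h11 : θ₁ ≤ 1)
    (hN : (a * θ₀ + b * θ₁) * ((m + 1 : ℕ) : ℝ) ≤ N)
    (hpt : ∀ T ∈ Ioo (0 : ℝ) 1, ∃ ZE ZO : ℕ → ℕ → ℝ, Psd ZE ∧ Psd ZO ∧
      ∀ u w e : E, ‖u‖ = 1 → ‖w‖ = 1 → ‖e‖ = 1 → ∀ P Q Z Ξ : ℝ,
      (Dsum (certK D0 L0) T ![P, Q, ⟪u, w⟫, ⟪u, e⟫, ⟪w, e⟫, Z, Ξ, ⟪e, e⟫]
        + Dsum (certK D0 L0) T (sw8 T ![P, Q, ⟪u, w⟫, ⟪u, e⟫, ⟪w, e⟫, Z, Ξ, ⟪e, e⟫])
        + (XE θ₀ N ZE (vK (kf T) ![P, Q, ⟪u, w⟫, ⟪u, e⟫, ⟪w, e⟫, Z, Ξ, ⟪e, e⟫])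
          + XO θ₀ N ZO (vK (kf T) ![P, Q, ⟪u, w⟫, ⟪u, e⟫, ⟪w, e⟫, Z, Ξ, ⟪e, e⟫])) ≤ 0) ∧
      (Dsum (certK D1 L1) T ![P, Q, ⟪u, w⟫, ⟪u, e⟫, ⟪w, e⟫, Z, Ξ, ⟪e, e⟫]
        + Dsum (certK D1 L1) T (sw8 T ![P, Q, ⟪u, w⟫, ⟪u, e⟫, ⟪w, e⟫, Z, Ξ, ⟪e, e⟫])
        + (XE θ₁ N ZE (vK (kf T) ![P, Q, ⟪u, w⟫, ⟪u, e⟫, ⟪w, e⟫, Z, Ξ, ⟪e, e⟫])
          + XO θ₁ N ZO (vK (kf T) ![P, Q, ⟪u, w⟫, ⟪u, e⟫, ⟪w, e⟫, Z, Ξ, ⟪e, e⟫])) ≤ 0)) :
    ∃ q : ℝ, ‖e‖ ^ 2 ≤ q ∧ q ≤ 1 ∧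
      S * (a * H1 D0 L0 ‖e‖ q + b * H1 D1 L1 ‖e‖ q)
        ≤ μ.real univ * (a * H0 D0 L0 ‖e‖ q + b * H0 D1 L1 ‖e‖ q) := by
  refine law_N hD hm hG he hA he0 ok0 ok1 z0 z1 a b fun T hT => ?_
  have hν : ‖e‖ ≠ 0 := norm_ne_zero_iff.2 he0
  have h1 : ‖(‖e‖⁻¹ • e : E)‖ = 1 := by
    rw [norm_smul, norm_inv, norm_norm, inv_mul_cancel₀ hν]
  obtain ⟨ZE, ZO, pE, pO, hz⟩ := hpt T hT
  have hθ0 : 0 ≤ a * θ₀ + b * θ₁ := by positivity
  have hθ1 : a * θ₀ + b * θ₁ ≤ 1 := by nlinarith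
  refine hneg_of_pt hG hp h1 hT.1 hT.2
    (((OkC.certK (D := D0) ok0).smC a).append ((OkC.certK (D := D1) ok1).smC b))
    hθ0 hθ1 hN pE pO fun u w e hu hw he P Q Z Ξ => ?_
  obtain ⟨c0, c1⟩ := hz u w e hu hw he P Q Z Ξ
  rw [Dsum_append, Dsum_append, Dsum_smC, Dsum_smC, Dsum_smC, Dsum_smC,
    XE_mix a b θ₀ θ₁ N hab, XO_mix a b θ₀ θ₁ N hab]
  have k0 := mul_nonpos_of_nonneg_of_nonpos ha c0
  have k1 := mul_nonpos_of_nonneg_of_nonpos hb c1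
  linarith

end

end Vale.Agent.P224.R2.H135
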