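import Vale.Agent.P224.UG.Cone
import Vale.Agent.P224.UE.Sing6
import Vale.Agent.P224.R2.H135.Pt

/-!
The law of a pair of certificates on a minimal hypersurface of the sphere.
-/

namespace Vale.Agent.P224.R2.H135

open MeasureTheory Set Filter Function Module Vale.Agent.P224 Vale.Agent.P224.UE
open Vale.Agent.P224.UG Vale.Agent.P224.POS Vale.Agent.P224.PU Vale.Agent.P224.R2.H389
open scoped Topology RealInnerProductSpace ENNReal ContDiff Manifold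

set_option linter.unusedSectionVars false

noncomputable section

section

variable {V W M : Type*} [NormedAddCommGroup V] [InnerProductSpace ℝ V] [FiniteDimensional ℝ V]
  [NormedAddCommGroup W] [InnerProductSpace ℝ W] [FiniteDimensional ℝ W]
  [TopologicalSpace M] [ChartedSpace V M]
  [MeasurableSpace V] [BorelSpace V] [MeasurableSpace M] [BorelSpace M]
  [IsManifold 𝓘(ℝ, V) ∞ M] [CompactSpace M] [T2Space M] [ConnectedSpace M]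
  [MeasurableSpace W] [BorelSpace W]

/-- The law of a pair of certificates on a minimal hypersurface. -/
theorem law_of_pair (hm : 2 ≤ finrank ℝ V) (hW : finrank ℝ W = finrank ℝ V + 2)
    {F : M → W} (hF : SphImm V F) (hmin : ∀ x n, IsUnitNormal V F x n → meanCurv V F x n = 0)
    {N : M → W} (hNs : ContMDiff 𝓘(ℝ, V) 𝓘(ℝ, W) ∞ N) (hN : ∀ x, IsUnitNormal V F x (N x))
    (hinj : Injective F) {e : W}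
    (he : (volM V F).real univ • e = ∫ x, N x ∂(volM V F)) (he0 : e ≠ 0)
    (hA : 0 < (volM V F).real univ) {D0 D1 : ℤ} {L0 L1 : List KT} (ok0 : okK L0 = true)
    (ok1 : okK L1 = true) (z0 : l0 L0 = true) (z1 : l0 L1 = true) {a b θ₀ θ₁ NN : ℝ}
    (ha : 0 ≤ a) (hb : 0 ≤ b) (hab : a + b = 1) (h00 : 0 ≤ θ₀) (h01 : θ₀ ≤ 1) (h10 : 0 ≤ θ₁)
    (h11 : θ₁ ≤ 1) (hNN : (a * θ₀ + b * θ₁) * ((finrank ℝ V : ℝ) + 1) ≤ NN)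
    (hpt : ∀ T ∈ Ioo (0 : ℝ) 1, ∃ ZE ZO : ℕ → ℕ → ℝ, Psd ZE ∧ Psd ZO ∧
      ∀ u w e : W, ‖u‖ = 1 → ‖w‖ = 1 → ‖e‖ = 1 → ∀ P Q Z Ξ : ℝ,
      (Dsum (certK D0 L0) T ![P, Q, ⟪u, w⟫, ⟪u, e⟫, ⟪w, e⟫, Z, Ξ, ⟪e, e⟫]
        + Dsum (certK D0 L0) T (sw8 T ![P, Q, ⟪u, w⟫, ⟪u, e⟫, ⟪w, e⟫, Z, Ξ, ⟪e, e⟫])
        + (XE θ₀ NN ZE (vK (kf T) ![P, Q, ⟪u, w⟫, ⟪u, e⟫, ⟪w, e⟫, Z, Ξ, ⟪e, e⟫])
          + XO θ₀ NN ZO (vK (kf T) ![P, Q, ⟪u, w⟫, ⟪u, e⟫, ⟪w, e⟫, Z, Ξ, ⟪e, e⟫])) ≤ 0) ∧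
      (Dsum (certK D1 L1) T ![P, Q, ⟪u, w⟫, ⟪u, e⟫, ⟪w, e⟫, Z, Ξ, ⟪e, e⟫]
        + Dsum (certK D1 L1) T (sw8 T ![P, Q, ⟪u, w⟫, ⟪u, e⟫, ⟪w, e⟫, Z, Ξ, ⟪e, e⟫])
        + (XE θ₁ NN ZE (vK (kf T) ![P, Q, ⟪u, w⟫, ⟪u, e⟫, ⟪w, e⟫, Z, Ξ, ⟪e, e⟫])
          + XO θ₁ NN ZO (vK (kf T) ![P, Q, ⟪u, w⟫, ⟪u, e⟫, ⟪w, e⟫, Z, Ξ, ⟪e, e⟫])) ≤ 0)) :
    ∃ q : ℝ, ‖e‖ ^ 2 ≤ q ∧ q ≤ 1 ∧
      sphereVol (finrank ℝ V) * (a * H1 D0 L0 ‖e‖ q + b * H1 D1 L1 ‖e‖ q)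
        ≤ (volM V F).real univ * (a * H0 D0 L0 ‖e‖ q + b * H0 D1 L1 ‖e‖ q) := by
  have hm0 : 0 < finrank ℝ V := by omega
  have hfin : IsFiniteMeasure (volM V F) := isFiniteMeasure_volM hF
  obtain ⟨B, hE⟩ := embD_of_inj hm0 hW hF hmin hNs hN hinj
  have hG := gc_cone hW (by omega) hF hmin hNs hN
  have : Nonempty M := by
    by_contra h
    rw [not_nonempty_iff] at h
    have h0 : (univ : Set M) = ∅ := by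
      ext x
      exact (h.false x).elim
    rw [h0, measureReal_empty] at hA
    exact lt_irrefl _ hA
  exact law_pair hE (by omega) hG hF.unit he hA he0 ok0 ok1 z0 z1 ha hb hab h00 h01 h10 h11
    (by push_cast; exact hNN) hpt

/-- The contradiction from a pair of certificates on a minimal hypersurface. -/
theorem far_of_pair (hm : 2 ≤ finrank ℝ V) (hW : finrank ℝ W = finrank ℝ V + 2)
    {F : M → W} (hF : SphImm V F) (hmin : ∀ x n, IsUnitNormal V F x n → meanCurv V F x n = 0)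
    {N : M → W} (hNs : ContMDiff 𝓘(ℝ, V) 𝓘(ℝ, W) ∞ N) (hN : ∀ x, IsUnitNormal V F x (N x))
    (hinj : Injective F) {e : W}
    (he : (volM V F).real univ • e = ∫ x, N x ∂(volM V F)) (he0 : e ≠ 0)
    (hA : 0 < (volM V F).real univ) {D0 D1 : ℤ} {L0 L1 : List KT} (ok0 : okK L0 = true)
    (ok1 : okK L1 = true) (z0 : l0 L0 = true) (z1 : l0 L1 = true) {a b θ₀ θ₁ NN : ℝ}
    (ha : 0 ≤ a) (hb : 0 ≤ b) (hab : a + b = 1) (h00 : 0 ≤ θ₀) (h01 : θ₀ ≤ 1) (h10 : 0 ≤ θ₁)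
    (h11 : θ₁ ≤ 1) (hNN : (a * θ₀ + b * θ₁) * ((finrank ℝ V : ℝ) + 1) ≤ NN)
    (hpt : ∀ T ∈ Ioo (0 : ℝ) 1, ∃ ZE ZO : ℕ → ℕ → ℝ, Psd ZE ∧ Psd ZO ∧
      ∀ u w e : W, ‖u‖ = 1 → ‖w‖ = 1 → ‖e‖ = 1 → ∀ P Q Z Ξ : ℝ,
      (Dsum (certK D0 L0) T ![P, Q, ⟪u, w⟫, ⟪u, e⟫, ⟪w, e⟫, Z, Ξ, ⟪e, e⟫]
        + Dsum (certK D0 L0) T (sw8 T ![P, Q, ⟪u, w⟫, ⟪u, e⟫, ⟪w, e⟫, Z, Ξ, ⟪e, e⟫])
        + (XE θ₀ NN ZE (vK (kf T) ![P, Q, ⟪u, w⟫, ⟪u, e⟫, ⟪w, e⟫, Z, Ξ, ⟪e, e⟫])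
          + XO θ₀ NN ZO (vK (kf T) ![P, Q, ⟪u, w⟫, ⟪u, e⟫, ⟪w, e⟫, Z, Ξ, ⟪e, e⟫])) ≤ 0) ∧
      (Dsum (certK D1 L1) T ![P, Q, ⟪u, w⟫, ⟪u, e⟫, ⟪w, e⟫, Z, Ξ, ⟪e, e⟫]
        + Dsum (certK D1 L1) T (sw8 T ![P, Q, ⟪u, w⟫, ⟪u, e⟫, ⟪w, e⟫, Z, Ξ, ⟪e, e⟫])
        + (XE θ₁ NN ZE (vK (kf T) ![P, Q, ⟪u, w⟫, ⟪u, e⟫, ⟪w, e⟫, Z, Ξ, ⟪e, e⟫])
          + XO θ₁ NN ZO (vK (kf T) ![P, Q, ⟪u, w⟫, ⟪u, e⟫, ⟪w, e⟫, Z, Ξ, ⟪e, e⟫])) ≤ 0))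
    (hnum : ∀ q : ℝ, ‖e‖ ^ 2 ≤ q → q ≤ 1 →
      (volM V F).real univ / sphereVol (finrank ℝ V)
        * (a * H0 D0 L0 ‖e‖ q + b * H0 D1 L1 ‖e‖ q) < a * H1 D0 L0 ‖e‖ q + b * H1 D1 L1 ‖e‖ q) :
    False := by
  have hS0 : 0 < sphereVol (finrank ℝ V) := sphereVol_pos' _
  obtain ⟨q, hq1, hq2, hq3⟩ := law_of_pair hm hW hF hmin hNs hN hinj he he0 hA ok0 ok1 z0 z1
    ha hb hab h00 h01 h10 h11 hNN hpt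
  have h1 := hnum q hq1 hq2
  rw [div_mul_eq_mul_div, div_lt_iff₀ hS0] at h1
  linarith

end

end

end Vale.Agent.P224.R2.H135
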