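import Vale.Agent.P224.R2.H389.Scl
import Vale.Agent.P224.R2.H135.Ext4

/-!
The law of a Gaussian certificate from the sign of the integrals of the derivative, every dimension.
-/

namespace Vale.Agent.P224.R2.H135

open MeasureTheory Set Filter Function
open Vale.Agent.P224.UE Vale.Agent.P224.UG Vale.Agent.P224.PU Vale.Agent.P224.R2.H389
open scoped Topology RealInnerProductSpace

set_option linter.unusedSectionVars false

/-- the certificate with the weights multiplied by a constant -/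
noncomputable def smC (a : ℝ) (l : Cert) : Cert :=
  l.map fun t => (t.1, fun T => a * t.2.1 T, fun T => a * t.2.2 T)

lemma Dsum_smC (a : ℝ) (l : Cert) (T : ℝ) (v : R8) : Dsum (smC a l) T v = a * Dsum l T v := by
  unfold Dsum smC
  rw [List.map_map, ← List.sum_map_mul_left]
  congr 1
  refine List.map_congr_left fun t _ => ?_
  simp only [Function.comp]
  rw [D_smul]

lemma Dsum_append (l l' : Cert) (T : ℝ) (v : R8) :
    Dsum (l ++ l') T v = Dsum l T v + Dsum l' T v := by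
  unfold Dsum
  rw [List.map_append, List.sum_append]

lemma V0_append (l l' : Cert) (u r : ℝ) : V0 (l ++ l') u r = V0 l u r + V0 l' u r := by
  unfold V0
  rw [List.map_append, List.sum_append]

lemma V1_append (l l' : Cert) (u r : ℝ) : V1 (l ++ l') u r = V1 l u r + V1 l' u r := by
  unfold V1
  rw [List.map_append, List.sum_append]

lemma V0_smC (a : ℝ) (l : Cert) (u r : ℝ) : V0 (smC a l) u r = a * V0 l u r := by
  unfold V0 smC
  rw [List.map_map, ← List.sum_map_mul_left]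
  congr 1
  refine List.map_congr_left fun t _ => ?_
  simp only [Function.comp]
  ring

lemma V1_smC (a : ℝ) (l : Cert) (u r : ℝ) : V1 (smC a l) u r = a * V1 l u r := by
  unfold V1 smC
  rw [List.map_map, ← List.sum_map_mul_left]
  congr 1
  refine List.map_congr_left fun t _ => ?_
  simp only [Function.comp]
  ring

lemma sclC_append (ν : ℝ) (l l' : Cert) : sclC ν (l ++ l') = sclC ν l ++ sclC ν l' :=
  List.map_append

lemma sclC_smC (ν a : ℝ) (l : Cert) : sclC ν (smC a l) = smC a (sclC ν l) := by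
  unfold sclC smC
  rw [List.map_map, List.map_map]
  refine List.map_congr_left fun t _ => ?_
  simp only [Function.comp]
  refine Prod.ext rfl (Prod.ext ?_ ?_)
  · funext T
    simp only
    ring
  · funext T
    simp only
    ring

/-- the side conditions of a certificate -/
def OkC (l : Cert) : Prop :=
  (∀ t ∈ l, t.1.b ≤ 2) ∧
  (∀ t ∈ l, t.1.act → ContinuousOn t.2.1 (Icc 0 1)) ∧
  (∀ t ∈ l, t.1.act → ∀ T ∈ Ioo (0 : ℝ) 1, HasDerivAt t.2.1 (t.2.2 T) T) ∧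
  (∀ t ∈ l, t.1.k0ok = true ∨ t.2.1 0 = 0) ∧
  (∀ t ∈ l, t.1.k1ok = true ∨ t.2.1 1 = 0)

lemma OkC.append {l l' : Cert} (h : OkC l) (h' : OkC l') : OkC (l ++ l') := by
  obtain ⟨a1, a2, a3, a4, a5⟩ := h
  obtain ⟨b1, b2, b3, b4, b5⟩ := h'
  refine ⟨fun t ht => ?_, fun t ht => ?_, fun t ht => ?_, fun t ht => ?_, fun t ht => ?_⟩ <;>
    rcases List.mem_append.1 ht with h | h
  · exact a1 t h
  · exact b1 t h
  · exact a2 t h
  · exact b2 t h
  · exact a3 t h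
  · exact b3 t h
  · exact a4 t h
  · exact b4 t h
  · exact a5 t h
  · exact b5 t h

/-- a change of the weights of the terms by constants -/
lemma OkC.map {l : Cert} (h : OkC l) (c : GTerm → ℝ) :
    OkC (l.map fun t => (t.1, fun T => c t.1 * t.2.1 T, fun T => c t.1 * t.2.2 T)) := by
  obtain ⟨a1, a2, a3, a4, a5⟩ := h
  refine ⟨fun t ht => ?_, fun t ht ha => ?_, fun t ht ha T hT => ?_, fun t ht => ?_,
    fun t ht => ?_⟩
  · obtain ⟨s, hs, rfl⟩ := List.mem_map.1 ht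
    exact a1 s hs
  · obtain ⟨s, hs, rfl⟩ := List.mem_map.1 ht
    exact continuousOn_const.mul (a2 s hs ha)
  · obtain ⟨s, hs, rfl⟩ := List.mem_map.1 ht
    exact (a3 s hs ha T hT).const_mul _
  · obtain ⟨s, hs, rfl⟩ := List.mem_map.1 ht
    rcases a4 s hs with h | h
    · exact Or.inl h
    · right
      simp only [h, mul_zero]
  · obtain ⟨s, hs, rfl⟩ := List.mem_map.1 ht
    rcases a5 s hs with h | h
    · exact Or.inl h
    · right
      simp only [h, mul_zero]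

lemma OkC.smC {l : Cert} (h : OkC l) (a : ℝ) : OkC (smC a l) := h.map fun _ => a

lemma OkC.sclC {l : Cert} (h : OkC l) (ν : ℝ) : OkC (sclC ν l) := h.map fun t => (ν ^ dg t)⁻¹

lemma OkC.certK {D : ℤ} {L : List KT} (hok : okK L = true) : OkC (certK D L) :=
  ⟨hb_certK hok, fun t ht ha => hc_certK t ht ha, fun t ht ha T hT => hd_certK t ht ha T hT,
    h0_certK hok, h1_certK hok⟩

section abs

variable {X : Type*} [MeasurableSpace X] {E : Type*} [NormedAddCommGroup E]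
  [InnerProductSpace ℝ E] [MeasurableSpace E] [BorelSpace E] [SecondCountableTopology E]
  {γ : Measure X} {n : ℕ} {p ν : X → E}

/-- The functional of a certificate is decreasing. -/
theorem Phi_antitone' (h : GC γ n p ν) (e : E) (l : Cert) (hb : ∀ t ∈ l, t.1.b ≤ 2)
    (hc : ∀ t ∈ l, t.1.act → ContinuousOn t.2.1 (Icc 0 1))
    (hd : ∀ t ∈ l, t.1.act → ∀ T ∈ Ioo (0 : ℝ) 1, HasDerivAt t.2.1 (t.2.2 T) T)
    (hneg : ∀ T ∈ Ioo (0 : ℝ) 1, KI γ p ν e T (fun d => Dsum l T (c8 T d)) ≤ 0) :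
    AntitoneOn (UG.Phi γ n p ν e l) (Ico 0 1) := by
  have hD : ∀ T ∈ Ioo (0 : ℝ) 1, HasDerivAt (UG.Phi γ n p ν e l)
      (kp T ^ n * KI γ p ν e T (fun d => Dsum l T (c8 T d))) T := by
    intro T hT
    have hT' : T ∈ Ico (0 : ℝ) 1 := ⟨hT.1.le, hT.2⟩
    have h1 := (DD.list h e hT' l hb fun t ht ha => hd t ht ha T hT).2.2
    refine h1.congr_of_eventuallyEq ?_
    filter_upwards [Ioo_mem_nhds hT.1 hT.2] with T' hT''
    exact (UG.Phi_eq h e ⟨hT''.1.le, hT''.2⟩ l hb).symm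
  refine antitoneOn_of_deriv_nonpos (convex_Ico 0 1) (UG.continuousOn_Phi h e l hb hc) ?_ ?_
  · intro T hT
    rw [interior_Ico] at hT
    exact (hD T hT).differentiableAt.differentiableWithinAt
  · intro T hT
    rw [interior_Ico] at hT
    rw [(hD T hT).deriv]
    have hk := kp_pos (T := T) ⟨hT.1.le, hT.2⟩
    exact mul_nonpos_of_nonneg_of_nonpos (by positivity) (hneg T hT)

lemma c8_sv {d d' : R9} {c : ℝ} (h1 : d' 1 = d 1) (h2 : d' 2 = d 2) (h3 : d' 3 = d 3)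
    (h4 : d' 4 = c * d 4) (h5 : d' 5 = c * d 5) (h6 : d' 6 = c * d 6) (h7 : d' 7 = c * d 7)
    (h8 : d' 8 = c ^ 2 * d 8) (T : ℝ) : c8 T d' = sv c (c8 T d) := by
  have e1 : c8 T d' = ![d' 2, d' 1, d' 3, d' 4, d' 5, d' 6 - T * d' 7, kp T * d' 7, d' 8] := rfl
  have e2 : sv c (c8 T d) = ![d 2, d 1, d 3, c * d 4, c * d 5, c * (d 6 - T * d 7),
    c * (kp T * d 7), c ^ 2 * d 8] := rfl
  have e3 : c * d 6 - T * (c * d 7) = c * (d 6 - T * d 7) := by ring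
  have e4 : kp T * (c * d 7) = c * (kp T * d 7) := by ring
  rw [e1, e2, h1, h2, h3, h4, h5, h6, h7, h8, e3, e4]

lemma dat_e (e : E) (q : X × X) :
    dat p ν e q 0 = ⟪p q.1, p q.2⟫ ∧ dat p ν e q 1 = ⟪p q.1, ν q.2⟫
    ∧ dat p ν e q 2 = ⟪ν q.1, p q.2⟫ ∧ dat p ν e q 3 = ⟪ν q.1, ν q.2⟫
    ∧ dat p ν e q 4 = ⟪ν q.1, e⟫ ∧ dat p ν e q 5 = ⟪ν q.2, e⟫
    ∧ dat p ν e q 6 = ⟪p q.1, e⟫ ∧ dat p ν e q 7 = ⟪p q.2, e⟫ ∧ dat p ν e q 8 = ⟪e, e⟫ :=
  ⟨rfl, rfl, rfl, rfl, rfl, rfl, rfl, rfl, rfl⟩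

/-- The integral of the derivative is the same for a vector and for the scaled certificate. -/
lemma KI_scl {e : E} {c : ℝ} (hc : c ≠ 0) (l : Cert) (T : ℝ) :
    KI γ p ν (c • e) T (fun d => Dsum (sclC c l) T (c8 T d))
      = KI γ p ν e T (fun d => Dsum l T (c8 T d)) := by
  unfold KI
  refine integral_congr_ae (Eventually.of_forall fun q => ?_)
  have d0 : ∀ a : E, ⟪a, c • e⟫ = c * ⟪a, e⟫ := fun a => real_inner_smul_right _ _ _
  have d1 : ⟪c • e, c • e⟫ = c ^ 2 * ⟪e, e⟫ := by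
    rw [real_inner_smul_left, real_inner_smul_right]
    ring
  obtain ⟨a0, a1, a2, a3, a4, a5, a6, a7, a8⟩ := dat_e (p := p) (ν := ν) e q
  obtain ⟨b0, b1, b2, b3, b4, b5, b6, b7, b8⟩ := dat_e (p := p) (ν := ν) (c • e) q
  have e1 : c8 T (dat p ν (c • e) q) = sv c (c8 T (dat p ν e q)) := by
    refine c8_sv ?_ ?_ ?_ ?_ ?_ ?_ ?_ ?_ T
    · rw [a1, b1]
    · rw [a2, b2]
    · rw [a3, b3]
    · rw [a4, b4, d0]
    · rw [a5, b5, d0]
    · rw [a6, b6, d0]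
    · rw [a7, b7, d0]
    · rw [a8, b8, d1]
  simp only
  rw [e1, a0, b0, Dsum_sclC hc]

/-- the sign of an integral from a two sided pointwise inequality with a further function -/
lemma KI_nonpos_of_two (h : GC γ n p ν) (e : E) {T : ℝ} (hT : T ∈ Ico (0 : ℝ) 1) {G : R8 → ℝ}
    (hG : SD p ν e (fun d => G (c8 T d))) {H : R9 → ℝ} (hH : SD p ν e H)
    (hH0 : 0 ≤ KI γ p ν e T H)
    (hpos : ∀ q, G (c8 T (dat p ν e q)) + G (sw8 T (c8 T (dat p ν e q))) + H (dat p ν e q) ≤ 0) :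
    KI γ p ν e T (fun d => G (c8 T d)) ≤ 0 := by
  have := h.finite
  have hT' : |T| < 1 := by rw [abs_of_nonneg hT.1]; exact hT.2
  have hG' : SD p ν e (fun d => G (c8 T (sw9 d))) := by
    unfold SD at hG ⊢
    have h1 : (fun q : X × X => G (c8 T (sw9 (dat p ν e q))))
        = fun q => (fun q : X × X => G (c8 T (dat p ν e q))) q.swap := by
      funext q
      simp only [dat_swap]
    rw [h1]
    exact SG.swap hG
  have h1 := KI_swap (γ := γ) (p := p) (ν := ν) (e := e) T (fun d => G (c8 T d))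
  have h2 := h.KI_add hG hG' hT'
  have h2' := h.KI_add (hG.add hG') hH hT'
  have h3 : KI γ p ν e T (fun d => G (c8 T d) + G (c8 T (sw9 d)) + H d) ≤ 0 := by
    unfold KI
    refine integral_nonpos fun q => ?_
    have h4 := hpos q
    rw [← c8_sw9 hT] at h4
    exact mul_nonpos_of_nonneg_of_nonpos (Real.exp_pos _).le h4
  rw [h1] at h2
  linarith

end abs

section

variable {X : Type*} [MeasurableSpace X] {E : Type*} [NormedAddCommGroup E]
  [InnerProductSpace ℝ E] [MeasurableSpace E] [BorelSpace E] [SecondCountableTopology E]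
  {μ : Measure X} [IsFiniteMeasure μ] {m : ℕ} {p n : X → E} {C S : ℝ}

/-- The law of a Gaussian certificate, from the sign of the integrals of the derivative. -/
theorem law_N0 [CompleteSpace E] [Nonempty X] (hD : EmbD μ m p n C S) (hm : 1 ≤ m)
    (hG : GC (gam m μ) (m + 1) (cp p) (cn n)) {e : E}
    (he : (μ.real univ) • e = ∫ x, n x ∂μ) (hA : 0 < μ.real univ) {l : Cert} (hl : OkC l)
    (hneg : ∀ T ∈ Ioo (0 : ℝ) 1,
      KI (gam m μ) (cp p) (cn n) e T (fun d => Dsum l T (c8 T d)) ≤ 0) :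
    ∃ r : ℝ, (‖e‖ ^ 2) ^ 2 ≤ r ∧ r ≤ ‖e‖ ^ 2 ∧
      S * V1 l (‖e‖ ^ 2) r ≤ μ.real univ * V0 l (‖e‖ ^ 2) r := by
  obtain ⟨hb, hc, hd, h0, h1⟩ := hl
  have hbd : ∀ t : GTerm, ∃ B, ∀ T ∈ Ico (0 : ℝ) 1, |EE μ p n e m T t.f| ≤ B := by
    intro t
    obtain ⟨B, hB⟩ := GTerm.EE_bound (gw_int_ex m) hD.toTwoG hm e t
    exact ⟨B, fun T hT => (hB T hT).2⟩
  obtain ⟨z₀⟩ := ‹Nonempty X›
  have hT := hD.toTwoG
  set A := μ.real univ with hAdef
  set q2 := ∫ x, ⟪n x, e⟫ ^ 2 ∂μ with hq2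
  set z2 := ∫ x, ⟪p x, e⟫ ^ 2 ∂μ with hz2
  have hm1 : (0 : ℝ) < (m : ℝ) + 1 := by positivity
  have hmom := hT.moment e z₀
  rw [← hAdef, ← hz2, ← hq2] at hmom
  have hz0 : 0 ≤ z2 := integral_nonneg fun x => sq_nonneg _
  have hI1 : ⟪∫ x, n x ∂μ, e⟫ = A * ‖e‖ ^ 2 := by
    rw [← he, real_inner_smul_left, real_inner_self_eq_norm_sq]
  have hcs : (A * ‖e‖ ^ 2) ^ 2 ≤ A * q2 := by
    have := inner_integral_sq_le (μ := μ) (n := n) (integrable_unit hT.mn hT.nn) e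
      (integrable_in_sq hT.mn hT.nn e)
    rwa [hI1] at this
  refine ⟨q2 / A, ?_, ?_, ?_⟩
  · rw [le_div_iff₀ hA]
    have h3 : A * ((‖e‖ ^ 2) ^ 2 * A) ≤ A * q2 := by
      calc A * ((‖e‖ ^ 2) ^ 2 * A) = (A * ‖e‖ ^ 2) ^ 2 := by ring
        _ ≤ _ := hcs
    exact le_of_mul_le_mul_left h3 hA
  · rw [div_le_iff₀ hA]
    have := mul_nonneg hm1.le hz0
    linarith
  · have : Nonempty X := ⟨z₀⟩
    have hanti := Phi_antitone' hG e l hb hc hd hneg
    have hlim := UG.Phi_tendsto hD (by omega) hG he hA l hc hbd h1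
    have hz := UG.Phi_zero hD hG he hA l h0
    rw [← hAdef, ← hq2] at hlim hz
    have hle : im m ^ 2 * (S * (A * V1 l (‖e‖ ^ 2) (q2 / A)))
        ≤ UG.Phi (gam m μ) (m + 1) (cp p) (cn n) e l 0 := by
      refine le_of_tendsto hlim ?_
      have hev : ∀ᶠ T in 𝓝[<] (1 : ℝ), T ∈ Ioo (0 : ℝ) 1 := Ioo_mem_nhdsLT one_pos
      filter_upwards [hev] with T hT
      exact hanti ⟨le_rfl, one_pos⟩ ⟨hT.1.le, hT.2⟩ hT.1.le
    rw [hz] at hle
    have hi : 0 < im m ^ 2 := pow_pos (im_pos m) 2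
    have h2 := le_of_mul_le_mul_left hle hi
    have h3 : A * (S * V1 l (‖e‖ ^ 2) (q2 / A)) ≤ A * (A * V0 l (‖e‖ ^ 2) (q2 / A)) := by
      nlinarith
    exact le_of_mul_le_mul_left h3 hA

/-- The law of a Gaussian certificate for the normalized mean normal. -/
theorem law_N1 [CompleteSpace E] [Nonempty X] (hD : EmbD μ m p n C S) (hm : 1 ≤ m)
    (hG : GC (gam m μ) (m + 1) (cp p) (cn n)) {e : E}
    (he : (μ.real univ) • e = ∫ x, n x ∂μ) (hA : 0 < μ.real univ) (he0 : e ≠ 0) {l : Cert}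
    (hl : OkC l)
    (hneg : ∀ T ∈ Ioo (0 : ℝ) 1,
      KI (gam m μ) (cp p) (cn n) (‖e‖⁻¹ • e) T (fun d => Dsum l T (c8 T d)) ≤ 0) :
    ∃ q : ℝ, ‖e‖ ^ 2 ≤ q ∧ q ≤ 1 ∧
      S * V1 (sclC ‖e‖ l) (‖e‖ ^ 2) (‖e‖ ^ 2 * q)
        ≤ μ.real univ * V0 (sclC ‖e‖ l) (‖e‖ ^ 2) (‖e‖ ^ 2 * q) := by
  have hν : 0 < ‖e‖ := norm_pos_iff.2 he0
  have hν2 : 0 < ‖e‖ ^ 2 := by positivity
  have h2 : ‖e‖ • (‖e‖⁻¹ • e : E) = e := by
    rw [smul_smul, mul_inv_cancel₀ hν.ne', one_smul]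
  obtain ⟨r, hr1, hr2, hr3⟩ := law_N0 hD hm hG he hA (hl.sclC ‖e‖) (fun T hT => by
    have h3 := KI_scl (γ := gam m μ) (p := cp p) (ν := cn n) (e := (‖e‖⁻¹ • e : E)) hν.ne' l T
    rw [h2] at h3
    rw [h3]
    exact hneg T hT)
  refine ⟨r / ‖e‖ ^ 2, ?_, ?_, ?_⟩
  · rw [le_div_iff₀ hν2]
    calc ‖e‖ ^ 2 * ‖e‖ ^ 2 = (‖e‖ ^ 2) ^ 2 := by ring
      _ ≤ r := hr1
  · rw [div_le_one hν2]
    exact hr2
  · have h5 : r = ‖e‖ ^ 2 * (r / ‖e‖ ^ 2) := by field_simp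
    rw [← h5]
    exact hr3

/-- **The law of a combination of two certificates for the normalized mean normal**, every
dimension. -/
theorem law_N [CompleteSpace E] [Nonempty X] (hD : EmbD μ m p n C S) (hm : 1 ≤ m)
    (hG : GC (gam m μ) (m + 1) (cp p) (cn n)) {e : E}
    (he : (μ.real univ) • e = ∫ x, n x ∂μ) (hA : 0 < μ.real univ) (he0 : e ≠ 0)
    {D0 D1 : ℤ} {L0 L1 : List KT} (ok0 : okK L0 = true) (ok1 : okK L1 = true)
    (z0 : l0 L0 = true) (z1 : l0 L1 = true) (a b : ℝ)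
    (hneg : ∀ T ∈ Ioo (0 : ℝ) 1, KI (gam m μ) (cp p) (cn n) (‖e‖⁻¹ • e) T
      (fun d => Dsum (smC a (certK D0 L0) ++ smC b (certK D1 L1)) T (c8 T d)) ≤ 0) :
    ∃ q : ℝ, ‖e‖ ^ 2 ≤ q ∧ q ≤ 1 ∧
      S * (a * H1 D0 L0 ‖e‖ q + b * H1 D1 L1 ‖e‖ q)
        ≤ μ.real univ * (a * H0 D0 L0 ‖e‖ q + b * H0 D1 L1 ‖e‖ q) := by
  have hν : ‖e‖ ≠ 0 := norm_ne_zero_iff.2 he0
  obtain ⟨q, hq1, hq2, hq3⟩ := law_N1 hD hm hG he hA he0
    (((OkC.certK (D := D0) ok0).smC a).append ((OkC.certK (D := D1) ok1).smC b)) hneg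
  refine ⟨q, hq1, hq2, ?_⟩
  rwa [sclC_append, sclC_smC, sclC_smC, V0_append, V1_append, V0_smC, V1_smC, V0_smC, V1_smC,
    V0_sclC ok0 z0 hν, V1_sclC ok0 z0 hν, V0_sclC ok1 z1 hν, V1_sclC ok1 z1 hν] at hq3

end

end Vale.Agent.P224.R2.H135
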