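import Vale.Agent.P224.R2.H135.Corner
import Vale.Agent.P224.PU.KSub

/-!
Positivity of quadratic forms in test functions and one further function, expressed through the
null rows.
-/

namespace Vale.Agent.P224.R2.H135

open MeasureTheory Set Filter Function
open Vale.Agent.P224.UE Vale.Agent.P224.UG Vale.Agent.P224.PU
open scoped Topology RealInnerProductSpace

set_option linter.unusedSectionVars false

section

variable {Y : Type*} [MeasurableSpace Y] {E : Type*} [NormedAddCommGroup E]
  [InnerProductSpace ℝ E] [MeasurableSpace E] [BorelSpace E] [SecondCountableTopology E]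
  {γ : Measure Y} {n : ℕ} {p ν : Y → E} {T : ℝ}

lemma SG.sum {f : ℕ → Y × Y → ℝ} (s : ℕ) (hf : ∀ i < s, SG p (f i)) :
    SG p (fun q => ∑ i ∈ Finset.range s, f i q) := by
  induction s with
  | zero => simpa using SG.const (p := p) 0
  | succ s ih =>
    have h1 := (ih fun i hi => hf i (by omega)).add (hf s (by omega))
    simpa only [Finset.sum_range_succ] using h1

lemma sum_split (R : ℕ) (g : ℕ → ℕ → ℝ) :
    ∑ i ∈ Finset.range (R + 1), ∑ j ∈ Finset.range (R + 1), g i j
      = ∑ i ∈ Finset.range R, ∑ j ∈ Finset.range R, g i j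
        + ∑ i ∈ Finset.range R, (g i R + g R i) + g R R := by
  rw [Finset.sum_range_succ]
  simp only [Finset.sum_range_succ, Finset.sum_add_distrib]
  ring

/-- Positivity of a quadratic form in the functions `H 0, …, H (R - 1)` and `H R`, with the products
with `H R` replaced through null rows. -/
theorem quad_nonneg (h : GC γ n p ν) (hT : |T| < 1) (R : ℕ) {H : ℕ → Y × Y → ℝ}
    (hH : ∀ i < R + 1, SG p (H i)) {M : ℕ → ℕ → Y × Y → ℝ} {w : Y × Y → ℝ}
    (h1 : ∀ i < R, ∀ j < R, ∀ q, M i j q = H i q * H j q)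
    (h2 : ∀ i < R, Nl γ p T (fun q => M i R q - H i q * H R q))
    (h2' : ∀ i < R, ∀ q, M R i q = M i R q)
    (h3 : Nl γ p T (fun q => M R R q - H R q ^ 2 - w q)) (hw : ∀ q, 0 ≤ w q) (hws : SG p w)
    {Z : ℕ → ℕ → ℝ} (hs : ∀ i j, Z i j = Z j i)
    (hZ : ∀ x : ℕ → ℝ, 0 ≤ ∑ i ∈ Finset.range (R + 1), ∑ j ∈ Finset.range (R + 1),
      Z i j * (x i * x j)) :
    0 ≤ J γ p T (fun q => ∑ i ∈ Finset.range (R + 1), ∑ j ∈ Finset.range (R + 1),
      Z i j * M i j q) := by
  have hRR : 0 ≤ Z R R := by
    have h5 := hZ fun i => if i = R then 1 else 0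
    rw [sum_split] at h5
    have e1 : ∑ i ∈ Finset.range R, ∑ j ∈ Finset.range R,
        Z i j * ((if i = R then (1 : ℝ) else 0) * (if j = R then 1 else 0)) = 0 := by
      refine Finset.sum_eq_zero fun i hi => Finset.sum_eq_zero fun j _ => ?_
      have := Finset.mem_range.1 hi
      rw [if_neg (by omega)]
      ring
    have e2 : ∑ i ∈ Finset.range R, (Z i R * ((if i = R then (1 : ℝ) else 0)
        * (if R = R then 1 else 0)) + Z R i * ((if R = R then (1 : ℝ) else 0)
        * (if i = R then 1 else 0))) = 0 := by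
      refine Finset.sum_eq_zero fun i hi => ?_
      have := Finset.mem_range.1 hi
      rw [if_neg (by omega)]
      ring
    rw [e1, e2, if_pos rfl] at h5
    linarith
  set F0 : Y × Y → ℝ := fun q => ∑ i ∈ Finset.range (R + 1), ∑ j ∈ Finset.range (R + 1),
    Z i j * (H i q * H j q) with hF0
  have s0 : SG p F0 := by
    rw [hF0]
    exact SG.sum _ fun i hi => SG.sum _ fun j hj => ((hH i hi).mul (hH j hj)).const_mul _
  have s1 : SG p (fun q => F0 q + Z R R * w q) := s0.add (hws.const_mul _)
  have n1 := Nl.sum h hT (f := fun i q => (2 * Z i R) * (M i R q - H i q * H R q)) R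
    fun i hi => (h2 i hi).smul _
  have n2 := n1.add h hT (h3.smul (Z R R))
  have e : ∀ q, ∑ i ∈ Finset.range (R + 1), ∑ j ∈ Finset.range (R + 1), Z i j * M i j q
      = (F0 q + Z R R * w q) + (∑ i ∈ Finset.range R, (2 * Z i R) * (M i R q - H i q * H R q)
        + Z R R * (M R R q - H R q ^ 2 - w q)) := by
    intro q
    rw [hF0]
    simp only
    rw [sum_split R fun i j => Z i j * M i j q, sum_split R fun i j => Z i j * (H i q * H j q)]
    have e1 : ∑ i ∈ Finset.range R, ∑ j ∈ Finset.range R, Z i j * M i j q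
        = ∑ i ∈ Finset.range R, ∑ j ∈ Finset.range R, Z i j * (H i q * H j q) := by
      refine Finset.sum_congr rfl fun i hi => Finset.sum_congr rfl fun j hj => ?_
      rw [h1 i (Finset.mem_range.1 hi) j (Finset.mem_range.1 hj)]
    have e2 : ∑ i ∈ Finset.range R, (Z i R * M i R q + Z R i * M R i q)
        = ∑ i ∈ Finset.range R, (Z i R * (H i q * H R q) + Z R i * (H R q * H i q))
          + ∑ i ∈ Finset.range R, (2 * Z i R) * (M i R q - H i q * H R q) := by
      rw [← Finset.sum_add_distrib]
      refine Finset.sum_congr rfl fun i hi => ?_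
      rw [h2' i (Finset.mem_range.1 hi), hs R i]
      ring
    rw [e1, e2]
    ring
  rw [J_congr e, J_add h hT s1 n2.1, n2.2, add_zero]
  refine J_nonneg fun q => add_nonneg ?_ (mul_nonneg hRR (hw q))
  exact hZ fun i => H i q

end

end Vale.Agent.P224.R2.H135
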