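import Vale.Agent.P224.R2.H577.RelL
import Vale.Agent.P224.R2.H869.TlBlk2
import Vale.Agent.P224.R2.H869.PRow

/-!
The relative tails of a block of dimensions from a list of certificates; no analytic hypothesis is
left.
-/

namespace Vale.Agent.P224.R2.H135

open MeasureTheory Set Filter Function Real Module Matrix Vale.Agent.P224
  Vale.Agent.P224.R2.H820 Vale.Agent.P224.R2.H582 Vale.Agent.P224.R2.H627
  Vale.Agent.P224.R2.H728 Vale.Agent.P224.R2.H484 Vale.Agent.P224.R2.H925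
open Vale.Agent.P224.SM2 hiding ker
open Vale.Agent.P224.R2.H176 (NearData NearOut)
open Vale.Agent.P224.R2.H869 (BlkS CertM RowP nrmData_of_min pOK rowP_of)
open Vale.Agent.P224.R2.H577 (relU_nil relU_cons relU_mono)
open Vale.Agent.P224.R2.H662 (dop)
open scoped Topology RealInnerProductSpace ContDiff Manifold

set_option linter.unusedSectionVars false

/-- the numbers of a certificate: the row of `φ²` is available and the absolute tail fits -/
def certOK {B : BlkS} (ab : ℚ) (C : CertM B) : Bool :=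
  pOK C.Mu.lam C.Mu.eta C.Mu.c1 && decide (ab ≤ C.ab)

/-- every pair of the list `rels` is covered by a certificate -/
def coverOK {B : BlkS} (ab : ℚ) (certs : List (CertM B)) (rels : List (ℚ × ℚ)) : Bool :=
  rels.all fun k => certs.any fun C =>
    certOK ab C && decide (k.1 ≤ C.kap) && decide (C.rel ≤ k.2)

section

variable {V W M : Type*} [NormedAddCommGroup V] [InnerProductSpace ℝ V] [FiniteDimensional ℝ V]
  [NormedAddCommGroup W] [InnerProductSpace ℝ W] [FiniteDimensional ℝ W]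
  [TopologicalSpace M] [ChartedSpace V M]
  [MeasurableSpace V] [BorelSpace V] [MeasurableSpace M] [BorelSpace M]
  [MeasurableSpace W] [BorelSpace W] [IsManifold 𝓘(ℝ, V) ∞ M]
  [CompactSpace M] [T2Space M]

/-- **the relative tail of a certificate**, general absolute tail -/
theorem relU_cert' [Nonempty M] {B : BlkS} (C : CertM B) {ab : ℚ} (hC : certOK ab C = true)
    (h36 : 36 ≤ finrank ℝ V) (hW : finrank ℝ W = finrank ℝ V + 2)
    {F : M → W} (hF : SphImm V F) (hmin : ∀ x n, IsUnitNormal V F x n → meanCurv V F x n = 0)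
    (hm1 : B.m1 ≤ finrank ℝ V) (hm2 : B.m2 = 0 ∨ finrank ℝ V ≤ B.m2) {ν : ℝ}
    (habs : ∀ N : M → W, ContMDiff 𝓘(ℝ, V) 𝓘(ℝ, W) ∞ N → (∀ x, IsUnitNormal V F x (N x)) →
      AbsTail (volM V F) (finrank ℝ V) F N (fun T => (1 - T ^ 2) * lamX B.c1 B.c2 T) ab) :
    RelU B.c1 B.c2 V W M [(C.kap, C.rel)] ν (finrank ℝ V) F := by
  have hfin : IsFiniteMeasure (volM V F) := isFiniteMeasure_volM hF
  have hnt : Nontrivial W := by
    apply Module.nontrivial_of_finrank_pos (R := ℝ)
    omega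
  simp only [certOK, Bool.and_eq_true, decide_eq_true_eq] at hC
  intro N b j hd k hk hj
  rw [List.mem_singleton] at hk
  subst hk
  have D := nrmData_of_min (by omega) hW hF hmin hd.smooth hd.unit
  refine C.relTail D b hd.lsq hm1 hm2 (rowP_of hC.1 h36 D (dop b j)) (fun T hT => ?_)
    (fun T hT => ?_)
    (absTail_mono (habs N hd.smooth hd.unit) ((Rat.cast_le (K := ℝ)).2 hC.2)) hj
  · rw [lamX_mul hT]
    exact le_max_left _ _
  · rw [lamX_mul hT]
    exact le_max_right _ _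

/-- **a list of relative tails from certificates**, general absolute tail -/
theorem relU_cover' [Nonempty M] {B : BlkS} {certs : List (CertM B)} {ab : ℚ}
    (h36 : 36 ≤ finrank ℝ V) (hW : finrank ℝ W = finrank ℝ V + 2)
    {F : M → W} (hF : SphImm V F) (hmin : ∀ x n, IsUnitNormal V F x n → meanCurv V F x n = 0)
    (hm1 : B.m1 ≤ finrank ℝ V) (hm2 : B.m2 = 0 ∨ finrank ℝ V ≤ B.m2) {ν : ℝ}
    (habs : ∀ N : M → W, ContMDiff 𝓘(ℝ, V) 𝓘(ℝ, W) ∞ N → (∀ x, IsUnitNormal V F x (N x)) →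
      AbsTail (volM V F) (finrank ℝ V) F N (fun T => (1 - T ^ 2) * lamX B.c1 B.c2 T) ab) :
    ∀ {rels : List (ℚ × ℚ)}, coverOK ab certs rels = true →
      RelU B.c1 B.c2 V W M rels ν (finrank ℝ V) F
  | [], _ => relU_nil
  | k :: rels, h => by
    unfold coverOK at h
    rw [List.all_cons, Bool.and_eq_true] at h
    obtain ⟨h1, h2⟩ := h
    rw [List.any_eq_true] at h1
    obtain ⟨C, -, h3⟩ := h1
    simp only [Bool.and_eq_true, decide_eq_true_eq] at h3
    exact relU_cons (relU_mono hF (relU_cert' C h3.1.1 h36 hW hF hmin hm1 hm2 habs) h3.1.2 h3.2)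
      (relU_cover' h36 hW hF hmin hm1 hm2 habs h2)

/-- **a list of relative tails from certificates** -/
theorem relU_cover [Nonempty M] {B : BlkS} {certs : List (CertM B)} {ab : ℚ}
    {rels : List (ℚ × ℚ)} (hC : coverOK ab certs rels = true)
    {n1 : ℕ} {x : ℚ} (hab : absOKg 200 wR n1 x (lcG kR B.c1 B.c2) ab = true)
    (h17 : 17 ≤ n1) (hn1 : n1 ≤ finrank ℝ V) (hx : (x : ℝ) ≤ 1 / finrank ℝ V)
    (hc2 : 0 ≤ B.c2) (h36 : 36 ≤ finrank ℝ V) (hW : finrank ℝ W = finrank ℝ V + 2)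
    {F : M → W} (hF : SphImm V F) (hmin : ∀ x n, IsUnitNormal V F x n → meanCurv V F x n = 0)
    (hm1 : B.m1 ≤ finrank ℝ V) (hm2 : B.m2 = 0 ∨ finrank ℝ V ≤ B.m2) {ν : ℝ} :
    RelU B.c1 B.c2 V W M rels ν (finrank ℝ V) F := by
  have hfin : IsFiniteMeasure (volM V F) := isFiniteMeasure_volM hF
  exact relU_cover' h36 hW hF hmin hm1 hm2
    (fun N hNs hN => abs_X hW hF hmin hNs hN rfl hab h17 hn1 hx hc2) hC

/-- the condition on `x` from a bound of the dimension -/
lemma x_le {m m2 : ℕ} {x : ℚ} (h0 : 0 < m) (h : m ≤ m2) (hx0 : 0 ≤ x) (hx : x * m2 ≤ 1) :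
    (x : ℝ) ≤ 1 / m := by
  have hm0 : (0 : ℝ) < m := by exact_mod_cast h0
  rw [le_div_iff₀ hm0]
  have h3 : (m : ℝ) ≤ m2 := by exact_mod_cast h
  have h4 : (x : ℝ) * m2 ≤ 1 := by exact_mod_cast hx
  have h5 : (0 : ℝ) ≤ x := by exact_mod_cast hx0
  exact (mul_le_mul_of_nonneg_left h3 h5).trans h4

end

end Vale.Agent.P224.R2.H135
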