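import Vale.Agent.P224.R2.H135.Eul

/-!
Null rows on pairs of points of a Gaussian cone: the even variable `⟪X, Y⟫ - T (|X|² + |Y|²) / 2` and
the odd variable `|X|² - |Y|²`.
-/

namespace Vale.Agent.P224.R2.H135

open MeasureTheory Set Filter Function
open Vale.Agent.P224.UE Vale.Agent.P224.UG
open scoped Topology RealInnerProductSpace

set_option linter.unusedSectionVars false

section

variable {Y : Type*} [MeasurableSpace Y] {E : Type*} [NormedAddCommGroup E]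
  [InnerProductSpace ℝ E] [MeasurableSpace E] [BorelSpace E] [SecondCountableTopology E]
  {γ : Measure Y} {n : ℕ} {p ν : Y → E} {T : ℝ}

lemma sw9_1 (d : R9) : sw9 d 1 = d 2 := rfl
lemma sw9_2 (d : R9) : sw9 d 2 = d 1 := rfl
lemma sw9_3 (d : R9) : sw9 d 3 = d 3 := rfl
lemma sw9_4 (d : R9) : sw9 d 4 = d 5 := rfl
lemma sw9_5 (d : R9) : sw9 d 5 = d 4 := rfl
lemma sw9_6 (d : R9) : sw9 d 6 = d 7 := rfl
lemma sw9_7 (d : R9) : sw9 d 7 = d 6 := rfl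

/-- the even variable -/
noncomputable def Fh (p : Y → E) (T : ℝ) (q : Y × Y) : ℝ :=
  ⟪p q.1, p q.2⟫ - T * (‖p q.1‖ ^ 2 + ‖p q.2‖ ^ 2) / 2

/-- the odd variable -/
noncomputable def Gh (p : Y → E) (q : Y × Y) : ℝ := ‖p q.1‖ ^ 2 - ‖p q.2‖ ^ 2

lemma Fh_swap (q : Y × Y) : Fh p T q.swap = Fh p T q := by
  unfold Fh
  simp only [Prod.fst_swap, Prod.snd_swap]
  rw [real_inner_comm (p q.1)]
  ring

lemma Gh_swap (q : Y × Y) : Gh p q.swap = -Gh p q := by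
  unfold Gh
  simp only [Prod.fst_swap, Prod.snd_swap]
  ring

section sg

variable (h : GC γ n p ν)

include h

lemma sg_a : SG p (fun q => ‖p q.1‖ ^ 2) := (SG.norm1 h.mp).pow 2

lemma sg_b : SG p (fun q => ‖p q.2‖ ^ 2) := (SG.norm2 h.mp).pow 2

lemma sg_s : SG p (fun q => ⟪p q.1, p q.2⟫) := h.sg_dat 0 0

lemma sg_Fh : SG p (Fh p T) := by
  have h1 := (sg_s h).sub ((((sg_a h).add (sg_b h)).const_mul T).mul_const (1 / 2))
  have : Fh p T = fun q => ⟪p q.1, p q.2⟫ - T * (‖p q.1‖ ^ 2 + ‖p q.2‖ ^ 2) * (1 / 2) := by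
    funext q
    unfold Fh
    ring
  rw [this]
  exact h1

lemma sg_Gh : SG p (Gh p) := (sg_a h).sub (sg_b h)

/-- the field row in the direction of the second position, class A -/
lemma rowA (e : E) (i j l k : ℕ) (hT : |T| < 1) :
    Nl γ p T (fun q => T * (‖p q.2‖ ^ 2 * mG i j l k (dat p ν e q))
      + (dat p ν e q 7 * mX i j l k (dat p ν e q)
      - dat p ν e q 2 * (T * (dat p ν e q 2 * mG i j l k (dat p ν e q))
        + dat p ν e q 3 * mQ i j l k (dat p ν e q) + dat p ν e q 4 * mX i j l k (dat p ν e q)))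
      - dat p ν e q 0 * mG i j l k (dat p ν e q)) := by
  have g := h.sd_mG e i j l k
  have gq := h.sd_mQ e i j l k
  have gx := h.sd_mX e i j l k
  exact ⟨((((h.sg_B.mul g).const_mul T).add (((h.sg_dat e 7).mul gx).sub ((h.sg_dat e 2).mul
      (((((h.sg_dat e 2).mul g).const_mul T).add ((h.sg_dat e 3).mul gq)).add
        ((h.sg_dat e 4).mul gx))))).sub ((h.sg_dat e 0).mul g)), h.rowB1 e i j l k hT⟩

/-- the field row in the direction of the second position, class B -/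
lemma rowB (e : E) (i j l k : ℕ) (hT : |T| < 1) :
    Nl γ p T (fun q => T * (‖p q.2‖ ^ 2 * (dat p ν e q 3
        * mG i j l k (dat p ν e q)))
      + (dat p ν e q 3 * (dat p ν e q 7 * mX i j l k (dat p ν e q))
      - dat p ν e q 2 * (mQ i j l k (dat p ν e q) + dat p ν e q 5 * mX i j l k (dat p ν e q)
        - dat p ν e q 1 * mG i j l k (dat p ν e q)))
      - dat p ν e q 0 * (dat p ν e q 3 * mG i j l k (dat p ν e q))) := by
  have g := h.sd_mG e i j l k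
  have gq := h.sd_mQ e i j l k
  have gx := h.sd_mX e i j l k
  exact ⟨(((h.sg_B.mul ((h.sg_dat e 3).mul g)).const_mul T).add
      (((h.sg_dat e 3).mul ((h.sg_dat e 7).mul gx)).sub ((h.sg_dat e 2).mul
      ((SG.add gq ((h.sg_dat e 5).mul gx)).sub ((h.sg_dat e 1).mul g))))).sub
      ((h.sg_dat e 0).mul ((h.sg_dat e 3).mul g)), h.rowB2 e i j l k hT⟩

/-- the field row in the direction of the second position for the product of the positions -/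
lemma rowS (e : E) (hT : |T| < 1) :
    Nl γ p T (fun q => T * (‖p q.2‖ ^ 2 * dat p ν e q 0) + ‖p q.2‖ ^ 2
      - dat p ν e q 2 * (T * (dat p ν e q 2 * dat p ν e q 0) + dat p ν e q 2)
      - dat p ν e q 0 ^ 2) := by
  have hsg : SG p (fun q => T * (‖p q.2‖ ^ 2 * dat p ν e q 0) + ‖p q.2‖ ^ 2
      - dat p ν e q 2 * (T * (dat p ν e q 2 * dat p ν e q 0) + dat p ν e q 2)
      - dat p ν e q 0 ^ 2) :=
    (((h.sg_B.mul (h.sg_dat e 0)).const_mul T).add h.sg_B).sub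
      ((h.sg_dat e 2).mul ((((h.sg_dat e 2).mul (h.sg_dat e 0)).const_mul T).add (h.sg_dat e 2)))
      |>.sub ((h.sg_dat e 0).pow 2)
  refine ⟨hsg, ?_⟩
  refine h.zero_left hsg hT fun z => ?_
  have h1 := h.r1 (T • p z) 0 (p z) (p z) 0 1
  refine Eq.trans ?_ h1
  refine integral_congr_ae (Eventually.of_forall fun x => ?_)
  have d0 : dat p ν e (x, z) 0 = ⟪p x, p z⟫ := rfl
  have d2 : dat p ν e (x, z) 2 = ⟪ν x, p z⟫ := rfl
  have hB : ⟪p z, p z⟫ = ‖p z‖ ^ 2 := real_inner_self_eq_norm_sq _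
  simp only [d0, d2, tD, UG.tf, real_inner_smul_right, hB, inner_zero_right]
  push_cast
  ring

end sg

end

section cone

variable {X : Type*} [MeasurableSpace X] {E : Type*} [NormedAddCommGroup E]
  [InnerProductSpace ℝ E] [MeasurableSpace E] [BorelSpace E] [SecondCountableTopology E]
  {μ : Measure X} [IsFiniteMeasure μ] {m : ℕ} {p n : X → E} {T : ℝ}

/-- monomials of the pair data -/
def mM (e1 e2 e3 e4 e5 e6 e7 : ℕ) (d : R9) : ℝ :=
  d 1 ^ e1 * d 2 ^ e2 * d 3 ^ e3 * d 4 ^ e4 * d 5 ^ e5 * d 6 ^ e6 * d 7 ^ e7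

lemma dat_v (e : E) (q : (X × ℝ) × (X × ℝ)) :
    dat (cp p) (cn n) e q 1 = q.1.2 * ⟪p q.1.1, n q.2.1⟫
    ∧ dat (cp p) (cn n) e q 2 = q.2.2 * ⟪n q.1.1, p q.2.1⟫
    ∧ dat (cp p) (cn n) e q 3 = ⟪n q.1.1, n q.2.1⟫
    ∧ dat (cp p) (cn n) e q 4 = ⟪n q.1.1, e⟫
    ∧ dat (cp p) (cn n) e q 5 = ⟪n q.2.1, e⟫
    ∧ dat (cp p) (cn n) e q 6 = q.1.2 * ⟪p q.1.1, e⟫
    ∧ dat (cp p) (cn n) e q 7 = q.2.2 * ⟪p q.2.1, e⟫ := by
  refine ⟨?_, ?_, rfl, rfl, rfl, ?_, ?_⟩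
  · change ⟪q.1.2 • p q.1.1, n q.2.1⟫ = _
    rw [real_inner_smul_left]
  · change ⟪n q.1.1, q.2.2 • p q.2.1⟫ = _
    rw [real_inner_smul_right]
  · change ⟪q.1.2 • p q.1.1, e⟫ = _
    rw [real_inner_smul_left]
  · change ⟪q.2.2 • p q.2.1, e⟫ = _
    rw [real_inner_smul_left]

lemma mM_r1 (e : E) (e1 e2 e3 e4 e5 e6 e7 : ℕ) (x : X) (r : ℝ) (z : X × ℝ) :
    mM e1 e2 e3 e4 e5 e6 e7 (dat (cp p) (cn n) e ((x, r), z))
      = r ^ (e1 + e6) * mM e1 e2 e3 e4 e5 e6 e7 (dat (cp p) (cn n) e ((x, 1), z)) := by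
  obtain ⟨h1, h2, h3, h4, h5, h6, h7⟩ := dat_v (p := p) (n := n) e ((x, r), z)
  obtain ⟨g1, g2, g3, g4, g5, g6, g7⟩ := dat_v (p := p) (n := n) e ((x, 1), z)
  unfold mM
  rw [h1, h2, h3, h4, h5, h6, h7, g1, g2, g3, g4, g5, g6, g7]
  simp only [mul_pow, one_mul, pow_add]
  ring

lemma mM_r2 (e : E) (e1 e2 e3 e4 e5 e6 e7 : ℕ) (x : X) (r : ℝ) (z : X × ℝ) :
    mM e1 e2 e3 e4 e5 e6 e7 (dat (cp p) (cn n) e (z, (x, r)))
      = r ^ (e2 + e7) * mM e1 e2 e3 e4 e5 e6 e7 (dat (cp p) (cn n) e (z, (x, 1))) := by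
  obtain ⟨h1, h2, h3, h4, h5, h6, h7⟩ := dat_v (p := p) (n := n) e (z, (x, r))
  obtain ⟨g1, g2, g3, g4, g5, g6, g7⟩ := dat_v (p := p) (n := n) e (z, (x, 1))
  unfold mM
  rw [h1, h2, h3, h4, h5, h6, h7, g1, g2, g3, g4, g5, g6, g7]
  simp only [mul_pow, one_mul, pow_add]
  ring

variable (hG : GC (gam m μ) (m + 1) (cp p) (cn n)) (hp : ∀ x, ‖p x‖ = 1) (hT : |T| < 1)

include hG

lemma sg_mM (e : E) (e1 e2 e3 e4 e5 e6 e7 : ℕ) :
    SG (cp p) (fun q => mM e1 e2 e3 e4 e5 e6 e7 (dat (cp p) (cn n) e q)) :=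
  (((((((hG.sg_dat e 1).pow e1).mul ((hG.sg_dat e 2).pow e2)).mul ((hG.sg_dat e 3).pow e3)).mul
    ((hG.sg_dat e 4).pow e4)).mul ((hG.sg_dat e 5).pow e5)).mul ((hG.sg_dat e 6).pow e6)).mul
    ((hG.sg_dat e 7).pow e7)

include hp hT

lemma mM1 (e : E) (e1 e2 e3 e4 e5 e6 e7 : ℕ) :
    Nl (gam m μ) (cp p) T (fun q => (((m + 1 : ℕ) : ℝ) + T * ⟪cp p q.1, cp p q.2⟫
      + ((e1 + e6 : ℕ) : ℝ) - ‖cp p q.1‖ ^ 2) * mM e1 e2 e3 e4 e5 e6 e7 (dat (cp p) (cn n) e q)) :=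
  eul1 hG hp hT (sg_mM hG e e1 e2 e3 e4 e5 e6 e7) (e1 + e6) fun x r z =>
    mM_r1 e e1 e2 e3 e4 e5 e6 e7 x r z

lemma mM2 (e : E) (e1 e2 e3 e4 e5 e6 e7 : ℕ) :
    Nl (gam m μ) (cp p) T (fun q => (((m + 1 : ℕ) : ℝ) + T * ⟪cp p q.1, cp p q.2⟫
      + ((e2 + e7 : ℕ) : ℝ) - ‖cp p q.2‖ ^ 2) * mM e1 e2 e3 e4 e5 e6 e7 (dat (cp p) (cn n) e q)) :=
  eul2 hG hp hT (sg_mM hG e e1 e2 e3 e4 e5 e6 e7) (e2 + e7) fun z x r =>
    mM_r2 e e1 e2 e3 e4 e5 e6 e7 x r z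

/-- the radial row of the odd variable -/
lemma mMG (e : E) (e1 e2 e3 e4 e5 e6 e7 : ℕ) :
    Nl (gam m μ) (cp p) T (fun q => Gh (cp p) q * mM e1 e2 e3 e4 e5 e6 e7 (dat (cp p) (cn n) e q)
      - (((e1 + e6 : ℕ) : ℝ) - ((e2 + e7 : ℕ) : ℝ))
        * mM e1 e2 e3 e4 e5 e6 e7 (dat (cp p) (cn n) e q)) := by
  have h1 := mM1 hG hp hT e e1 e2 e3 e4 e5 e6 e7
  have h2 := mM2 hG hp hT e e1 e2 e3 e4 e5 e6 e7
  refine (h2.sub hG hT h1).congr fun q => ?_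
  unfold Gh
  ring

/-- class A row of the even variable -/
lemma pairA (e : E) (i j l k : ℕ) :
    Nl (gam m μ) (cp p) T (fun q => Fh (cp p) T q * mG i j l k (dat (cp p) (cn n) e q)
      - (dat (cp p) (cn n) e q 7 * mX i j l k (dat (cp p) (cn n) e q)
      - dat (cp p) (cn n) e q 2 * (T * (dat (cp p) (cn n) e q 2
          * mG i j l k (dat (cp p) (cn n) e q))
        + dat (cp p) (cn n) e q 3 * mQ i j l k (dat (cp p) (cn n) e q)
        + dat (cp p) (cn n) e q 4 * mX i j l k (dat (cp p) (cn n) e q)))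
      + T / 2 * (((i + j : ℕ) : ℝ) - (l : ℝ)) * mG i j l k (dat (cp p) (cn n) e q)) := by
  have h0 := rowA (T := T) hG e i j l k hT
  have h1 := mM1 hG hp hT e i 0 0 0 k j l
  have h2 := mM2 hG hp hT e i 0 0 0 k j l
  refine (((h1.sub hG hT h2).smul (T / 2)).sub hG hT h0).congr fun q => ?_
  have d0 : dat (cp p) (cn n) e q 0 = ⟪cp p q.1, cp p q.2⟫ := rfl
  unfold Fh mM mG
  rw [d0]
  push_cast
  ring

/-- class B row of the even variable -/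
lemma pairB (e : E) (i j l k : ℕ) :
    Nl (gam m μ) (cp p) T (fun q => Fh (cp p) T q * (dat (cp p) (cn n) e q 3
        * mG i j l k (dat (cp p) (cn n) e q))
      - (dat (cp p) (cn n) e q 3 * (dat (cp p) (cn n) e q 7 * mX i j l k (dat (cp p) (cn n) e q))
      - dat (cp p) (cn n) e q 2 * (mQ i j l k (dat (cp p) (cn n) e q)
        + dat (cp p) (cn n) e q 5 * mX i j l k (dat (cp p) (cn n) e q)
        - dat (cp p) (cn n) e q 1 * mG i j l k (dat (cp p) (cn n) e q)))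
      + T / 2 * (((i + j : ℕ) : ℝ) - (l : ℝ)) * (dat (cp p) (cn n) e q 3
        * mG i j l k (dat (cp p) (cn n) e q))) := by
  have h0 := rowB (T := T) hG e i j l k hT
  have h1 := mM1 hG hp hT e i 0 1 0 k j l
  have h2 := mM2 hG hp hT e i 0 1 0 k j l
  refine (((h1.sub hG hT h2).smul (T / 2)).sub hG hT h0).congr fun q => ?_
  have d0 : dat (cp p) (cn n) e q 0 = ⟪cp p q.1, cp p q.2⟫ := rfl
  unfold Fh mM mG
  rw [d0]
  push_cast
  ring

end cone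

end Vale.Agent.P224.R2.H135
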