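import Vale.Agent.P224.R2.H389.Sub2
import Vale.Agent.P224.R2.H135.Pt

/-!
Tables of the two functional inequalities as polynomial expressions.
-/

namespace Vale.Agent.P224.R2.H135

open Vale.Agent.P224.UE Vale.Agent.P224.POS Vale.Agent.P224.UG Vale.Agent.P224.PU
open Vale.Agent.P224.R2.H389
open scoped RealInnerProductSpace

noncomputable section

/-- an expression in the variable `k` alone -/
def isK (e : PE) : Bool :=
  PE.rec (motive := fun _ => Bool) (fun _ => true) (fun i => Nat.beq i 0)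
    (fun _ _ x y => and x y) (fun _ _ x y => and x y) (fun _ _ x y => and x y) (fun _ _ x => x) e

lemma ev_isK {e : PE} (h : isK e = true) {f g : ℕ → ℝ} (hfg : f 0 = g 0) :
    PE.ev f e = PE.ev g e := by
  induction e with
  | c n => rfl
  | v i =>
    have hi : i = 0 := Nat.eq_of_beq_eq_true h
    subst hi
    exact hfg
  | add a b ha hb =>
    have h' : (isK a && isK b) = true := h
    obtain ⟨h1, h2⟩ := (Bool.and_eq_true _ _).mp h'
    rw [PE.ev_add, PE.ev_add, ha h1, hb h2]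
  | sub a b ha hb =>
    have h' : (isK a && isK b) = true := h
    obtain ⟨h1, h2⟩ := (Bool.and_eq_true _ _).mp h'
    rw [PE.ev_sub, PE.ev_sub, ha h1, hb h2]
  | mul a b ha hb =>
    have h' : (isK a && isK b) = true := h
    obtain ⟨h1, h2⟩ := (Bool.and_eq_true _ _).mp h'
    rw [PE.ev_mul, PE.ev_mul, ha h1, hb h2]
  | pow a n ha =>
    have h' : isK a = true := h
    rw [PE.ev_pow, PE.ev_pow, ha h']

/-- elements with an index below `9` and a polynomial in `k` -/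
def elsK (els : List (Nat × PE)) : Bool := els.all fun x => and (Nat.ble x.1 8) (isK x.2)

lemma elsK_spec {els : List (Nat × PE)} (h : elsK els = true) (i : ℕ) :
    elk els i < 9 ∧ isK (elp els i) = true := by
  unfold elk elp
  by_cases hi : i < els.length
  · rw [List.getD_eq_getElem _ _ hi]
    have h1 := List.all_eq_true.1 h _ (List.getElem_mem hi)
    obtain ⟨h2, h3⟩ := (Bool.and_eq_true _ _).mp h1
    have h4 := Nat.le_of_ble_eq_true h2
    exact ⟨by omega, h3⟩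
  · rw [List.getD_eq_default _ _ (not_lt.1 hi)]
    exact ⟨by norm_num, rfl⟩

/-! ### The tables -/

/-- the even test functions -/
def hEp : List PE :=
  [.c 1, .sub (.c 1) (.mul (.c 2) (.v 3)), .mul (.c 2) (.add (.pow (.v 1) 2) (.pow (.v 2) 2)),
    .mul (.sub (.c 1) (.mul (.c 2) (.v 3))) (.mul (.c 2) (.add (.pow (.v 1) 2) (.pow (.v 2) 2))),
    .mul (.c 2) (.v 6), .mul (.sub (.c 1) (.mul (.c 2) (.v 3))) (.mul (.c 2) (.v 6)),
    .mul (.mul (.c 4) (.v 1)) (.v 4), .mul (.mul (.c 4) (.v 2)) (.v 5)]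

/-- `1 - k ^ 2` -/
def mk2 : PE := .sub (.c 1) (.pow (.v 0) 2)

/-- `1 + k ^ 2` -/
def pk2 : PE := .add (.c 1) (.pow (.v 0) 2)

/-- the sum and the difference of the squares of the two first variables -/
def sp : PE := .add (.pow (.v 1) 2) (.pow (.v 2) 2)

/-- the difference -/
def dp : PE := .sub (.pow (.v 1) 2) (.pow (.v 2) 2)

/-- `1 - 2 g` -/
def cg : PE := .sub (.c 1) (.mul (.c 2) (.v 3))

/-- the products of the even test functions with the even variable -/
def pEp : List PE :=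
  [.sub (.c 0) (.mul mk2 sp),
   .mul pk2 dp,
   .sub (.sub (.c 0) (.mul mk2 (.add (.mul (.c 2) sp) (.mul (.c 2) (.pow dp 2)))))
     (.mul (.mul (.mul (.c 4) pk2) dp) cg),
   .sub (.mul pk2 (.sub (.mul dp (.mul (.c 2) sp)) (.mul (.c 4) dp)))
     (.mul mk2 (.mul cg (.mul (.c 2) sp))),
   .sub (.c 0) (.mul mk2 (.add (.mul (.pow (.add (.v 1) (.v 2)) 2) (.sub (.v 6) (.v 7)))
     (.mul (.pow (.sub (.v 1) (.v 2)) 2) (.add (.v 6) (.v 7))))),
   .mul pk2 (.mul dp (.mul (.c 2) (.v 6))),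
   .sub (.sub (.add (.mul (.mul (.mul (.c 4) (.v 0)) (.v 2)) (.v 5))
       (.mul (.mul (.mul (.c 4) (.pow (.v 0) 2)) (.v 1)) (.v 4)))
     (.mul (.add (.mul mk2 dp) (.mul pk2 cg)) (.mul (.mul (.c 4) (.v 1)) (.v 4))))
     (.mul (.mul (.mul (.c 2) (.v 0)) dp) (.mul (.c 2) (.v 6))),
   .add (.sub (.sub (.mul (.add (.mul mk2 dp) (.mul pk2 cg)) (.mul (.mul (.c 4) (.v 2)) (.v 5)))
       (.mul (.mul (.c 4) (.v 2)) (.v 5)))
     (.mul (.mul (.mul (.c 4) (.v 0)) (.v 1)) (.v 4)))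
     (.mul (.mul (.c 2) dp) (.mul (.c 2) (.v 6)))]

/-- the bound of the square of the even variable -/
def cEp (N : Int) : PE :=
  .add (.add (.mul (.c N) (.pow pk2 2)) (.mul (.pow mk2 2) (.pow dp 2)))
    (.mul (.sub (.c 1) (.pow (.v 0) 4)) (.mul (.c 2) sp))

/-- the odd test functions -/
def hOp : List PE :=
  [.mul (.c 2) (.v 2), .mul cg (.mul (.c 2) (.v 2)),
    .sub (.pow (.add (.v 1) (.v 2)) 3) (.pow (.sub (.v 1) (.v 2)) 3),
    .mul dp (.mul (.c 2) (.v 2)), .mul (.c 2) (.v 5), .mul cg (.mul (.c 2) (.v 5)),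
    .sub (.mul (.add (.v 1) (.v 2)) (.add (.v 6) (.v 7)))
      (.mul (.sub (.v 1) (.v 2)) (.sub (.v 6) (.v 7))),
    .sub (.mul (.add (.v 1) (.v 2)) (.sub (.v 6) (.v 7)))
      (.mul (.sub (.v 1) (.v 2)) (.add (.v 6) (.v 7)))]

/-- the products of the odd test functions with the odd variable -/
def pOp : List PE :=
  [.sub (.c 0) (.mul (.mul (.c 4) (.v 0)) (.mul (.c 2) sp)),
   .sub (.c 0) (.mul (.mul (.c 4) (.v 0)) (.mul cg (.mul (.c 2) sp))),
   .sub (.c 0) (.mul (.mul (.c 4) (.v 0))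
     (.add (.add (.add (.mul (.c 2) (.pow (.add (.v 1) (.v 2)) 4))
       (.mul (.pow (.add (.v 1) (.v 2)) 3) (.sub (.v 1) (.v 2))))
       (.mul (.add (.v 1) (.v 2)) (.pow (.sub (.v 1) (.v 2)) 3)))
       (.mul (.c 2) (.pow (.sub (.v 1) (.v 2)) 4)))),
   .sub (.c 0) (.mul (.mul (.c 4) (.v 0)) (.mul dp (.mul (.c 2) sp))),
   .mul (.c 8) (.sub (.mul (.v 1) (.v 4)) (.mul (.mul (.v 0) (.v 2)) (.v 5))),
   .mul (.c 8) (.mul cg (.sub (.mul (.v 1) (.v 4)) (.mul (.mul (.v 0) (.v 2)) (.v 5)))),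
   .sub (.c 0) (.mul (.mul (.c 4) (.v 0))
     (.add (.mul (.pow (.add (.v 1) (.v 2)) 2) (.add (.v 6) (.v 7)))
       (.mul (.pow (.sub (.v 1) (.v 2)) 2) (.sub (.v 6) (.v 7))))),
   .sub (.c 0) (.mul (.mul (.c 4) (.v 0))
     (.add (.mul (.pow (.add (.v 1) (.v 2)) 2) (.sub (.v 6) (.v 7)))
       (.mul (.pow (.sub (.v 1) (.v 2)) 2) (.add (.v 6) (.v 7)))))]

/-- the bound of the square of the odd variable -/
def cOp (N : Int) : PE :=
  .mul (.add (.add (.mul (.mul (.c 8) (.c N)) (.pow pk2 2)) (.mul (.c 64) (.pow (.v 0) 2)))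
    (.mul (.c 16) (.sub (.c 1) (.pow (.v 0) 4)))) (.mul (.c 2) sp)

/-- an entry of a table -/
def ent9 (H P : List PE) (C : PE) (a b c : Int) (i j : Nat) : PE :=
  cond (Nat.beq i 8)
    (cond (Nat.beq j 8) (.mul (.c c) C) (.mul (.c b) (lk (fun _ => PE.c 0) P j)))
    (cond (Nat.beq j 8) (.mul (.c b) (lk (fun _ => PE.c 0) P i))
      (.mul (.c a) (.mul (lk (fun _ => PE.c 0) H i) (lk (fun _ => PE.c 0) H j))))

/-- an entry of the even table -/
def entE (a b c N : Int) (i j : Nat) : PE := ent9 hEp pEp (cEp N) a b c i j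

/-- an entry of the odd table -/
def entO (a b c N : Int) (i j : Nat) : PE := ent9 hOp pOp (cOp N) a b c i j

/-- the even table -/
def tE (a b c N : Int) : List (List PE) :=
  [[entE a b c N 0 0, entE a b c N 0 1, entE a b c N 0 2, entE a b c N 0 3, entE a b c N 0 4, entE a b c N 0 5, entE a b c N 0 6, entE a b c N 0 7, entE a b c N 0 8],
    [entE a b c N 1 0, entE a b c N 1 1, entE a b c N 1 2, entE a b c N 1 3, entE a b c N 1 4, entE a b c N 1 5, entE a b c N 1 6, entE a b c N 1 7, entE a b c N 1 8],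
    [entE a b c N 2 0, entE a b c N 2 1, entE a b c N 2 2, entE a b c N 2 3, entE a b c N 2 4, entE a b c N 2 5, entE a b c N 2 6, entE a b c N 2 7, entE a b c N 2 8],
    [entE a b c N 3 0, entE a b c N 3 1, entE a b c N 3 2, entE a b c N 3 3, entE a b c N 3 4, entE a b c N 3 5, entE a b c N 3 6, entE a b c N 3 7, entE a b c N 3 8],
    [entE a b c N 4 0, entE a b c N 4 1, entE a b c N 4 2, entE a b c N 4 3, entE a b c N 4 4, entE a b c N 4 5, entE a b c N 4 6, entE a b c N 4 7, entE a b c N 4 8],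
    [entE a b c N 5 0, entE a b c N 5 1, entE a b c N 5 2, entE a b c N 5 3, entE a b c N 5 4, entE a b c N 5 5, entE a b c N 5 6, entE a b c N 5 7, entE a b c N 5 8],
    [entE a b c N 6 0, entE a b c N 6 1, entE a b c N 6 2, entE a b c N 6 3, entE a b c N 6 4, entE a b c N 6 5, entE a b c N 6 6, entE a b c N 6 7, entE a b c N 6 8],
    [entE a b c N 7 0, entE a b c N 7 1, entE a b c N 7 2, entE a b c N 7 3, entE a b c N 7 4, entE a b c N 7 5, entE a b c N 7 6, entE a b c N 7 7, entE a b c N 7 8],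
    [entE a b c N 8 0, entE a b c N 8 1, entE a b c N 8 2, entE a b c N 8 3, entE a b c N 8 4, entE a b c N 8 5, entE a b c N 8 6, entE a b c N 8 7, entE a b c N 8 8]]

/-- the odd table -/
def tO (a b c N : Int) : List (List PE) :=
  [[entO a b c N 0 0, entO a b c N 0 1, entO a b c N 0 2, entO a b c N 0 3, entO a b c N 0 4, entO a b c N 0 5, entO a b c N 0 6, entO a b c N 0 7, entO a b c N 0 8],
    [entO a b c N 1 0, entO a b c N 1 1, entO a b c N 1 2, entO a b c N 1 3, entO a b c N 1 4, entO a b c N 1 5, entO a b c N 1 6, entO a b c N 1 7, entO a b c N 1 8],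
    [entO a b c N 2 0, entO a b c N 2 1, entO a b c N 2 2, entO a b c N 2 3, entO a b c N 2 4, entO a b c N 2 5, entO a b c N 2 6, entO a b c N 2 7, entO a b c N 2 8],
    [entO a b c N 3 0, entO a b c N 3 1, entO a b c N 3 2, entO a b c N 3 3, entO a b c N 3 4, entO a b c N 3 5, entO a b c N 3 6, entO a b c N 3 7, entO a b c N 3 8],
    [entO a b c N 4 0, entO a b c N 4 1, entO a b c N 4 2, entO a b c N 4 3, entO a b c N 4 4, entO a b c N 4 5, entO a b c N 4 6, entO a b c N 4 7, entO a b c N 4 8],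
    [entO a b c N 5 0, entO a b c N 5 1, entO a b c N 5 2, entO a b c N 5 3, entO a b c N 5 4, entO a b c N 5 5, entO a b c N 5 6, entO a b c N 5 7, entO a b c N 5 8],
    [entO a b c N 6 0, entO a b c N 6 1, entO a b c N 6 2, entO a b c N 6 3, entO a b c N 6 4, entO a b c N 6 5, entO a b c N 6 6, entO a b c N 6 7, entO a b c N 6 8],
    [entO a b c N 7 0, entO a b c N 7 1, entO a b c N 7 2, entO a b c N 7 3, entO a b c N 7 4, entO a b c N 7 5, entO a b c N 7 6, entO a b c N 7 7, entO a b c N 7 8],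
    [entO a b c N 8 0, entO a b c N 8 1, entO a b c N 8 2, entO a b c N 8 3, entO a b c N 8 4, entO a b c N 8 5, entO a b c N 8 6, entO a b c N 8 7, entO a b c N 8 8]]

lemma grT_tE (a b c N : Int) {i j : ℕ} (hi : i < 9) (hj : j < 9) :
    grT (tE a b c N) i j = entE a b c N i j := by
  interval_cases i <;> interval_cases j <;> rfl

lemma grT_tO (a b c N : Int) {i j : ℕ} (hi : i < 9) (hj : j < 9) :
    grT (tO a b c N) i j = entO a b c N i j := by
  interval_cases i <;> interval_cases j <;> rfl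

lemma ev_hEp (f : ℕ → ℝ) {i : ℕ} (hi : i < 8) :
    PE.ev f (lk (fun _ => PE.c 0) hEp i) = hE f i := by
  interval_cases i <;>
    simp only [hEp, lk_zero, lk_succ, hE, List.getD_cons_zero, List.getD_cons_succ, PE.ev_c,
      PE.ev_v, PE.ev_add, PE.ev_sub, PE.ev_mul, PE.ev_pow] <;> push_cast <;> ring

lemma ev_pEp (f : ℕ → ℝ) {i : ℕ} (hi : i < 8) :
    PE.ev f (lk (fun _ => PE.c 0) pEp i) = pE f i := by
  interval_cases i <;>
    simp only [pEp, mk2, pk2, sp, dp, cg, lk_zero, lk_succ, pE, List.getD_cons_zero,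
      List.getD_cons_succ, PE.ev_c, PE.ev_v, PE.ev_add, PE.ev_sub, PE.ev_mul, PE.ev_pow] <;>
    push_cast <;> ring

lemma ev_cEp (f : ℕ → ℝ) (N : Int) : PE.ev f (cEp N) = cE N f := by
  simp only [cEp, cE, mk2, pk2, sp, dp, PE.ev_c, PE.ev_v, PE.ev_add, PE.ev_sub, PE.ev_mul,
    PE.ev_pow]
  push_cast
  ring

lemma ev_hOp (f : ℕ → ℝ) {i : ℕ} (hi : i < 8) :
    PE.ev f (lk (fun _ => PE.c 0) hOp i) = hO f i := by
  interval_cases i <;>
    simp only [hOp, dp, cg, lk_zero, lk_succ, hO, List.getD_cons_zero, List.getD_cons_succ,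
      PE.ev_c, PE.ev_v, PE.ev_add, PE.ev_sub, PE.ev_mul, PE.ev_pow] <;> push_cast <;> ring

lemma ev_pOp (f : ℕ → ℝ) {i : ℕ} (hi : i < 8) :
    PE.ev f (lk (fun _ => PE.c 0) pOp i) = pO f i := by
  interval_cases i <;>
    simp only [pOp, sp, dp, cg, lk_zero, lk_succ, pO, List.getD_cons_zero,
      List.getD_cons_succ, PE.ev_c, PE.ev_v, PE.ev_add, PE.ev_sub, PE.ev_mul, PE.ev_pow] <;>
    push_cast <;> ring

lemma ev_cOp (f : ℕ → ℝ) (N : Int) : PE.ev f (cOp N) = cO N f := by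
  simp only [cOp, cO, pk2, sp, PE.ev_c, PE.ev_v, PE.ev_add, PE.ev_sub, PE.ev_mul, PE.ev_pow]
  push_cast
  ring

/-- the value of an entry -/
def val9 (a b c : ℝ) (H P : ℕ → ℝ) (C : ℝ) (i j : ℕ) : ℝ :=
  if i = 8 then (if j = 8 then c * C else b * P j)
  else (if j = 8 then b * P i else a * (H i * H j))

lemma val9_comm (a b c : ℝ) (H P : ℕ → ℝ) (C : ℝ) (i j : ℕ) :
    val9 a b c H P C i j = val9 a b c H P C j i := by
  unfold val9
  split_ifs <;> ring

lemma ev_ent9 {H P : List PE} {C : PE} {a b c : Int} {f : ℕ → ℝ} {h p : ℕ → ℝ} {C' : ℝ}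
    (hH : ∀ i < 8, PE.ev f (lk (fun _ => PE.c 0) H i) = h i)
    (hP : ∀ i < 8, PE.ev f (lk (fun _ => PE.c 0) P i) = p i) (hC : PE.ev f C = C')
    {i j : ℕ} (hi : i < 9) (hj : j < 9) :
    PE.ev f (ent9 H P C a b c i j) = val9 a b c h p C' i j := by
  have hb : ∀ i : ℕ, i ≠ 8 → Nat.beq i 8 = false := fun i hi => by
    rcases h : Nat.beq i 8 with _ | _
    · rfl
    · exact absurd (Nat.eq_of_beq_eq_true h) hi
  unfold ent9 val9
  by_cases h8 : i = 8
  · subst h8
    rw [if_pos rfl]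
    by_cases g8 : j = 8
    · subst g8
      rw [if_pos rfl]
      change PE.ev f (.mul (.c c) C) = _
      rw [PE.ev_mul, PE.ev_c, hC]
    · rw [if_neg g8, hb j g8]
      change PE.ev f (.mul (.c b) (lk (fun _ => PE.c 0) P j)) = _
      rw [PE.ev_mul, PE.ev_c, hP j (by omega)]
  · rw [if_neg h8, hb i h8]
    by_cases g8 : j = 8
    · subst g8
      rw [if_pos rfl]
      change PE.ev f (.mul (.c b) (lk (fun _ => PE.c 0) P i)) = _
      rw [PE.ev_mul, PE.ev_c, hP i (by omega)]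
    · rw [if_neg g8, hb j g8]
      change PE.ev f (.mul (.c a) (.mul (lk (fun _ => PE.c 0) H i) (lk (fun _ => PE.c 0) H j))) = _
      rw [PE.ev_mul, PE.ev_c, PE.ev_mul, hH i (by omega), hH j (by omega)]

lemma ev_tE (a b c N : Int) (f : ℕ → ℝ) {i j : ℕ} (hi : i < 9) (hj : j < 9) :
    PE.ev f (grT (tE a b c N) i j) = val9 a b c (hE f) (pE f) (cE N f) i j := by
  rw [grT_tE a b c N hi hj]
  exact ev_ent9 (fun i hi => ev_hEp f hi) (fun i hi => ev_pEp f hi) (ev_cEp f N) hi hj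

lemma ev_tO (a b c N : Int) (f : ℕ → ℝ) {i j : ℕ} (hi : i < 9) (hj : j < 9) :
    PE.ev f (grT (tO a b c N) i j) = val9 a b c (hO f) (pO f) (cO N f) i j := by
  rw [grT_tO a b c N hi hj]
  exact ev_ent9 (fun i hi => ev_hOp f hi) (fun i hi => ev_pOp f hi) (ev_cOp f N) hi hj

lemma len_tE (a b c N : Int) : (tE a b c N).length = 9 ∧ ∀ r ∈ tE a b c N, r.length = 9 := by
  refine ⟨rfl, fun r hr => ?_⟩
  simp only [tE, List.mem_cons, List.not_mem_nil, or_false] at hr
  rcases hr with rfl | rfl | rfl | rfl | rfl | rfl | rfl | rfl | rfl <;> rfl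

lemma len_tO (a b c N : Int) : (tO a b c N).length = 9 ∧ ∀ r ∈ tO a b c N, r.length = 9 := by
  refine ⟨rfl, fun r hr => ?_⟩
  simp only [tO, List.mem_cons, List.not_mem_nil, or_false] at hr
  rcases hr with rfl | rfl | rfl | rfl | rfl | rfl | rfl | rfl | rfl <;> rfl

lemma sym_tE (a b c N : Int) (f : ℕ → ℝ) (k l : ℕ) :
    PE.ev f (grT (tE a b c N) k l) = PE.ev f (grT (tE a b c N) l k) := by
  obtain ⟨h1, h2⟩ := len_tE a b c N
  by_cases h : k < 9 ∧ l < 9
  · rw [ev_tE a b c N f h.1 h.2, ev_tE a b c N f h.2 h.1, val9_comm]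
  · rw [grT_ge h1 h2 (by omega), grT_ge h1 h2 (by omega)]

lemma sym_tO (a b c N : Int) (f : ℕ → ℝ) (k l : ℕ) :
    PE.ev f (grT (tO a b c N) k l) = PE.ev f (grT (tO a b c N) l k) := by
  obtain ⟨h1, h2⟩ := len_tO a b c N
  by_cases h : k < 9 ∧ l < 9
  · rw [ev_tO a b c N f h.1 h.2, ev_tO a b c N f h.2 h.1, val9_comm]
  · rw [grT_ge h1 h2 (by omega), grT_ge h1 h2 (by omega)]

end

end Vale.Agent.P224.R2.H135
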